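import Vale.Agent.P084.Tools

/-! Alexandrov's theorem for norms (task T1). -/

open scoped RealInnerProductSpace Topology
open Filter Set MeasureTheory

namespace Vale.Agent.P084

section Aux

variable {E : Type*} [NormedAddCommGroup E] [InnerProductSpace ℝ E]

/-- `P` is the nearest point map of the set `K`. -/
def IsProj (K : Set E) (P : E → E) : Prop :=
  ∀ q, P q ∈ K ∧ ∀ w ∈ K, ⟪q - P q, w - P q⟫ ≤ 0

namespace IsProj

variable {K : Set E} {P : E → E}

theorem unique (h : IsProj K P) {q v : E} (hv : v ∈ K) (hle : ∀ w ∈ K, ⟪q - v, w - v⟫ ≤ 0) :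
    P q = v := by
  have h1 := hle _ (h q).1
  have h2 := (h q).2 v hv
  have h3 : ⟪P q - v, P q - v⟫ = ⟪q - v, P q - v⟫ + ⟪q - P q, v - P q⟫ := by
    simp only [inner_sub_left, inner_sub_right]
    ring
  have h4 : ⟪P q - v, P q - v⟫ = 0 := le_antisymm (by linarith) real_inner_self_nonneg
  exact sub_eq_zero.mp (inner_self_eq_zero.mp h4)

theorem mono (h : IsProj K P) (q q' : E) :
    ‖(q - P q) - (q' - P q')‖ ^ 2 ≤ ⟪(q - P q) - (q' - P q'), q - q'⟫ := by
  have h1 := (h q).2 _ (h q').1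
  have h2 := (h q').2 _ (h q).1
  have h3 : ⟪(q - P q) - (q' - P q'), q - q'⟫ = ⟪(q - P q) - (q' - P q'), (q - P q) - (q' - P q')⟫
      - ⟪q - P q, P q' - P q⟫ - ⟪q' - P q', P q - P q'⟫ := by
    simp only [inner_sub_left, inner_sub_right]
    ring
  rw [h3, real_inner_self_eq_norm_sq]
  linarith

theorem lipschitz (h : IsProj K P) : LipschitzWith 1 (fun q => q - P q) := by
  refine LipschitzWith.of_dist_le_mul fun q q' => ?_
  rw [dist_eq_norm, dist_eq_norm, NNReal.coe_one, one_mul]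
  have h1 := h.mono q q'
  have h2 := real_inner_le_norm ((q - P q) - (q' - P q')) (q - q')
  have h3 := norm_nonneg ((q - P q) - (q' - P q'))
  have h4 := norm_nonneg (q - q')
  by_contra hlt
  push Not at hlt
  nlinarith

theorem upper (h : IsProj K P) (q q' : E) :
    ‖q' - P q'‖ ^ 2 / 2 ≤ ‖q - P q‖ ^ 2 / 2 + ⟪q - P q, q' - q⟫ + ‖q' - q‖ ^ 2 / 2 := by
  have h1 := (h q').2 _ (h q).1
  have h2 : ‖q' - P q‖ ^ 2 = ‖q - P q‖ ^ 2 + 2 * ⟪q - P q, q' - q⟫ + ‖q' - q‖ ^ 2 := by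
    rw [← norm_add_sq_real]
    congr 2
    abel
  have h3 : ‖q' - P q‖ ^ 2 =
      ‖q' - P q'‖ ^ 2 - 2 * ⟪q' - P q', P q - P q'⟫ + ‖P q - P q'‖ ^ 2 := by
    rw [← norm_sub_sq_real]
    congr 2
    abel
  nlinarith [sq_nonneg ‖P q - P q'‖]

theorem hasFDerivAt (h : IsProj K P) (q : E) :
    HasFDerivAt (fun q => ‖q - P q‖ ^ 2 / 2) (innerSL ℝ (q - P q)) q := by
  rw [hasFDerivAt_iff_isLittleO, Asymptotics.isLittleO_iff]
  intro c hc
  filter_upwards [Metric.ball_mem_nhds q hc] with q' hq'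
  rw [mem_ball_iff_norm] at hq'
  have h1 := h.upper q q'
  have h2 := h.upper q' q
  have h3 := h.mono q' q
  have h4 : ⟪q' - P q', q - q'⟫ = -⟪q' - P q', q' - q⟫ := by
    rw [← inner_neg_right, neg_sub]
  rw [norm_sub_rev q q', h4] at h2
  rw [inner_sub_left] at h3
  have h5 := norm_nonneg (q' - q)
  have h6 : ‖q' - q‖ ^ 2 ≤ c * ‖q' - q‖ := by nlinarith
  have h7 := sq_nonneg ‖(q' - P q') - (q - P q)‖
  have h8 := sq_nonneg ‖q' - q‖
  rw [Real.norm_eq_abs, innerSL_apply_apply, abs_le]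
  constructor <;> linarith

theorem symm [FiniteDimensional ℝ E] (h : IsProj K P) {q : E} {S : E →L[ℝ] E}
    (hS : HasFDerivAt (fun q => q - P q) S q) (a b : E) : ⟪S a, b⟫ = ⟪a, S b⟫ := by
  let B₀ : E →ₗ[ℝ] (E →L[ℝ] ℝ) :=
    { toFun := fun v => innerSL ℝ v
      map_add' := fun v w => by ext z; simp
      map_smul' := fun c v => by ext z; simp }
  let B : E →L[ℝ] (E →L[ℝ] ℝ) := LinearMap.toContinuousLinearMap B₀
  have h1 : HasFDerivAt (fun y => innerSL ℝ (y - P y)) (B.comp S) q :=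
    B.hasFDerivAt.comp q hS
  have h2 := second_derivative_symmetric h.hasFDerivAt h1 a b
  have h3 : ∀ v w, (B.comp S) v w = ⟪S v, w⟫ := fun v w => rfl
  rw [h3, h3] at h2
  rw [h2, real_inner_comm]

/-- The inverse of `q ↦ q - P q` is differentiable at the image of a regular point. -/
theorem approx (h : IsProj K P) {q : E} {S T : E →L[ℝ] E}
    (hS : HasFDerivAt (fun q => q - P q) S q) (hT : ∀ v, T (S v) = v) {ε : ℝ} (hε : 0 < ε) :
    ∀ᶠ x' in 𝓝 (q - P q), ∀ q', q' - P q' = x' →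
      ‖q' - q - T (x' - (q - P q))‖ ≤ ε * ‖x' - (q - P q)‖ := by
  set C : ℝ := ‖T‖ + 1 with hC
  have hC0 : 0 < C := by positivity
  have hTle : ∀ v, ‖T v‖ ≤ C * ‖v‖ := fun v =>
    (T.le_opNorm v).trans (mul_le_mul_of_nonneg_right (by linarith) (norm_nonneg v))
  set η : ℝ := min (1 / (2 * C)) (ε / (2 * C ^ 2)) with hη
  have hη0 : 0 < η := by positivity
  have hη1 : C * η ≤ 1 / 2 := by
    have : η ≤ 1 / (2 * C) := min_le_left _ _
    rw [le_div_iff₀ (by positivity)] at this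
    linarith
  have hη2 : 2 * C ^ 2 * η ≤ ε := by
    have : η ≤ ε / (2 * C ^ 2) := min_le_right _ _
    rw [le_div_iff₀ (by positivity)] at this
    linarith
  have h1 := Asymptotics.isLittleO_iff.mp hS.isLittleO hη0
  obtain ⟨δ₀, hδ₀, h2⟩ := Metric.eventually_nhds_iff.mp h1
  set δ := δ₀ / 2 with hδ
  have hδ0 : 0 < δ := by positivity
  have h3 : ∀ y, ‖y - q‖ ≤ δ → ‖(y - P y) - (q - P q) - S (y - q)‖ ≤ η * ‖y - q‖ := by
    intro y hy
    apply h2
    rw [dist_eq_norm]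
    linarith
  have h4 : ∀ y, ‖y - q‖ ≤ δ → ‖y - q - T ((y - P y) - (q - P q))‖ ≤ C * η * ‖y - q‖ := by
    intro y hy
    have h5 : y - q - T ((y - P y) - (q - P q)) = -T ((y - P y) - (q - P q) - S (y - q)) := by
      rw [map_sub T _ (S _), hT]
      abel
    rw [h5, norm_neg, mul_assoc]
    exact (hTle _).trans (mul_le_mul_of_nonneg_left (h3 y hy) hC0.le)
  have h5 : ∀ y, ‖y - q‖ ≤ δ → ‖y - q‖ ≤ 2 * C * ‖(y - P y) - (q - P q)‖ := by
    intro y hy
    have h6 := h4 y hy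
    have h7 := hTle ((y - P y) - (q - P q))
    have h8 := norm_sub_norm_le (y - q) (T ((y - P y) - (q - P q)))
    have h9 : C * η * ‖y - q‖ ≤ 1 / 2 * ‖y - q‖ := mul_le_mul_of_nonneg_right hη1 (norm_nonneg _)
    linarith
  have hr : 0 < δ / (4 * C ^ 2) := by positivity
  filter_upwards [Metric.ball_mem_nhds (q - P q) hr] with x' hx' q' hq'
  rw [mem_ball_iff_norm, lt_div_iff₀ (by positivity)] at hx'
  have hnear : ‖q' - q‖ ≤ δ := by
    by_contra hfar
    push Not at hfar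
    set v := q' - q with hv
    have hv0 : 0 < ‖v‖ := hδ0.trans hfar
    set t : ℝ := δ / ‖v‖ with ht
    have ht0 : 0 < t := by positivity
    have ht1 : t < 1 := by rw [ht, div_lt_one hv0]; exact hfar
    have htv : t * ‖v‖ = δ := by rw [ht]; field_simp
    set y := q + t • v with hy
    have hyq : y - q = t • v := by rw [hy]; abel
    have hqy : q' - y = (1 - t) • v := by rw [hy, sub_smul, one_smul, hv]; abel
    have hny : ‖y - q‖ = δ := by rw [hyq, norm_smul, Real.norm_eq_abs, abs_of_pos ht0, htv]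
    have e1 := h.mono q' y
    have e2 := h.mono y q
    rw [hqy, inner_smul_right, hq'] at e1
    rw [hyq, inner_smul_right] at e2
    have e3 : 0 ≤ ⟪x' - (y - P y), v⟫ :=
      nonneg_of_mul_nonneg_right ((sq_nonneg _).trans e1) (by linarith) |> fun h => h
    have e4 : ⟪x' - (q - P q), v⟫ = ⟪x' - (y - P y), v⟫ + ⟪(y - P y) - (q - P q), v⟫ := by
      rw [← inner_add_left]
      congr 1
      abel
    have e5 := real_inner_le_norm (x' - (q - P q)) v
    have e6 := h5 y hny.le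
    rw [hny] at e6
    have e7 : ‖(y - P y) - (q - P q)‖ ^ 2 ≤ ‖x' - (q - P q)‖ * δ := by
      rw [← htv]
      have : t * ⟪(y - P y) - (q - P q), v⟫ ≤ t * (‖x' - (q - P q)‖ * ‖v‖) :=
        mul_le_mul_of_nonneg_left (by linarith) ht0.le
      linarith
    have e8 : δ ^ 2 ≤ (2 * C * ‖(y - P y) - (q - P q)‖) ^ 2 := pow_le_pow_left₀ hδ0.le e6 2
    have e9 : δ ^ 2 ≤ 4 * C ^ 2 * (‖x' - (q - P q)‖ * δ) := by
      have : 4 * C ^ 2 * ‖(y - P y) - (q - P q)‖ ^ 2 ≤ 4 * C ^ 2 * (‖x' - (q - P q)‖ * δ) :=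
        mul_le_mul_of_nonneg_left e7 (by positivity)
      nlinarith
    nlinarith
  have f1 := h4 q' hnear
  have f2 := h5 q' hnear
  rw [hq'] at f1 f2
  have f3 : C * η * ‖q' - q‖ ≤ C * η * (2 * C * ‖x' - (q - P q)‖) :=
    mul_le_mul_of_nonneg_left f2 (by positivity)
  have f4 : 2 * C ^ 2 * η * ‖x' - (q - P q)‖ ≤ ε * ‖x' - (q - P q)‖ :=
    mul_le_mul_of_nonneg_right hη2 (norm_nonneg _)
  nlinarith

end IsProj

theorem exists_isProj [FiniteDimensional ℝ E] {N : E → ℝ} (h : IsNorm N) :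
    ∃ P, IsProj {φ | N φ ≤ 1} P := by
  have hconv : Convex ℝ {φ | N φ ≤ 1} := by
    have := h.convexOn.convex_le 1
    simpa using this
  have hne : ({φ | N φ ≤ 1} : Set E).Nonempty := ⟨0, by simp [h.zero]⟩
  have hcomp : IsComplete {φ | N φ ≤ 1} := (h.isCompact_le 1).isComplete
  choose P hP hP' using exists_norm_eq_iInf_of_complete_convex hne hcomp hconv
  exact ⟨P, fun q => ⟨hP q, (norm_eq_iInf_iff_real_inner_le_zero hconv (hP q)).mp (hP' q)⟩⟩

theorem IsProj.of_sub {N N' : E → ℝ} (h : DualPair N N') {P : E → E}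
    (hP : IsProj {φ | N' φ ≤ 1} P) {x φ : E} (hs : Sub N N' x φ) : P (x + φ) = φ := by
  refine hP.unique hs.1 fun w hw => ?_
  have h1 := h.le x w
  have h2 := h.n.nonneg x
  have h3 : N' w ≤ 1 := hw
  rw [add_sub_cancel_right, inner_sub_right, real_inner_comm w x, real_inner_comm φ x] 
  rw [real_inner_comm, real_inner_comm x φ] 
  rw [real_inner_comm] at h1
  have h4 := hs.2
  rw [real_inner_comm] at h4
  nlinarith

end Aux

variable {E : Type*} [NormedAddCommGroup E] [InnerProductSpace ℝ E] [FiniteDimensional ℝ E]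
  [MeasurableSpace E] [BorelSpace E]

/-- Almost every point is an Alexandrov point of the norm `N`.
Proof plan. Let `K = {φ | N' φ ≤ 1}` (compact convex, `IsNorm.isCompact_le`), `P q` the Euclidean
nearest point of `K` to `q` (`exists_norm_eq_iInf_of_complete_convex`,
`norm_eq_iInf_iff_real_inner_le_zero`), `X q = q - P q`.
* `Sub N N' x φ → P (x + φ) = φ`, so `X (x + φ) = x`.
* `⟪P q - P q', X q - X q'⟫ ≥ 0`; hence `P`, `X` are 1-Lipschitz and
  `⟪X q - X q', q - q'⟫ ≥ ‖X q - X q'‖ ^ 2`.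
* `g q = ‖X q‖ ^ 2 / 2` has `HasFDerivAt g (innerSL ℝ (X q)) q` everywhere (two sided quadratic
  bound), so a derivative `S` of `X` at `q` is symmetric (`second_derivative_symmetric`).
* bad `q`: `X` not differentiable (null by Rademacher, image null since `X` is Lipschitz) or
  `det S = 0` (image null by `addHaar_image_eq_zero_of_det_fderivWithin_eq_zero`).
* for `x` outside the image of the bad set take any `φ` with `Sub N N' x φ`, `q = x + φ`,
  `h = S⁻¹ - 1`. For `Sub N N' x' φ'`, `q' = x' + φ'` tends to `q` when `x' → x`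
  (use monotonicity along the segment from `q` to `q'`), and then
  `x' - x = S (q' - q) + o(q' - q)` gives the estimate. -/
theorem alex_ae {N N' : E → ℝ} (h : DualPair N N') (μ : Measure E) [μ.IsAddHaarMeasure] :
    ∀ᵐ x ∂μ, ∃ (φ : E) (H : E →L[ℝ] E), Alex N N' x φ H := by
  obtain ⟨P, hP⟩ := exists_isProj h.n'
  set X : E → E := fun q => q - P q with hX
  have hlip : LipschitzWith 1 X := hP.lipschitz
  have hB1 : μ (X '' {q | ¬ DifferentiableAt ℝ X q}) = 0 :=
    null_image_of_lipschitz μ hlip (ae_iff.mp hlip.ae_differentiableAt)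
  have hB2 : μ (X '' {q | DifferentiableAt ℝ X q ∧ (fderiv ℝ X q).det = 0}) = 0 :=
    addHaar_image_eq_zero_of_det_fderivWithin_eq_zero μ (f' := fderiv ℝ X)
      (fun q hq => hq.1.hasFDerivAt.hasFDerivWithinAt) (fun q hq => hq.2)
  filter_upwards [compl_mem_ae_iff.mpr hB1, compl_mem_ae_iff.mpr hB2] with x hx1 hx2
  obtain ⟨φ, hφ⟩ := h.exists_sub x
  have hXs : ∀ x' φ', Sub N N' x' φ' → (x' + φ') - P (x' + φ') = x' := by
    intro x' φ' hs
    rw [hP.of_sub h hs, add_sub_cancel_right]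
  have hq : X (x + φ) = x := hXs x φ hφ
  have hd : DifferentiableAt ℝ X (x + φ) := by
    by_contra hn
    exact hx1 ⟨x + φ, hn, hq⟩
  have hdet : (fderiv ℝ X (x + φ)).det ≠ 0 := fun h0 => hx2 ⟨x + φ, ⟨hd, h0⟩, hq⟩
  set S := fderiv ℝ X (x + φ) with hS
  have hS' : HasFDerivAt (fun q => q - P q) S (x + φ) := hd.hasFDerivAt
  let e := S.toContinuousLinearEquivOfDetNeZero hdet
  let T : E →L[ℝ] E := e.symm
  have hTS : ∀ v, T (S v) = v := fun v => e.symm_apply_apply v
  have hST : ∀ v, S (T v) = v := fun v => e.apply_symm_apply v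
  refine ⟨φ, T - 1, hφ, ?_, ?_⟩
  · intro a b
    have h1 : ⟪T a, b⟫ = ⟪a, T b⟫ := by
      have h2 := hP.symm hS' (T a) (T b)
      rw [hST, hST] at h2
      exact h2.symm
    simp only [sub_apply, one_apply_eq_self, inner_sub_left, inner_sub_right, h1]
  · intro ε hε
    have h1 := hP.approx hS' hTS hε
    rw [hXs x φ hφ] at h1
    filter_upwards [h1] with x' hx' φ' hs
    have h2 := hx' (x' + φ') (hXs x' φ' hs)
    have h3 : φ' - φ - (T - 1) (x' - x) = x' + φ' - (x + φ) - T (x' - x) := by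
      simp only [sub_apply, one_apply_eq_self]
      abel
    rw [h3]
    exact h2

end Vale.Agent.P084
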