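import Vale.Agent.P084.Basic

/-! Consequences of the Alexandrov property, and basic facts on sphere isometries. -/

open scoped RealInnerProductSpace Topology
open Filter Set

namespace Vale.Agent.P084

variable {E : Type*} [NormedAddCommGroup E] [InnerProductSpace ℝ E] {N N' : E → ℝ}

theorem DualPair.sub_eq_of_hasFDerivAt (hN : DualPair N N') {x g φ : E}
    (hg : HasFDerivAt N (innerSL ℝ g) x) (hs : Sub N N' x φ) : φ = g := by
  have hmin : IsLocalMin (fun z => N z - ⟪φ, z⟫) x := by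
    refine Eventually.of_forall fun z => ?_
    have := hN.inner_le_of_sub hs z
    have h2 := hs.2
    simp only
    linarith
  have hd : HasFDerivAt (fun z => N z - ⟪φ, z⟫) (innerSL ℝ g - innerSL ℝ φ) x :=
    hg.sub (innerSL ℝ φ).hasFDerivAt
  have h0 := hmin.hasFDerivAt_eq_zero hd
  have h1 : ⟪g - φ, g - φ⟫ = 0 := by
    have := congrArg (fun L : E →L[ℝ] ℝ => L (g - φ)) h0
    rw [inner_sub_left]
    simpa using this
  have := inner_self_eq_zero.mp h1
  exact (sub_eq_zero.mp this).symm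

theorem DualPair.sub_of_hasFDerivAt (hN : DualPair N N') {x g : E}
    (hg : HasFDerivAt N (innerSL ℝ g) x) : Sub N N' x g := by
  obtain ⟨φ, hφ⟩ := hN.exists_sub x
  rwa [← hN.sub_eq_of_hasFDerivAt hg hφ]

theorem back_of_hasFDerivAt {x g e : E} (hg : HasFDerivAt N (innerSL ℝ g) x)
    (he : ⟪g, e⟫ < 0) : Back N x e := by
  have h1 : HasDerivAt (fun s : ℝ => x + s • e) e 0 := by
    simpa using ((hasDerivAt_id (0 : ℝ)).smul_const e).const_add x
  have h2 : HasDerivAt (fun s : ℝ => N (x + s • e)) ⟪g, e⟫ 0 := by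
    have := HasFDerivAt.comp_hasDerivAt (0 : ℝ) (f := fun s : ℝ => x + s • e)
      (by simpa using hg) h1
    simpa [Function.comp_def] using this
  have h3 := (hasDerivAt_iff_tendsto_slope_zero.mp h2).mono_left
    (nhdsWithin_mono _ (fun s (hs : s ∈ Ioi (0 : ℝ)) => (ne_of_gt hs : s ∈ ({0}ᶜ : Set ℝ))))
  have h4 := (h3.eventually (gt_mem_nhds he)).and self_mem_nhdsWithin
  obtain ⟨s, hs1, hs2⟩ := h4.exists
  refine ⟨s, hs2, ?_⟩
  simp only [zero_add, zero_smul, add_zero, smul_eq_mul] at hs1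
  have hs3 : (0 : ℝ) < s := hs2
  have := mul_neg_of_pos_of_neg hs3 hs1
  rw [← mul_assoc, mul_inv_cancel₀ hs3.ne', one_mul] at this
  linarith

namespace Alex

variable {x φ : E} {H : E →L[ℝ] E}

theorem unique (ha : Alex N N' x φ H) {φ' : E} (hs : Sub N N' x φ') : φ' = φ := by
  have := (ha.approx 1 one_pos).self_of_nhds φ' hs
  simpa [sub_eq_zero] using this

theorem quadN (hN : DualPair N N') (ha : Alex N N' x φ H) :
    (fun x' => N x' - N x - ⟪φ, x' - x⟫) =O[𝓝 x] fun x' => ‖x' - x‖ ^ 2 := by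
  refine Asymptotics.IsBigO.of_bound (‖H‖ + 1) ?_
  filter_upwards [ha.approx 1 one_pos] with x' hx'
  obtain ⟨φ', hφ'⟩ := hN.exists_sub x'
  have h1 := hx' φ' hφ'
  have h2 := hN.sub_ineq ha.sub x'
  have h3 := hN.sub_ineq hφ' x
  have h4 : ‖φ' - φ‖ ≤ (‖H‖ + 1) * ‖x' - x‖ := by
    have h5 := norm_add_le (φ' - φ - H (x' - x)) (H (x' - x))
    have h6 := H.le_opNorm (x' - x)
    rw [sub_add_cancel] at h5
    linarith
  have h7 : ⟪φ' - φ, x' - x⟫ ≤ ‖φ' - φ‖ * ‖x' - x‖ := real_inner_le_norm _ _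
  have h8 : ⟪φ', x - x'⟫ = -⟪φ', x' - x⟫ := by rw [← inner_neg_right, neg_sub]
  rw [inner_sub_left] at h7
  rw [Real.norm_eq_abs, abs_of_nonneg (by linarith), Real.norm_eq_abs,
    abs_of_nonneg (by positivity)]
  nlinarith [mul_le_mul_of_nonneg_right h4 (norm_nonneg (x' - x))]

end Alex

theorem isLittleO_sq (x : E) : (fun x' => ‖x' - x‖ ^ 2) =o[𝓝 x] fun x' => x' - x := by
  have h1 : Tendsto (fun x' => x' - x) (𝓝 x) (𝓝 0) := by
    have : Continuous fun x' : E => x' - x := by fun_prop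
    simpa using this.tendsto x
  exact (Asymptotics.isLittleO_norm_pow_id (E' := E) (by norm_num : 1 < 2)).comp_tendsto h1

theorem Quad.hasFDerivAt {F : E → E} {x : E} {A : E →L[ℝ] E} (h : Quad F x A) :
    HasFDerivAt F A x :=
  hasFDerivAt_iff_isLittleO.mpr (Asymptotics.IsBigO.trans_isLittleO h (isLittleO_sq x))

namespace Alex

variable {x φ : E} {H : E →L[ℝ] E}

theorem hasFDerivAt (hN : DualPair N N') (ha : Alex N N' x φ H) :
    HasFDerivAt N (innerSL ℝ φ) x :=
  hasFDerivAt_iff_isLittleO.mpr ((ha.quadN hN).trans_isLittleO (isLittleO_sq x))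

theorem comp_hasFDerivAt (ha : Alex N N' x φ H) {A : Type*} [NormedAddCommGroup A]
    [NormedSpace ℝ A] {a b : A → E} {a' : A →L[ℝ] E} {z : A} (ha' : HasFDerivAt a a' z)
    (hz : a z = x) (hb : ∀ᶠ w in 𝓝 z, Sub N N' (a w) (b w)) :
    HasFDerivAt b (H.comp a') z := by
  have hbz : b z = φ := ha.unique (hz ▸ hb.self_of_nhds)
  have ht : Tendsto a (𝓝 z) (𝓝 x) := hz ▸ ha'.continuousAt
  have h1 : (fun w => b w - φ - H (a w - x)) =o[𝓝 z] fun w => a w - x := by
    refine Asymptotics.isLittleO_iff.mpr fun ε hε => ?_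
    filter_upwards [ht.eventually (ha.approx ε hε), hb] with w hw1 hw2
    exact hw1 _ hw2
  have h2 : (fun w => a w - x) =O[𝓝 z] fun w => w - z := hz ▸ ha'.isBigO_sub
  have h3 := h1.trans_isBigO h2
  have h4 : (fun w => H (a w - a z - a' (w - z))) =o[𝓝 z] fun w => w - z :=
    (H.isBigO_comp _ _).trans_isLittleO (hasFDerivAt_iff_isLittleO.mp ha')
  rw [hasFDerivAt_iff_isLittleO]
  refine (h3.add h4).congr_left fun w => ?_
  simp only [hbz, hz, map_sub, ContinuousLinearMap.comp_apply]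
  abel

theorem psd (hN : DualPair N N') (ha : Alex N N' x φ H) (v : E) : 0 ≤ ⟪H v, v⟫ := by
  refine le_of_forall_pos_le_add fun ε hε => ?_
  have hη : 0 < ε / (‖v‖ ^ 2 + 1) := by positivity
  have ht : Tendsto (fun s : ℝ => x + s • v) (𝓝[>] 0) (𝓝 x) := by
    have : Continuous fun s : ℝ => x + s • v := by fun_prop
    simpa using (this.tendsto 0).mono_left nhdsWithin_le_nhds
  obtain ⟨s, hs1, hs2⟩ := ((ht.eventually (ha.approx _ hη)).and self_mem_nhdsWithin).exists
  have hs : (0 : ℝ) < s := hs2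
  obtain ⟨φ', hφ'⟩ := hN.exists_sub (x + s • v)
  have h1 := hs1 φ' hφ'
  rw [add_sub_cancel_left, map_smul, norm_smul, Real.norm_eq_abs, abs_of_pos hs] at h1
  have h2 := hN.sub_ineq ha.sub (x + s • v)
  have h3 := hN.sub_ineq hφ' x
  rw [add_sub_cancel_left, inner_smul_right] at h2
  have h4 : x - (x + s • v) = (-s) • v := by module
  rw [h4, inner_smul_right] at h3
  have h5 : ⟪φ' - φ - s • H v, v⟫ ≤ ‖φ' - φ - s • H v‖ * ‖v‖ := real_inner_le_norm _ _
  rw [inner_sub_left, inner_sub_left, inner_smul_left] at h5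
  simp only [conj_trivial] at h5
  have h6 : 0 ≤ ⟪φ', v⟫ - ⟪φ, v⟫ := by
    by_contra hlt
    push Not at hlt
    nlinarith
  have h7 : ‖φ' - φ - s • H v‖ * ‖v‖ ≤ s * ε := by
    have h8 := mul_le_mul_of_nonneg_right h1 (norm_nonneg v)
    have h9 : ε / (‖v‖ ^ 2 + 1) * ‖v‖ ^ 2 ≤ ε := by
      rw [div_mul_eq_mul_div, div_le_iff₀ (by positivity)]
      nlinarith
    nlinarith
  have : 0 ≤ s * (⟪H v, v⟫ + ε) := by nlinarith
  exact nonneg_of_mul_nonneg_right this hs |>.trans_eq rfl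

/-- Second order flatness along the kernel of the Hessian. -/
theorem ker_bound (hN : DualPair N N') (ha : Alex N N' x φ H) {χ : E} (hχ : H χ = 0)
    {η : ℝ} (hη : 0 < η) :
    ∀ᶠ ε in 𝓝 (0 : ℝ), N (x + ε • χ) ≤ N x + ε * ⟪φ, χ⟫ + η * ε ^ 2 := by
  have hη' : 0 < η / (‖χ‖ ^ 2 + 1) := by positivity
  have ht : Tendsto (fun s : ℝ => x + s • χ) (𝓝 0) (𝓝 x) := by
    have : Continuous fun s : ℝ => x + s • χ := by fun_prop
    simpa using this.tendsto 0
  filter_upwards [ht.eventually (ha.approx _ hη')] with ε hε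
  obtain ⟨φ', hφ'⟩ := hN.exists_sub (x + ε • χ)
  have h1 := hε φ' hφ'
  rw [add_sub_cancel_left, map_smul, hχ, smul_zero, sub_zero] at h1
  have h3 := hN.sub_ineq hφ' x
  have h4 : x - (x + ε • χ) = -(ε • χ) := by module
  rw [h4, inner_neg_right] at h3
  have h5 : ⟪φ' - φ, ε • χ⟫ ≤ ‖φ' - φ‖ * ‖ε • χ‖ := real_inner_le_norm _ _
  rw [inner_sub_left, inner_smul_right φ] at h5
  have h6 : ‖ε • χ‖ ^ 2 = ε ^ 2 * ‖χ‖ ^ 2 := by
    rw [norm_smul, mul_pow, Real.norm_eq_abs, sq_abs]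
  have h7 : η / (‖χ‖ ^ 2 + 1) * ‖χ‖ ^ 2 ≤ η := by
    rw [div_mul_eq_mul_div, div_le_iff₀ (by positivity)]
    nlinarith
  have h8 := mul_le_mul_of_nonneg_right h1 (norm_nonneg (ε • χ))
  have h9 : η / (‖χ‖ ^ 2 + 1) * ‖ε • χ‖ * ‖ε • χ‖ ≤ η * ε ^ 2 := by
    rw [mul_assoc, ← sq, h6]
    nlinarith [mul_le_mul_of_nonneg_right h7 (sq_nonneg ε)]
  linarith

end Alex

namespace SphIso

variable {M : E → ℝ} {F G : E → E}

theorem lip3_aux (hN : IsNorm N) (hM : IsNorm M) (h : SphIso N M F G) {x x' : E}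
    (hle : N x' ≤ N x) : M (F x - F x') ≤ 3 * N (x - x') := by
  by_cases hx : x = 0
  · have : x' = 0 := hN.eq_zero (le_antisymm (by rw [hx, hN.zero] at hle; exact hle)
      (hN.nonneg _))
    simp [hx, this, hM.zero, hN.zero]
  have hpos := hN.pos x hx
  set c := N x' / N x with hc
  have hc0 : 0 ≤ c := div_nonneg (hN.nonneg _) hpos.le
  have hc1 : c ≤ 1 := (div_le_one hpos).mpr hle
  have hcx : c * N x = N x' := by rw [hc]; field_simp
  have h1 : N (c • x) = N x' := by rw [hN.smul_nonneg hc0, hcx]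
  have h2 := h.iso _ _ h1
  have h3 : F x - F x' = (1 - c) • F x + (F (c • x) - F x') := by
    rw [h.hom c x hc0]; module
  have h4 := hM.add_le ((1 - c) • F x) (F (c • x) - F x')
  rw [← h3, hM.smul_nonneg (by linarith), h.nrm, h2] at h4
  have h5 : c • x - x' = (x - x') - (1 - c) • x := by module
  have h6 := hN.sub_le (x - x') ((1 - c) • x)
  rw [← h5, hN.smul_nonneg (by linarith)] at h6
  have h7 := hN.le_add_sub x x'
  nlinarith

theorem lip3 (hN : IsNorm N) (hM : IsNorm M) (h : SphIso N M F G) (x x' : E) :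
    M (F x - F x') ≤ 3 * N (x - x') := by
  rcases le_total (N x') (N x) with hle | hle
  · exact h.lip3_aux hN hM hle
  · rw [hM.sub_comm, hN.sub_comm]
    exact h.lip3_aux hN hM hle

theorem lipschitz [FiniteDimensional ℝ E] (hN : IsNorm N) (hM : IsNorm M) (h : SphIso N M F G) :
    ∃ K, LipschitzWith K F := by
  obtain ⟨K, hK, hup⟩ := hN.exists_upper
  obtain ⟨c, hc, hlo⟩ := hM.exists_lower
  refine ⟨⟨3 * K / c, by positivity⟩, LipschitzWith.of_dist_le_mul fun x y => ?_⟩
  rw [dist_eq_norm, dist_eq_norm]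
  change _ ≤ 3 * K / c * _
  rw [div_mul_eq_mul_div, le_div_iff₀ hc]
  have := h.lip3 hN hM x y
  have := hlo (F x - F y)
  have := hup (x - y)
  nlinarith

theorem continuous [FiniteDimensional ℝ E] (hN : IsNorm N) (hM : IsNorm M) (h : SphIso N M F G) :
    Continuous F := by
  obtain ⟨K, hK⟩ := h.lipschitz hN hM
  exact hK.continuous

/-- The star lemma. -/
theorem star [FiniteDimensional ℝ E] (hN : DualPair N N') (hM : IsNorm M) (h : SphIso N M F G)
    {x p : E} (hp : N p = N x) (hs : N (x + p) = 2 * N x) : M (F x + F p) = 2 * N x := by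
  have hup : M (F x + F p) ≤ 2 * N x := by
    have := hM.add_le (F x) (F p)
    rw [h.nrm, h.nrm, hp] at this
    linarith
  refine le_antisymm hup ?_
  have hcont : Continuous fun θ : ℝ => M (F x + F (p + θ • (x - p))) :=
    hM.continuous.comp (continuous_const.add ((h.continuous hN.n hM).comp (by fun_prop)))
  have key : ∀ θ : ℝ, θ ∈ Ioo (0 : ℝ) 1 → 2 * N x ≤ M (F x + F (p + θ • (x - p))) := by
    intro θ hθ
    set m := p + θ • (x - p) with hm
    obtain ⟨φ0, hφ0⟩ := hN.exists_sub (x + p)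
    have a1 := hN.inner_le_of_sub hφ0 x
    have a2 := hN.inner_le_of_sub hφ0 p
    have a3 := hφ0.2
    rw [inner_add_right, hs] at a3
    have hmc : m = θ • x + (1 - θ) • p := by rw [hm]; module
    have hm1 : N m ≤ N x := by
      have := hN.n.convex_comb x p hθ.1.le (sub_nonneg.mpr hθ.2.le)
      rw [← hmc, hp] at this
      linarith
    have hm2 : N x ≤ N m := by
      have := hN.inner_le_of_sub hφ0 m
      rw [hmc, inner_add_right, inner_smul_right, inner_smul_right, ← hmc] at this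
      have b1 : ⟪φ0, x⟫ = N x := by linarith
      have b2 : ⟪φ0, p⟫ = N x := by linarith
      rw [b1, b2] at this
      linarith
    have hmx : N m = N x := le_antisymm hm1 hm2
    set v := G (-F m) with hv
    have hFv : F v = -F m := h.fg _
    have hNv : N v = N x := by rw [← h.nrm, hFv, hM.neg, h.nrm, hmx]
    have c1 : N (m - v) = 2 * N x := by
      rw [← h.iso m v (hmx.trans hNv.symm), hFv, sub_neg_eq_add, ← two_smul ℝ,
        hM.smul_nonneg (by norm_num), h.nrm, hmx]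
    obtain ⟨φ, hφ⟩ := hN.exists_sub (m - v)
    have d1 := hφ.2
    rw [inner_sub_right, c1, hmc, inner_add_right, inner_smul_right, inner_smul_right] at d1
    have d2 := hN.inner_le_of_sub hφ x
    have d3 := hN.inner_le_of_sub hφ p
    have d4 := hN.inner_le_of_sub hφ (-v)
    rw [inner_neg_right, hN.n.neg, hNv] at d4
    rw [hp] at d3
    have d5 : ⟪φ, x⟫ = N x := by
      by_contra hne
      have hlt : ⟪φ, x⟫ < N x := lt_of_le_of_ne d2 hne
      nlinarith [mul_lt_mul_of_pos_left hlt hθ.1,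
        mul_le_mul_of_nonneg_left d3 (sub_nonneg.mpr hθ.2.le)]
    have d6 : ⟪φ, v⟫ = -N x := by
      have e1 := mul_le_mul_of_nonneg_left d3 (sub_nonneg.mpr hθ.2.le)
      rw [d5] at d1
      linarith
    have d7 := hN.inner_le_of_sub hφ (x - v)
    rw [inner_sub_right, d5, d6, ← h.iso x v hNv.symm, hFv, sub_neg_eq_add (F x)] at d7
    linarith
  have ht : Tendsto (fun θ : ℝ => M (F x + F (p + θ • (x - p)))) (𝓝[>] 0)
      (𝓝 (M (F x + F p))) := by
    simpa using (hcont.tendsto 0).mono_left nhdsWithin_le_nhds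
  refine ge_of_tendsto ht ?_
  filter_upwards [Ioo_mem_nhdsGT (zero_lt_one' ℝ)] with θ hθ using key θ hθ

end SphIso

end Vale.Agent.P084
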