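import Mathlib

/-! Mankiewicz's theorem for compact convex sets in finite dimension (task T2). -/

open Set Metric

namespace Vale.Agent.P084

theorem vogt {S : Type*} [MetricSpace S] {D : ℝ} (hb : ∀ a b : S, dist a b ≤ D) (z : S)
    (R : S ≃ᵢ S) (hR : ∀ w, dist (R w) w = 2 * dist w z) (e : S ≃ᵢ S) : e z = z := by
  have hz : R z = z := by simpa using hR z
  have : Nonempty (S ≃ᵢ S) := ⟨R⟩
  have h_bdd : BddAbove (range fun e : S ≃ᵢ S => dist (e z) z) :=
    ⟨D, forall_mem_range.2 fun e => hb _ _⟩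
  have hf : ∀ e : S ≃ᵢ S,
      dist ((((e.trans R).trans e.symm).trans R) z) z = 2 * dist (e z) z := by
    intro e
    simp only [IsometryEquiv.trans_apply]
    conv_lhs => enter [2]; rw [← hz]
    rw [R.dist_eq, ← e.dist_eq, e.apply_symm_apply, hR]
  set c := ⨆ e : S ≃ᵢ S, dist (e z) z
  have : c ≤ c / 2 := by
    apply ciSup_le
    intro e
    simp only [le_div_iff₀' (zero_lt_two' ℝ), ← hf]
    exact le_ciSup h_bdd _
  exact dist_le_zero.1 ((le_ciSup h_bdd e).trans (by linarith))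

/-- Reflection of a symmetric set. -/
def reflOn {X : Type*} [NormedAddCommGroup X] (S : Set X) (c : X)
    (h : ∀ w ∈ S, c + c - w ∈ S) : S ≃ᵢ S where
  toFun w := ⟨c + c - w, h _ w.2⟩
  invFun w := ⟨c + c - w, h _ w.2⟩
  left_inv w := Subtype.ext (by simp)
  right_inv w := Subtype.ext (by simp)
  isometry_toFun := Isometry.of_dist_eq fun a b => by
    change dist (c + c - a) (c + c - b) = dist (a : X) b
    exact dist_sub_left _ _ _

theorem reflOn_dist {X : Type*} [NormedAddCommGroup X] [NormedSpace ℝ X] (S : Set X) (c : X)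
    (hc : c ∈ S) (h : ∀ w ∈ S, c + c - w ∈ S) (w : S) :
    dist (reflOn S c h w) w = 2 * dist w ⟨c, hc⟩ := by
  change dist (c + c - w) w = 2 * dist (w : X) c
  rw [dist_eq_norm, dist_comm, dist_eq_norm,
    show c + c - w - w = (2 : ℝ) • (c - w) by rw [two_smul]; abel, norm_smul]
  simp

theorem center_map {X Y : Type*} [NormedAddCommGroup X] [NormedSpace ℝ X]
    [NormedAddCommGroup Y] [NormedSpace ℝ Y] {S : Set X} {S' : Set Y} {c : X} {c' : Y} {D : ℝ}
    (hD : ∀ a ∈ S, ∀ b ∈ S, dist a b ≤ D)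
    (hc : c ∈ S) (h : ∀ w ∈ S, c + c - w ∈ S) (hc' : c' ∈ S') (h' : ∀ w ∈ S', c' + c' - w ∈ S')
    (g : X → Y) (hb : BijOn g S S') (hd : ∀ a ∈ S, ∀ b ∈ S, ‖g a - g b‖ = ‖a - b‖) :
    g c = c' := by
  let e : S ≃ᵢ S' :=
    { hb.equiv g with
      isometry_toFun := Isometry.of_dist_eq fun a b => by
        change dist (g a) (g b) = dist (a : X) b
        rw [dist_eq_norm, dist_eq_norm, hd _ a.2 _ b.2] }
  have h1 := vogt (fun a b : S => hD _ a.2 _ b.2) ⟨c, hc⟩ (reflOn S c h) (reflOn_dist S c hc h)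
    ((e.trans (reflOn S' c' h')).trans e.symm)
  simp only [IsometryEquiv.trans_apply, IsometryEquiv.symm_apply_eq] at h1
  have h2 := reflOn_dist S' c' hc' h' (e ⟨c, hc⟩)
  rw [h1, dist_self] at h2
  have h3 : e ⟨c, hc⟩ = ⟨c', hc'⟩ := dist_eq_zero.1 (by linarith)
  exact congrArg Subtype.val h3

theorem surjOn_of_compact {Y : Type*} [MetricSpace Y] {K : Set Y} (hK : IsCompact K)
    (f : Y → Y) (hm : MapsTo f K K) (hd : ∀ a ∈ K, ∀ b ∈ K, dist (f a) (f b) = dist a b) :
    SurjOn f K K := by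
  intro y hy
  by_contra hn
  have hc : ContinuousOn f K :=
    (LipschitzOnWith.of_dist_le_mul (K := 1) fun a ha b hb => by simp [hd a ha b hb]).continuousOn
  obtain ⟨δ, hδ, hball⟩ := Metric.isOpen_iff.1 (hK.image_of_continuousOn hc).isClosed.isOpen_compl
    y hn
  have hit : ∀ n, f^[n] y ∈ K := fun n => hm.iterate n hy
  have key : ∀ m k, δ ≤ dist (f^[m] y) (f^[m + (k + 1)] y) := by
    intro m k
    induction m with
    | zero =>
      by_contra hlt
      refine hball (mem_ball'.2 (not_le.1 hlt)) ⟨f^[k] y, hit k, ?_⟩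
      simp [← Function.iterate_succ_apply' f]
    | succ m ih =>
      rw [show m + 1 + (k + 1) = m + (k + 1) + 1 by ring, Function.iterate_succ_apply',
        Function.iterate_succ_apply', hd _ (hit _) _ (hit _)]
      exact ih
  obtain ⟨a, -, φ, hφ, hlim⟩ := hK.tendsto_subseq hit
  obtain ⟨N, hN⟩ := Metric.cauchySeq_iff.1 hlim.cauchySeq δ hδ
  have h1 := hN N le_rfl (N + 1) (by omega)
  obtain ⟨k, hk⟩ := Nat.exists_eq_add_of_lt (hφ (Nat.lt_succ_self N))
  simp only [Function.comp, hk, add_assoc] at h1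
  exact absurd (key _ _) (not_le.2 h1)

section core

variable {X Y : Type*} [NormedAddCommGroup X] [NormedSpace ℝ X]
  [NormedAddCommGroup Y] [NormedSpace ℝ Y] {C : Set X} {C' : Set Y} {g : X → Y}

theorem interior_map [FiniteDimensional ℝ Y] (hC' : Convex ℝ C') (hi : (interior C).Nonempty)
    (hi' : (interior C').Nonempty) (hb : BijOn g C C')
    (hd : ∀ a ∈ C, ∀ b ∈ C, ‖g a - g b‖ = ‖a - b‖) {a : X} (ha : a ∈ interior C) :
    g a ∈ interior C' := by
  obtain ⟨p, hp⟩ := hi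
  obtain ⟨r, hr, hpr⟩ := Metric.isOpen_iff.1 isOpen_interior p hp
  have h1 : g p ∈ closure (interior C') := by
    rw [hC'.closure_interior_eq_closure_of_nonempty_interior hi']
    exact subset_closure (hb.mapsTo (interior_subset hp))
  obtain ⟨y, hy, hyr⟩ := Metric.mem_closure_iff.1 h1 r hr
  obtain ⟨a1, ha1, rfl⟩ := hb.surjOn (interior_subset hy)
  have ha1' : a1 ∈ interior C := hpr (by
    rw [mem_ball', dist_eq_norm, ← hd _ (interior_subset hp) _ ha1, ← dist_eq_norm]; exact hyr)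
  obtain ⟨r1, hr1, b1⟩ := nhds_basis_closedBall.mem_iff.1 (mem_interior_iff_mem_nhds.1 ha)
  obtain ⟨r2, hr2, b2⟩ := nhds_basis_closedBall.mem_iff.1 (mem_interior_iff_mem_nhds.1 ha1')
  obtain ⟨r3, hr3, b3⟩ := nhds_basis_closedBall.mem_iff.1 (mem_interior_iff_mem_nhds.1 hy)
  set ρ := min r1 r3
  have hρ : 0 < ρ := lt_min hr1 hr3
  have c1 : closedBall a ρ ⊆ C := (closedBall_subset_closedBall (min_le_left _ _)).trans b1
  have c3 : closedBall (g a1) ρ ⊆ C' := (closedBall_subset_closedBall (min_le_right _ _)).trans b3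
  have : Nonempty X := ⟨a⟩
  let k := Function.invFunOn g C
  have hk : ∀ y ∈ C', k y ∈ C ∧ g (k y) = y := fun y hy =>
    Function.invFunOn_pos (hb.surjOn hy)
  have s1 : ∀ y ∈ closedBall (g a) ρ, y - g a + g a1 ∈ C' := fun y hy => c3 (by
    rw [mem_closedBall, dist_eq_norm] at hy ⊢; simpa using hy)
  have s2 : ∀ y ∈ closedBall (g a) ρ, k (y - g a + g a1) - a1 + a ∈ closedBall a ρ := by
    intro y hy
    obtain ⟨e1, e2⟩ := hk _ (s1 y hy)
    rw [mem_closedBall, dist_eq_norm] at hy ⊢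
    rw [add_sub_cancel_right, ← hd _ e1 _ ha1, e2, add_sub_cancel_right]
    exact hy
  have hs := surjOn_of_compact (isCompact_closedBall (g a) ρ)
    (fun y => g (k (y - g a + g a1) - a1 + a)) (fun y hy => by
      have := s2 y hy
      rw [mem_closedBall, dist_eq_norm] at this ⊢
      rwa [hd _ (c1 (s2 y hy)) _ (interior_subset ha)]) (fun y hy y' hy' => by
      obtain ⟨e1, e2⟩ := hk _ (s1 y hy)
      obtain ⟨e3, e4⟩ := hk _ (s1 y' hy')
      rw [dist_eq_norm, dist_eq_norm, hd _ (c1 (s2 y hy)) _ (c1 (s2 y' hy')),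
        add_sub_add_right_eq_sub, sub_sub_sub_cancel_right, ← hd _ e1 _ e3, e2, e4,
        add_sub_add_right_eq_sub, sub_sub_sub_cancel_right])
  refine mem_interior_iff_mem_nhds.2 (Filter.mem_of_superset (closedBall_mem_nhds _ hρ) ?_)
  intro y hy
  obtain ⟨y', hy', rfl⟩ := hs hy
  exact hb.mapsTo (c1 (s2 y' hy'))

theorem local_midpoint (hb : BijOn g C C') (hd : ∀ a ∈ C, ∀ b ∈ C, ‖g a - g b‖ = ‖a - b‖)
    {c v : X} (h1 : closedBall c (2 * ‖v‖) ⊆ C) (h2 : closedBall (g c) (2 * ‖v‖) ⊆ C') :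
    g c = (1 / 2 : ℝ) • (g (c - v) + g (c + v)) := by
  have hv := norm_nonneg v
  have hc : c ∈ C := h1 (mem_closedBall_self (by positivity))
  have hx : c - v ∈ C := h1 (by rw [mem_closedBall, dist_eq_norm]; simp; linarith)
  have hy : c + v ∈ C := h1 (by rw [mem_closedBall, dist_eq_norm]; simp; linarith)
  have e1 : ‖g (c - v) - g c‖ = ‖v‖ := by rw [hd _ hx _ hc]; simp
  have e2 : ‖g (c - v) - g (c + v)‖ = 2 * ‖v‖ := by
    rw [hd _ hx _ hy, show c - v - (c + v) = (-2 : ℝ) • v by module, norm_smul]; simp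
  have sub1 : ∀ w, ‖w - (c - v)‖ = ‖v‖ → w ∈ closedBall c (2 * ‖v‖) := fun w hw => by
    rw [mem_closedBall, dist_eq_norm, show w - c = w - (c - v) - v by abel]
    exact (norm_sub_le _ _).trans (by linarith)
  have sub2 : ∀ w, ‖w - g (c - v)‖ = ‖v‖ → w ∈ C' := fun w hw => h2 (by
    rw [mem_closedBall, dist_eq_norm, show w - g c = w - g (c - v) + (g (c - v) - g c) by abel]
    exact (norm_add_le _ _).trans (by linarith))
  refine center_map (S := {w | ‖w - (c - v)‖ = ‖v‖ ∧ ‖w - (c + v)‖ = ‖v‖})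
    (S' := {w | ‖w - g (c - v)‖ = ‖v‖ ∧ ‖w - g (c + v)‖ = ‖v‖}) (D := 2 * ‖v‖ + 2 * ‖v‖)
    (fun a ha b hb => (dist_triangle_right a b c).trans (add_le_add (sub1 _ ha.1) (sub1 _ hb.1)))
    ⟨by simp, by simp⟩ (fun w hw => ⟨?_, ?_⟩) ⟨?_, ?_⟩ (fun w hw => ⟨?_, ?_⟩) g
    ⟨fun w hw => ⟨?_, ?_⟩, hb.injOn.mono fun w hw => h1 (sub1 w hw.1), fun w hw => ?_⟩
    (fun a ha b hb => hd _ (h1 (sub1 _ ha.1)) _ (h1 (sub1 _ hb.1)))
  · rw [← hw.2, ← norm_neg]; congr 1; abel
  · rw [← hw.1, ← norm_neg]; congr 1; abel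
  · rw [show (1 / 2 : ℝ) • (g (c - v) + g (c + v)) - g (c - v)
      = (-1 / 2 : ℝ) • (g (c - v) - g (c + v)) by module, norm_smul, e2]
    norm_num; ring
  · rw [show (1 / 2 : ℝ) • (g (c - v) + g (c + v)) - g (c + v)
      = (1 / 2 : ℝ) • (g (c - v) - g (c + v)) by module, norm_smul, e2]
    norm_num; ring
  · rw [← hw.2, ← norm_neg]; congr 1; module
  · rw [← hw.1, ← norm_neg]; congr 1; module
  · rw [hd _ (h1 (sub1 _ hw.1)) _ hx]; exact hw.1
  · rw [hd _ (h1 (sub1 _ hw.1)) _ hy]; exact hw.2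
  · obtain ⟨u, hu, rfl⟩ := hb.surjOn (sub2 w hw.1)
    exact ⟨u, ⟨by rw [← hd _ hu _ hx]; exact hw.1, by rw [← hd _ hu _ hy]; exact hw.2⟩, rfl⟩

theorem affine_of_local {γ : ℝ → Y} (hc : ContinuousOn γ (Icc 0 1))
    (h : ∀ t ∈ Ioo (0 : ℝ) 1, ∀ᶠ δ in nhdsWithin (0 : ℝ) (Ioi 0),
      γ t = (1 / 2 : ℝ) • (γ (t - δ) + γ (t + δ))) :
    ∀ t ∈ Icc (0 : ℝ) 1, γ t = γ 0 + t • (γ 1 - γ 0) := by
  let H : ℝ → ℝ := fun t => ‖γ t - (γ 0 + t • (γ 1 - γ 0))‖
  have hH : ContinuousOn H (Icc 0 1) := (hc.sub (by fun_prop)).norm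
  obtain ⟨t1, ht1, hmax⟩ := isCompact_Icc.exists_isMaxOn (nonempty_Icc.2 zero_le_one) hH
  obtain ⟨t0, ⟨ht0, e0⟩, hleast⟩ := (isCompact_Icc.of_isClosed_subset
    (hH.preimage_isClosed_of_isClosed isClosed_Icc (isClosed_singleton (x := H t1)))
    inter_subset_left).exists_isLeast ⟨t1, ht1, rfl⟩
  have e0 : H t0 = H t1 := e0
  suffices H t1 ≤ 0 from fun t ht => sub_eq_zero.1 (norm_le_zero_iff.1 ((hmax ht).trans this))
  by_contra hpos
  have h0 : t0 ≠ 0 := by rintro rfl; apply hpos; rw [← e0]; simp [H]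
  have h1 : t0 ≠ 1 := by rintro rfl; apply hpos; rw [← e0]; simp [H]
  have ht : t0 ∈ Ioo (0 : ℝ) 1 := ⟨lt_of_le_of_ne ht0.1 h0.symm, lt_of_le_of_ne ht0.2 h1⟩
  obtain ⟨δ, hδ, hδ1⟩ := ((h t0 ht).and (Ioo_mem_nhdsGT
    (lt_min ht.1 (sub_pos.2 ht.2) : 0 < min t0 (1 - t0)))).exists
  obtain ⟨d0, d1⟩ := hδ1
  rw [lt_min_iff] at d1
  have m1 : t0 - δ ∈ Icc (0 : ℝ) 1 := ⟨by linarith [d1.1], by linarith [ht.2]⟩
  have m2 : t0 + δ ∈ Icc (0 : ℝ) 1 := ⟨by linarith [ht.1], by linarith [d1.2]⟩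
  have l1 : H (t0 - δ) < H t1 := lt_of_le_of_ne (hmax m1) fun e => by
    have := hleast ⟨m1, e⟩
    linarith
  have l2 : H (t0 + δ) ≤ H t1 := hmax m2
  have l3 : H t0 ≤ (H (t0 - δ) + H (t0 + δ)) / 2 := by
    simp only [H]
    rw [show γ t0 - (γ 0 + t0 • (γ 1 - γ 0)) = (1 / 2 : ℝ) •
      ((γ (t0 - δ) - (γ 0 + (t0 - δ) • (γ 1 - γ 0))) + (γ (t0 + δ) - (γ 0 + (t0 + δ) • (γ 1 - γ 0))))
      by rw [hδ]; module, norm_smul]
    have := norm_add_le (γ (t0 - δ) - (γ 0 + (t0 - δ) • (γ 1 - γ 0)))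
      (γ (t0 + δ) - (γ 0 + (t0 + δ) • (γ 1 - γ 0)))
    norm_num
    linarith
  linarith

theorem mankiewicz_core [FiniteDimensional ℝ Y] (hC : Convex ℝ C) (hC' : Convex ℝ C')
    (hi : (interior C).Nonempty) (hi' : (interior C').Nonempty) (hb : BijOn g C C')
    (hd : ∀ a ∈ C, ∀ b ∈ C, ‖g a - g b‖ = ‖a - b‖) :
    ∀ a ∈ C, ∀ b ∈ C, ∀ t ∈ Icc (0 : ℝ) 1, g (a + t • (b - a)) = g a + t • (g b - g a) := by
  have hg : ContinuousOn g C :=
    (LipschitzOnWith.of_dist_le_mul (K := 1) fun a ha b hb => by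
      simp [dist_eq_norm, hd a ha b hb]).continuousOn
  have h1 : ∀ a ∈ interior C, ∀ b ∈ interior C, ∀ t ∈ Icc (0 : ℝ) 1,
      g (a + t • (b - a)) = g a + t • (g b - g a) := by
    intro a ha b hb'
    have hm : ∀ t ∈ Icc (0 : ℝ) 1, a + t • (b - a) ∈ interior C := fun t ht =>
      hC.interior.add_smul_sub_mem ha hb' ht
    have := affine_of_local (γ := fun t => g (a + t • (b - a)))
      (hg.comp (by fun_prop) fun t ht => interior_subset (hm t ht)) fun t ht => by
        have hc := hm t (Ioo_subset_Icc_self ht)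
        obtain ⟨r1, hr1, b1⟩ := nhds_basis_closedBall.mem_iff.1 (mem_interior_iff_mem_nhds.1 hc)
        obtain ⟨r2, hr2, b2⟩ := nhds_basis_closedBall.mem_iff.1 (mem_interior_iff_mem_nhds.1
          (interior_map hC' hi hi' hb hd hc))
        have : Filter.Tendsto (fun δ : ℝ => 2 * ‖δ • (b - a)‖) (nhdsWithin 0 (Ioi 0)) (nhds 0) :=
          (Continuous.tendsto' (by fun_prop) 0 0 (by simp)).mono_left nhdsWithin_le_nhds
        filter_upwards [this.eventually (ge_mem_nhds (lt_min hr1 hr2))] with δ hδ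
        rw [local_midpoint hb hd (v := δ • (b - a))
          ((closedBall_subset_closedBall (hδ.trans (min_le_left _ _))).trans b1)
          ((closedBall_subset_closedBall (hδ.trans (min_le_right _ _))).trans b2)]
        congr 3 <;> module
    simpa using this
  intro a ha b hb' t ht
  have hcl : C ⊆ closure (interior C) := by
    rw [hC.closure_interior_eq_closure_of_nonempty_interior hi]; exact subset_closure
  refine Set.EqOn.of_subset_closure (s := interior C ×ˢ interior C) (t := C ×ˢ C)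
    (f := fun p : X × X => g (p.1 + t • (p.2 - p.1)))
    (g := fun p : X × X => g p.1 + t • (g p.2 - g p.1))
    (fun p hp => h1 _ hp.1 _ hp.2 t ht)
    (hg.comp (by fun_prop) fun p hp => hC.add_smul_sub_mem hp.1 hp.2 ht) ?_
    (prod_mono interior_subset interior_subset)
    (by rw [closure_prod_eq]; exact prod_mono hcl hcl) (mk_mem_prod ha hb')
  have c1 : ContinuousOn (fun p : X × X => g p.1) (C ×ˢ C) :=
    hg.comp continuousOn_fst fun p hp => hp.1
  have c2 : ContinuousOn (fun p : X × X => g p.2) (C ×ˢ C) :=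
    hg.comp continuousOn_snd fun p hp => hp.2
  exact c1.add ((c2.sub c1).const_smul t)

/-- Translating a convex set into the span of its directions. -/
theorem exists_model [FiniteDimensional ℝ X] (hC : Convex ℝ C) {a : X} (ha : a ∈ C) :
    ∃ W : Submodule ℝ X, (∀ x ∈ C, x - a ∈ W) ∧ Convex ℝ {w : W | a + w ∈ C} ∧
      (interior {w : W | a + w ∈ C}).Nonempty := by
  let W := Submodule.span ℝ ((fun x => x - a) '' C)
  have hW : ∀ x ∈ C, x - a ∈ W := fun x hx => Submodule.subset_span ⟨x, hx, rfl⟩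
  have hcv : Convex ℝ {w : W | a + w ∈ C} := (hC.translate_preimage_right a).linear_preimage W.subtype
  refine ⟨W, hW, hcv, hcv.interior_nonempty_iff_affineSpan_eq_top.2 ?_⟩
  rw [AffineSubspace.affineSpan_eq_top_iff_vectorSpan_eq_top_of_nonempty ℝ W W
    ⟨0, by simpa using ha⟩, vectorSpan_eq_span_vsub_set_right ℝ (p := 0) (by simpa using ha)]
  have := Submodule.span_span_coe_preimage (R := ℝ) (s := (fun x => x - a) '' C)
  rw [← this]
  congr 1
  ext w
  simp only [vsub_eq_sub, sub_zero, image_id', mem_ofPred_eq, mem_preimage, mem_image]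
  constructor
  · intro h; exact ⟨_, h, by simp⟩
  · rintro ⟨x, hx, e⟩; rw [← e]; simpa using hx

end core

/-- A distance preserving bijection between convex sets, the first one compact, in finite
dimensional normed spaces is affine.
Proof plan. (1) relative interiors (`intrinsicInterior`, or: `a ∈ C` with a relative ball
`closedBall a r ∩ affineSpan ℝ C ⊆ C`) are nonempty, dense; so some `a₁` is relatively interior
with `g a₁` relatively interior, and small relative balls of the two affine spans are isometric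
through `g`. (2) a compact metric space is not isometric to a proper subset of itself; so `g`
maps relative interior points to relative interior points (the small ball about `g a` met with
`C'` is isometric to the full relative ball). (3) Vogt / Vaisala lemma on the bounded symmetric set
of metric midpoints `{z ∈ affineSpan | ‖z - x‖ = ‖z - y‖ = ‖x - y‖ / 2}`: every surjective self
isometry fixes the midpoint, so `g` preserves midpoints of close relatively interior points.
(4) locally midpoint affine and continuous along a segment gives affine; density finishes. -/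
theorem mankiewicz {X Y : Type*} [NormedAddCommGroup X] [NormedSpace ℝ X] [FiniteDimensional ℝ X]
    [NormedAddCommGroup Y] [NormedSpace ℝ Y] [FiniteDimensional ℝ Y]
    {C : Set X} {C' : Set Y} (hC : Convex ℝ C) (hC' : Convex ℝ C') (hK : IsCompact C)
    (g : X → Y) (hb : BijOn g C C') (hd : ∀ a ∈ C, ∀ b ∈ C, ‖g a - g b‖ = ‖a - b‖) :
    ∀ a ∈ C, ∀ b ∈ C, ∀ t ∈ Icc (0 : ℝ) 1, g (a + t • (b - a)) = g a + t • (g b - g a) := by
  intro a ha b hb' t ht
  obtain ⟨W, hW, cv, hi⟩ := exists_model hC ha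
  obtain ⟨W', hW', cv', hi'⟩ := exists_model hC' (hb.mapsTo ha)
  classical
  let k : W → W' := fun w => if h : a + w ∈ C then ⟨g (a + w) - g a, hW' _ (hb.mapsTo h)⟩ else 0
  have hk : ∀ w : W, a + w ∈ C → (k w : Y) = g (a + w) - g a := fun w h => by simp [k, h]
  have hd' : ∀ u : W, a + u ∈ C → ∀ w : W, a + w ∈ C → ‖k u - k w‖ = ‖u - w‖ := by
    intro u hu w hw
    change ‖(k u : Y) - k w‖ = ‖(u : X) - w‖
    rw [hk u hu, hk w hw, sub_sub_sub_cancel_right, hd _ hu _ hw, add_sub_add_left_eq_sub]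
  have := mankiewicz_core (g := k) cv cv' hi hi' ⟨fun w hw => ?_, fun u hu w hw e => ?_,
    fun y hy => ?_⟩ hd' 0 (by simpa using ha) ⟨b - a, hW b hb'⟩ (by simpa using hb') t ht
  · have h1 := congrArg Subtype.val this
    simp only [Submodule.coe_add, Submodule.coe_smul, Submodule.coe_sub] at h1
    rw [hk _ (by simpa using hC.add_smul_sub_mem ha hb' ht), hk _ (by simpa using ha),
      hk _ (by simpa using hb')] at h1
    simp only [zero_add, sub_zero, Submodule.coe_smul, Submodule.coe_zero, add_zero, sub_self,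
      add_sub_cancel] at h1
    rw [← h1]; abel
  · change g a + k w ∈ C'
    rw [hk w hw, add_sub_cancel]; exact hb.mapsTo hw
  · rw [← sub_eq_zero, ← norm_eq_zero, ← hd' u hu w hw, e, sub_self, norm_zero]
  · obtain ⟨x, hx, e⟩ := hb.surjOn hy
    have hx' : a + ((⟨x - a, hW x hx⟩ : W) : X) ∈ C := by simpa using hx
    refine ⟨_, hx', Subtype.ext ?_⟩
    rw [hk _ hx']; simp [e]

end Vale.Agent.P084
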