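import Vale.Agent.P084.Basic
import Vale.Agent.P084.Mankiewicz

/-! From the Euclidean model to abstract normed spaces (task T6). -/

open scoped RealInnerProductSpace Topology
open Filter Set

namespace Vale.Agent.P084

/-- The statement proved in the Euclidean model (file `Main`). -/
def ModelThm : Prop :=
  ∀ (n : ℕ) (N N' M M' : EuclideanSpace ℝ (Fin (n + 1)) → ℝ)
    (F G : EuclideanSpace ℝ (Fin (n + 1)) → EuclideanSpace ℝ (Fin (n + 1))),
    DualPair N N' → DualPair M M' → SphIso N M F G → FaceAffine N M F →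
    ∀ a b, M (F a - F b) ≤ N (a - b)

section abstract

variable {X Y : Type*} [NormedAddCommGroup X] [NormedSpace ℝ X]
  [NormedAddCommGroup Y] [NormedSpace ℝ Y]

/-- Homogeneous extension of a surjective isometry of spheres, in normed spaces. -/
structure AIso (F : X → Y) (G : Y → X) : Prop where
  gf : ∀ x, G (F x) = x
  fg : ∀ y, F (G y) = y
  hom : ∀ (c : ℝ) x, 0 ≤ c → F (c • x) = c • F x
  nrm : ∀ x, ‖F x‖ = ‖x‖
  iso : ∀ x x', ‖x‖ = ‖x'‖ → ‖F x - F x'‖ = ‖x - x'‖

theorem AIso.symm {F : X → Y} {G : Y → X} (h : AIso F G) : AIso G F where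
  gf := h.fg
  fg := h.gf
  hom := fun c y hc => by
    have := h.hom c (G y) hc
    rw [h.fg] at this
    rw [← this, h.gf]
  nrm := fun y => by rw [← h.nrm, h.fg]
  iso := fun y y' hy => by
    have h1 : ‖G y‖ = ‖G y'‖ := by rw [← h.nrm, ← h.nrm, h.fg, h.fg, hy]
    have := h.iso _ _ h1
    rw [h.fg, h.fg] at this
    exact this.symm

theorem unit_mem {x : X} (h : x ≠ 0) : ‖x‖⁻¹ • x ∈ Metric.sphere (0 : X) 1 := by
  simp [norm_smul, norm_ne_zero_iff.2 h]

open Classical in
/-- The homogeneous extension. -/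
noncomputable def hext (f : Metric.sphere (0 : X) 1 → Metric.sphere (0 : Y) 1) (x : X) : Y :=
  if h : x = 0 then 0 else ‖x‖ • (f ⟨‖x‖⁻¹ • x, unit_mem h⟩ : Y)

theorem hext_smul (f : Metric.sphere (0 : X) 1 → Metric.sphere (0 : Y) 1) {c : ℝ} (hc : 0 ≤ c)
    (u : Metric.sphere (0 : X) 1) : hext f (c • (u : X)) = c • (f u : Y) := by
  have hu : ‖(u : X)‖ = 1 := by simpa using u.2
  rcases hc.eq_or_lt with rfl | hc
  · simp [hext]
  · have hn : ‖c • (u : X)‖ = c := by rw [norm_smul, hu, mul_one, Real.norm_of_nonneg hc.le]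
    have h0 : c • (u : X) ≠ 0 := by rw [← norm_ne_zero_iff, hn]; exact hc.ne'
    rw [hext, dif_neg h0]
    congr 3
    exact Subtype.ext (by simp only [hn, smul_smul, inv_mul_cancel₀ hc.ne', one_smul])

theorem exists_unit [Nontrivial X] (x : X) : ∃ u : Metric.sphere (0 : X) 1, x = ‖x‖ • (u : X) := by
  by_cases h : x = 0
  · obtain ⟨y, hy⟩ := exists_ne (0 : X)
    exact ⟨⟨_, unit_mem hy⟩, by simp [h]⟩
  · exact ⟨⟨_, unit_mem h⟩, by simp [smul_smul, norm_ne_zero_iff.2 h]⟩

theorem aiso_hext [Nontrivial X] [Nontrivial Y]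
    (e : Metric.sphere (0 : X) 1 ≃ᵢ Metric.sphere (0 : Y) 1) : AIso (hext e) (hext e.symm) where
  gf x := by
    obtain ⟨u, hu⟩ := exists_unit x
    rw [hu, hext_smul _ (norm_nonneg _), hext_smul _ (norm_nonneg _), e.symm_apply_apply]
  fg y := by
    obtain ⟨u, hu⟩ := exists_unit y
    rw [hu, hext_smul _ (norm_nonneg _), hext_smul _ (norm_nonneg _), e.apply_symm_apply]
  hom c x hc := by
    obtain ⟨u, hu⟩ := exists_unit x
    rw [hu, smul_smul, hext_smul _ (norm_nonneg _), hext_smul _ (by positivity), smul_smul]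
  nrm x := by
    obtain ⟨u, hu⟩ := exists_unit x
    conv_lhs => rw [hu, hext_smul _ (norm_nonneg _)]
    simp [norm_smul]
  iso x x' h := by
    obtain ⟨u, hu⟩ := exists_unit x
    obtain ⟨u', hu'⟩ := exists_unit x'
    rw [← h] at hu'
    have := e.dist_eq u u'
    rw [Subtype.dist_eq, Subtype.dist_eq, dist_eq_norm, dist_eq_norm] at this
    rw [hu', hu, norm_smul, norm_norm, show ‖(u : X)‖ = 1 by simp, mul_one,
      hext_smul _ (norm_nonneg _), hext_smul _ (norm_nonneg _), ← smul_sub,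
      ← smul_sub, norm_smul, norm_smul, this]

variable {F : X → Y} {G : Y → X}

theorem AIso.lipschitz (h : AIso F G) : LipschitzWith 3 F := by
  refine LipschitzWith.of_dist_le_mul fun x x' => ?_
  rw [dist_eq_norm, dist_eq_norm]
  push_cast
  by_cases h0 : x' = 0
  · have : F 0 = 0 := by rw [← norm_eq_zero, h.nrm, norm_zero]
    rw [h0, this, sub_zero, sub_zero, h.nrm]
    linarith [norm_nonneg x]
  have hn : 0 < ‖x'‖ := norm_pos_iff.2 h0
  set c := ‖x‖ / ‖x'‖ with hc
  have hc0 : 0 ≤ c := by positivity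
  have e0 : |c - 1| * ‖x'‖ ≤ ‖x - x'‖ := by
    rw [← abs_of_pos hn, ← abs_mul, sub_mul, hc, div_mul_cancel₀ _ hn.ne', one_mul]
    exact abs_norm_sub_norm_le _ _
  have e1 : ‖F x - F (c • x')‖ = ‖x - c • x'‖ := h.iso _ _ (by
    rw [norm_smul, Real.norm_of_nonneg hc0, hc, div_mul_cancel₀ _ hn.ne'])
  have e2 : ‖F (c • x') - F x'‖ = |c - 1| * ‖x'‖ := by
    rw [h.hom _ _ hc0, show c • F x' - F x' = (c - 1) • F x' by module, norm_smul, h.nrm]; rfl
  have e3 : ‖x - c • x'‖ ≤ ‖x - x'‖ + |c - 1| * ‖x'‖ := by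
    rw [show x - c • x' = x - x' - (c - 1) • x' by module]
    refine (norm_sub_le _ _).trans ?_
    rw [norm_smul]; rfl
  have := norm_sub_le_norm_sub_add_norm_sub (F x) (F (c • x')) (F x')
  linarith

theorem AIso.finiteDimensional [FiniteDimensional ℝ X] (h : AIso F G) :
    FiniteDimensional ℝ Y := by
  refine .of_isCompact_closedBall₀ ℝ one_pos ?_
  have : Metric.closedBall (0 : Y) 1 = F '' Metric.closedBall 0 1 := by
    ext y
    constructor
    · intro hy
      exact ⟨G y, by simpa [h.symm.nrm] using hy, h.fg y⟩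
    · rintro ⟨x, hx, rfl⟩
      simpa [h.nrm] using hx
  rw [this]
  exact (isCompact_closedBall _ _).image h.lipschitz.continuous

theorem AIso.finrank_le [FiniteDimensional ℝ X] [FiniteDimensional ℝ Y] (h : AIso F G) :
    Module.finrank ℝ Y ≤ Module.finrank ℝ X := by
  have := h.lipschitz.dimH_range_le
  rw [(Function.RightInverse.surjective h.fg).range_eq, Real.dimH_univ_eq_finrank,
    Real.dimH_univ_eq_finrank] at this
  exact_mod_cast this

theorem AIso.star (h : AIso F G) {x q : X} (hx : ‖x‖ = 1) (hq : ‖q‖ = 1) (hxq : ‖x + q‖ = 2) :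
    ‖F x + F q‖ = 2 := by
  refine le_antisymm ((norm_add_le _ _).trans (by rw [h.nrm, h.nrm]; linarith)) ?_
  refine le_of_forall_pos_le_add fun ε hε => ?_
  set r := min (ε / 2) (1 / 2) with hr
  have r0 : 0 < r := by positivity
  have r1 : r ≤ ε / 2 := min_le_left _ _
  have r2 : r ≤ 1 / 2 := min_le_right _ _
  set m := r • x + (1 - r) • q with hm
  have comb : ∀ a b : X, ‖r • a + (1 - r) • b‖ ≤ r * ‖a‖ + (1 - r) * ‖b‖ := fun a b => by
    refine (norm_add_le _ _).trans ?_
    rw [norm_smul, norm_smul, Real.norm_of_nonneg r0.le, Real.norm_of_nonneg (by linarith)]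
  have m1 : ‖m‖ = 1 := by
    refine le_antisymm ((comb x q).trans (by rw [hx, hq]; linarith)) ?_
    have e : (1 - r) • (x + q) = m + (1 - 2 * r) • x := by rw [hm]; module
    have := norm_add_le m ((1 - 2 * r) • x)
    rw [← e, norm_smul, norm_smul, hxq, hx, Real.norm_of_nonneg (by linarith),
      Real.norm_of_nonneg (by linarith)] at this
    linarith
  set v := G (-F m) with hv
  have v1 : ‖v‖ = 1 := by rw [hv, h.symm.nrm, norm_neg, h.nrm, m1]
  have v2 : ‖m - v‖ = 2 := by
    rw [← h.iso _ _ (m1.trans v1.symm), hv, h.fg, sub_neg_eq_add, ← two_smul ℝ, norm_smul, h.nrm,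
      m1]
    simp
  have v3 : 2 ≤ ‖x - v‖ := by
    have e : m - v = r • (x - v) + (1 - r) • (q - v) := by rw [hm]; module
    have h1 := comb (x - v) (q - v)
    have h2 : ‖q - v‖ ≤ 2 := (norm_sub_le _ _).trans (by linarith)
    rw [← e, v2] at h1
    by_contra hlt
    nlinarith
  rw [← h.iso _ _ (hx.trans v1.symm), hv, h.fg, sub_neg_eq_add] at v3
  have v4 : ‖F m - F q‖ ≤ ε := by
    rw [h.iso _ _ (m1.trans hq.symm), show m - q = r • (x - q) by rw [hm]; module, norm_smul,
      Real.norm_of_nonneg r0.le]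
    have : ‖x - q‖ ≤ 2 := (norm_sub_le _ _).trans (by linarith)
    nlinarith
  have := norm_add_le (F x + F q) (F m - F q)
  rw [show F x + F q + (F m - F q) = F x + F m by abel] at this
  linarith

theorem AIso.face [FiniteDimensional ℝ X] [FiniteDimensional ℝ Y] (h : AIso F G) {x p : X}
    (hx : ‖x‖ = 1) (hp : ‖p‖ = 1) (hxp : ‖x + p‖ = 2)
    (c1 : Convex ℝ {q : X | ‖q‖ = 1 ∧ ‖x + q‖ = 2})
    (c2 : Convex ℝ {q : Y | ‖q‖ = 1 ∧ ‖F x + q‖ = 2}) :
    ∀ t ∈ Icc (0 : ℝ) 1, F (x + t • (p - x)) = F x + t • (F p - F x) := by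
  refine mankiewicz c1 c2 ?_ F ⟨fun q hq => ⟨by rw [h.nrm, hq.1], h.star hx hq.1 hq.2⟩,
    (Function.LeftInverse.injective h.gf).injOn, fun q hq => ⟨G q, ⟨?_, ?_⟩, h.fg q⟩⟩
    (fun a ha b hb => h.iso _ _ (ha.1.trans hb.1.symm)) x ⟨hx, ?_⟩ p ⟨hp, hxp⟩
  · refine Metric.isCompact_of_isClosed_isBounded
      ((isClosed_eq (by fun_prop) (by fun_prop)).inter (isClosed_eq (by fun_prop) (by fun_prop)))
      ((Metric.isBounded_closedBall (x := (0 : X)) (r := 1)).subset fun q hq => ?_)
    simp [hq.1]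
  · rw [h.symm.nrm, hq.1]
  · have := h.symm.star (by rw [h.nrm, hx]) hq.1 hq.2
    rwa [h.gf] at this
  · rw [← two_smul ℝ, norm_smul, hx]; simp

variable {E : Type*} [NormedAddCommGroup E] [InnerProductSpace ℝ E]

theorem dualPair_of [FiniteDimensional ℝ E] [FiniteDimensional ℝ X] (j : E ≃L[ℝ] X) :
    DualPair (fun x => ‖j x‖) (fun φ => ‖(innerSL ℝ φ).comp (j.symm : X →L[ℝ] E)‖) where
  n := ⟨fun x y => by rw [map_add]; exact norm_add_le _ _,
    fun c x => by rw [map_smul, norm_smul]; rfl, fun x hx => by simpa using hx⟩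
  n' := ⟨fun x y => by rw [map_add, ContinuousLinearMap.add_comp]; exact norm_add_le _ _,
    fun c x => by
      rw [map_smulₛₗ, ContinuousLinearMap.smul_comp, norm_smul]; rfl,
    fun φ hφ => norm_pos_iff.2 fun e => hφ (by
      simpa using DFunLike.congr_fun e (j φ))⟩
  le x φ := by
    have := ((innerSL ℝ φ).comp (j.symm : X →L[ℝ] E)).le_opNorm (j x)
    exact le_trans (by simpa using le_abs_self _) this
  ex x := by
    obtain ⟨g, hg, hx⟩ := exists_dual_vector'' ℝ (j x)
    refine ⟨(InnerProductSpace.toDual ℝ E).symm (g.comp (j : E →L[ℝ] X)), ?_, by simpa using hx⟩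
    convert hg using 2
    ext y
    simp
  ex' φ := by
    set L := (innerSL ℝ φ).comp (j.symm : X →L[ℝ] E) with hL
    obtain ⟨y, hy, hmax⟩ := (isCompact_closedBall (0 : X) 1).exists_isMaxOn
      ⟨0, by simp⟩ L.continuous.continuousOn
    have hy' : ‖y‖ ≤ 1 := by simpa using hy
    refine ⟨j.symm y, by simpa using hy', ?_⟩
    rw [real_inner_comm]
    change L y = _
    refine le_antisymm ((le_abs_self _).trans (L.unit_le_opNorm y hy')) ?_
    refine L.opNorm_le_of_unit_norm (by simpa using hmax (a := 0) (by simp)) fun z hz => ?_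
    have h1 : L z ≤ L y := hmax (by simp [hz])
    have h2 : L (-z) ≤ L y := hmax (by simp [hz])
    rw [map_neg] at h2
    exact abs_le.2 ⟨by linarith, h1⟩

theorem AIso.le_of_model (hmodel : ModelThm) [FiniteDimensional ℝ X] [FiniteDimensional ℝ Y]
    [Nontrivial X] (h : AIso F G) (a b : X) : ‖F a - F b‖ ≤ ‖a - b‖ := by
  obtain ⟨n, hn⟩ := Nat.exists_eq_succ_of_ne_zero (Module.finrank_pos (R := ℝ) (M := X)).ne'
  have hn' : Module.finrank ℝ Y = n + 1 := (le_antisymm h.finrank_le h.symm.finrank_le).trans hn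
  let j : EuclideanSpace ℝ (Fin (n + 1)) ≃L[ℝ] X := .ofFinrankEq (by simp [hn])
  let k : EuclideanSpace ℝ (Fin (n + 1)) ≃L[ℝ] Y := .ofFinrankEq (by simp [hn'])
  have := hmodel n _ _ _ _ (fun x => k.symm (F (j x))) (fun y => j.symm (G (k y)))
    (dualPair_of j) (dualPair_of k)
    ⟨fun x => by simp [h.gf], fun y => by simp [h.fg], fun c x hc => by simp [h.hom _ _ hc],
      fun x => by simp [h.nrm], fun x x' e => by simp [h.iso _ _ e]⟩
    (fun x p hx hp hxp c1 c2 t ht => by
      have := h.face hx hp (by simpa using hxp)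
        (by simpa using c1.linear_preimage j.symm.toLinearEquiv.toLinearMap)
        (by simpa using c2.linear_preimage k.symm.toLinearEquiv.toLinearMap) t ht
      simp [this]) (j.symm a) (j.symm b)
  simpa using this

end abstract

/-- Plan. If `X` is trivial the spheres are empty and `Y` is trivial. Otherwise: the sphere of
`Y` is compact, so `Y` is finite dimensional (`FiniteDimensional.of_isCompact_closedBall`);
the homogeneous extensions `F x = ‖x‖ • f (x / ‖x‖)`, `G` are inverse and 3-Lipschitz, so the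
dimensions agree (`LipschitzWith.dimH_range_le`, `Real.dimH_univ_eq_finrank`). Choose linear
equivalences `j : E ≃L X`, `k : E ≃L Y`, put `N = ‖j ·‖`, `N' φ = ‖innerSL φ ∘ j.symm‖`
(`exists_dual_vector''`, compactness of the ball) and transport `F`, `G`. `FaceAffine` comes from
`mankiewicz` applied to the stars `{q | ‖q‖ = 1 ∧ ‖x + q‖ = 2}`, which `f` maps onto each other
(star lemma: for `m` inside `[x, p]`, `v = G (-F m)` has `‖m - v‖ = 2`, so `‖x - v‖ = 2`, so
`‖F x + F m‖ = 2`; let `m → p`). Apply the model theorem to `F` and to `G`; `F` is a surjective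
isometry fixing `0`; finish with `IsometryEquiv.toRealLinearIsometryEquivOfMapZero`. -/
theorem tingley_of_model (hmodel : ModelThm)
    {X Y : Type*} [NormedAddCommGroup X] [NormedSpace ℝ X] [FiniteDimensional ℝ X]
    [NormedAddCommGroup Y] [NormedSpace ℝ Y]
    (f : Metric.sphere (0 : X) 1 → Metric.sphere (0 : Y) 1) (hf : Isometry f)
    (hs : Function.Surjective f) :
    ∃ T : X ≃ₗᵢ[ℝ] Y, ∀ x : Metric.sphere (0 : X) 1, T x = f x := by
  rcases subsingleton_or_nontrivial X with hX | hX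
  · have hY : Subsingleton Y := by
      refine subsingleton_of_forall_eq 0 fun y => ?_
      by_contra hy
      obtain ⟨x, -⟩ := hs ⟨_, unit_mem hy⟩
      simpa [Subsingleton.elim (x : X) 0] using x.2
    exact ⟨{ LinearEquiv.ofSubsingleton X Y with
      norm_map' := fun x => by rw [Subsingleton.elim x 0, map_zero, norm_zero, norm_zero] },
      fun x => Subsingleton.elim _ _⟩
  have hY : Nontrivial Y := by
    obtain ⟨x, hx⟩ := exists_ne (0 : X)
    exact ⟨f ⟨_, unit_mem hx⟩, 0, ne_zero_of_mem_unit_sphere _⟩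
  let e : Metric.sphere (0 : X) 1 ≃ᵢ Metric.sphere (0 : Y) 1 :=
    { Equiv.ofBijective f ⟨hf.injective, hs⟩ with isometry_toFun := hf }
  have h := aiso_hext e
  have := h.finiteDimensional
  let T : X ≃ᵢ Y :=
    { toFun := hext e
      invFun := hext e.symm
      left_inv := h.gf
      right_inv := h.fg
      isometry_toFun := Isometry.of_dist_eq fun a b => by
        rw [dist_eq_norm, dist_eq_norm]
        refine le_antisymm (h.le_of_model hmodel a b) ?_
        simpa [h.gf] using h.symm.le_of_model hmodel (hext e a) (hext e b) }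
  refine ⟨T.toRealLinearIsometryEquivOfMapZero (by simp [T, hext]), fun x => ?_⟩
  have := hext_smul e zero_le_one x
  rw [one_smul, one_smul] at this
  exact this

end Vale.Agent.P084
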