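import Mathlib

/-! Basic definitions for the finite-dimensional Tingley theorem.
Norms are functions on a Euclidean space `E`; functionals are vectors of `E` acting by the
inner product. -/

open scoped RealInnerProductSpace Topology
open Filter Set

namespace Vale.Agent.P084

variable {E : Type*} [NormedAddCommGroup E] [InnerProductSpace ℝ E]

/-- `N` is a norm on `E`. -/
structure IsNorm (N : E → ℝ) : Prop where
  add_le : ∀ x y, N (x + y) ≤ N x + N y
  smul : ∀ (c : ℝ) x, N (c • x) = |c| * N x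
  pos : ∀ x, x ≠ 0 → 0 < N x

/-- `N` and `N'` are norms dual to each other through the inner product. -/
structure DualPair (N N' : E → ℝ) : Prop where
  n : IsNorm N
  n' : IsNorm N'
  le : ∀ x φ, ⟪φ, x⟫ ≤ N' φ * N x
  ex : ∀ x, ∃ φ, N' φ ≤ 1 ∧ ⟪φ, x⟫ = N x
  ex' : ∀ φ, ∃ x, N x ≤ 1 ∧ ⟪x, φ⟫ = N' φ

/-- `φ` is a subgradient of `N` at `x`. -/
def Sub (N N' : E → ℝ) (x φ : E) : Prop := N' φ ≤ 1 ∧ ⟪φ, x⟫ = N x

/-- Alexandrov point: the subgradient map is differentiable at `x` with symmetric derivative. -/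
structure Alex (N N' : E → ℝ) (x φ : E) (h : E →L[ℝ] E) : Prop where
  sub : Sub N N' x φ
  symm : ∀ a b, ⟪h a, b⟫ = ⟪a, h b⟫
  approx : ∀ ε : ℝ, 0 < ε → ∀ᶠ x' in 𝓝 x, ∀ φ', Sub N N' x' φ' →
    ‖φ' - φ - h (x' - x)‖ ≤ ε * ‖x' - x‖

/-- Moving from `x` in direction `e` decreases `N`. -/
def Back (N : E → ℝ) (x e : E) : Prop := ∃ c : ℝ, 0 < c ∧ N (x + c • e) < N x

/-- The line `p + s d` meets the open sublevel set `N < t`. -/
def Feas (N : E → ℝ) (p d : E) (t : ℝ) : Prop := d ≠ 0 ∧ ∃ s : ℝ, N (p + s • d) < t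

open Classical in
/-- Exit time of the line `p + s d` from the sublevel set `N ≤ t`. -/
noncomputable def exit (N : E → ℝ) (p d : E) (t : ℝ) : ℝ :=
  if Feas N p d t then sSup {s : ℝ | N (p + s • d) ≤ t} else 0

/-- Quadratic Taylor approximation of `F` at `x`. -/
def Quad (F : E → E) (x : E) (A : E →L[ℝ] E) : Prop :=
  (fun x' => F x' - F x - A (x' - x)) =O[𝓝 x] fun x' => ‖x' - x‖ ^ 2

/-- Homogeneous extension of a surjective isometry of spheres, with inverse `G`. -/
structure SphIso (N M : E → ℝ) (F G : E → E) : Prop where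
  gf : ∀ x, G (F x) = x
  fg : ∀ y, F (G y) = y
  hom : ∀ (c : ℝ) x, 0 ≤ c → F (c • x) = c • F x
  nrm : ∀ x, M (F x) = N x
  iso : ∀ x x', N x = N x' → M (F x - F x') = N (x - x')

/-- `F` is affine on segments of a convex star. -/
def FaceAffine (N M : E → ℝ) (F : E → E) : Prop :=
  ∀ x p, N x = 1 → N p = 1 → N (x + p) = 2 →
    Convex ℝ {q | N q = 1 ∧ N (x + q) = 2} → Convex ℝ {q | M q = 1 ∧ M (F x + q) = 2} →
    ∀ t ∈ Icc (0 : ℝ) 1, F (x + t • (p - x)) = F x + t • (F p - F x)

namespace IsNorm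

variable {N : E → ℝ}

theorem zero (h : IsNorm N) : N 0 = 0 := by
  have := h.smul 0 0
  simpa using this

theorem neg (h : IsNorm N) (x : E) : N (-x) = N x := by
  have := h.smul (-1) x
  simpa using this

theorem nonneg (h : IsNorm N) (x : E) : 0 ≤ N x := by
  by_cases hx : x = 0
  · rw [hx, h.zero]
  · exact (h.pos x hx).le

theorem eq_zero (h : IsNorm N) {x : E} (hx : N x = 0) : x = 0 := by
  by_contra hne
  exact (h.pos x hne).ne' hx

theorem sub_comm (h : IsNorm N) (x y : E) : N (x - y) = N (y - x) := by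
  rw [← h.neg, neg_sub]

theorem smul_nonneg (h : IsNorm N) {c : ℝ} (hc : 0 ≤ c) (x : E) : N (c • x) = c * N x := by
  rw [h.smul, abs_of_nonneg hc]

theorem sub_le (h : IsNorm N) (x y : E) : N (x - y) ≤ N x + N y := by
  have := h.add_le x (-y)
  rwa [h.neg, ← sub_eq_add_neg] at this

theorem le_add_sub (h : IsNorm N) (x y : E) : N x ≤ N y + N (x - y) := by
  have := h.add_le y (x - y)
  simpa using this

theorem abs_sub_le (h : IsNorm N) (x y : E) : |N x - N y| ≤ N (x - y) := by
  rw [abs_le]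
  have h1 := h.le_add_sub x y
  have h2 := h.le_add_sub y x
  rw [h.sub_comm] at h2
  constructor <;> linarith

theorem convex_comb (h : IsNorm N) (x y : E) {a b : ℝ} (ha : 0 ≤ a) (hb : 0 ≤ b) :
    N (a • x + b • y) ≤ a * N x + b * N y := by
  have := h.add_le (a • x) (b • y)
  rwa [h.smul_nonneg ha, h.smul_nonneg hb] at this

theorem convexOn (h : IsNorm N) : ConvexOn ℝ univ N :=
  ⟨convex_univ, fun x _ y _ _ _ ha hb _ => by simpa using h.convex_comb x y ha hb⟩

/-- The seminorm attached to `N`. -/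
def toSeminorm (h : IsNorm N) : Seminorm ℝ E :=
  Seminorm.of N h.add_le (fun c x => by simpa using h.smul c x)

variable [FiniteDimensional ℝ E]

theorem continuous (h : IsNorm N) : Continuous N := by
  have := h.convexOn.continuousOn isOpen_univ
  exact continuousOn_univ.mp this

theorem exists_upper (h : IsNorm N) : ∃ K > 0, ∀ x, N x ≤ K * ‖x‖ := by
  obtain ⟨C, hC⟩ := (isCompact_closedBall (0 : E) 1).bddAbove_image h.continuous.continuousOn
  refine ⟨max C 1, by positivity, fun x => ?_⟩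
  by_cases hx : x = 0
  · simp [hx, h.zero]
  · have hn : 0 < ‖x‖ := norm_pos_iff.mpr hx
    have h1 : N (‖x‖⁻¹ • x) ≤ C := hC ⟨_, by simp [norm_smul, hn.ne'], rfl⟩
    rw [h.smul_nonneg (by positivity)] at h1
    have h2 : N x ≤ C * ‖x‖ := by
      have := mul_le_mul_of_nonneg_left h1 hn.le
      rw [← mul_assoc, mul_inv_cancel₀ hn.ne', one_mul] at this
      linarith
    exact h2.trans (mul_le_mul_of_nonneg_right (le_max_left _ _) hn.le)

theorem exists_lower (h : IsNorm N) : ∃ c > 0, ∀ x, c * ‖x‖ ≤ N x := by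
  by_cases hE : ∃ x : E, x ≠ 0
  · obtain ⟨x0, hx0⟩ := hE
    have hne : (Metric.sphere (0 : E) 1).Nonempty :=
      ⟨‖x0‖⁻¹ • x0, by simp [norm_smul, norm_ne_zero_iff.mpr hx0]⟩
    obtain ⟨z, hz, hmin⟩ := (isCompact_sphere (0 : E) 1).exists_isMinOn hne
      h.continuous.continuousOn
    have hz0 : z ≠ 0 := by
      rintro rfl
      simp at hz
    refine ⟨N z, h.pos z hz0, fun x => ?_⟩
    by_cases hx : x = 0
    · simp [hx, h.zero]
    · have hn : 0 < ‖x‖ := norm_pos_iff.mpr hx
      have h1 : N z ≤ N (‖x‖⁻¹ • x) := hmin (by simp [norm_smul, hn.ne'])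
      rw [h.smul_nonneg (by positivity)] at h1
      have := mul_le_mul_of_nonneg_right h1 hn.le
      rw [mul_comm ‖x‖⁻¹, mul_assoc, inv_mul_cancel₀ hn.ne', mul_one] at this
      exact this
  · push Not at hE
    exact ⟨1, one_pos, fun x => by simp [hE x, h.zero]⟩

theorem lipschitz (h : IsNorm N) : ∃ K, LipschitzWith K N := by
  obtain ⟨K, hK, hle⟩ := h.exists_upper
  refine ⟨⟨K, hK.le⟩, LipschitzWith.of_dist_le_mul fun x y => ?_⟩
  rw [Real.dist_eq, dist_eq_norm]
  exact (h.abs_sub_le x y).trans (hle _)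

theorem isCompact_le (h : IsNorm N) (t : ℝ) : IsCompact {x | N x ≤ t} := by
  obtain ⟨c, hc, hle⟩ := h.exists_lower
  refine Metric.isCompact_of_isClosed_isBounded (isClosed_le h.continuous continuous_const) ?_
  refine (Metric.isBounded_closedBall (x := (0 : E)) (r := t / c)).subset fun x hx => ?_
  rw [mem_closedBall_zero_iff, le_div_iff₀ hc, mul_comm]
  exact (hle x).trans hx

end IsNorm

namespace DualPair

variable {N N' : E → ℝ}

theorem symm (h : DualPair N N') : DualPair N' N where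
  n := h.n'
  n' := h.n
  le := fun φ x => by rw [real_inner_comm, mul_comm]; exact h.le x φ
  ex := h.ex'
  ex' := h.ex

theorem exists_sub (h : DualPair N N') (x : E) : ∃ φ, Sub N N' x φ := h.ex x

theorem inner_le_of_sub (h : DualPair N N') {x φ : E} (hs : Sub N N' x φ) (z : E) :
    ⟪φ, z⟫ ≤ N z := by
  have h1 := h.le z φ
  have h2 := h.n.nonneg z
  nlinarith [hs.1]

/-- The subgradient inequality. -/
theorem sub_ineq (h : DualPair N N') {x φ : E} (hs : Sub N N' x φ) (z : E) :
    N x + ⟪φ, z - x⟫ ≤ N z := by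
  have := h.inner_le_of_sub hs z
  rw [inner_sub_right, hs.2]
  linarith

theorem sub_norm_eq (h : DualPair N N') {x φ : E} (hs : Sub N N' x φ) (hx : x ≠ 0) :
    N' φ = 1 := by
  have h1 := h.le x φ
  have h2 := h.n.pos x hx
  rw [hs.2] at h1
  have : 1 ≤ N' φ := by
    by_contra hlt
    push Not at hlt
    nlinarith
  exact le_antisymm hs.1 this

theorem abs_le (h : DualPair N N') (x φ : E) : |⟪φ, x⟫| ≤ N' φ * N x := by
  rw [_root_.abs_le]
  refine ⟨?_, h.le x φ⟩
  have := h.le (-x) φ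
  rw [inner_neg_right, h.n.neg] at this
  linarith

/-- A vector dominated by `N` has dual norm at most one. -/
theorem dual_le_one (h : DualPair N N') {φ : E} (hφ : ∀ z, ⟪φ, z⟫ ≤ N z) : N' φ ≤ 1 := by
  obtain ⟨x, hx, hx'⟩ := h.ex' φ
  have := hφ x
  rw [real_inner_comm] at hx'
  linarith

theorem back_inner_neg (h : DualPair N N') {x e φ : E} (hb : Back N x e) (hs : Sub N N' x φ) :
    ⟪φ, e⟫ < 0 := by
  obtain ⟨c, hc, hlt⟩ := hb
  have := h.sub_ineq hs (x + c • e)
  rw [add_sub_cancel_left, inner_smul_right] at this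
  by_contra hge
  push Not at hge
  nlinarith [mul_nonneg hc.le hge]

end DualPair

namespace SphIso

variable {N M : E → ℝ} {F G : E → E}

theorem symm (h : SphIso N M F G) : SphIso M N G F where
  gf := h.fg
  fg := h.gf
  hom := fun c y hc => by
    have := h.hom c (G y) hc
    rw [h.fg] at this
    rw [← this, h.gf]
  nrm := fun y => by rw [← h.nrm, h.fg]
  iso := fun y y' hy => by
    have h1 : N (G y) = N (G y') := by rw [← h.nrm, ← h.nrm, h.fg, h.fg, hy]
    have := h.iso _ _ h1
    rw [h.fg, h.fg] at this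
    exact this.symm

theorem injective (h : SphIso N M F G) : Function.Injective F :=
  Function.LeftInverse.injective h.gf

theorem map_zero (h : SphIso N M F G) : F 0 = 0 := by
  have := h.hom 0 0 le_rfl
  simpa using this

end SphIso

end Vale.Agent.P084
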