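import Vale.Agent.P084.Good

/-! Geometry of interior chords. -/

open scoped RealInnerProductSpace Topology
open Filter Set

namespace Vale.Agent.P084

/-- Two dual pairs of norms and a homogeneous isometry of the spheres. -/
structure Geo (E : Type*) [NormedAddCommGroup E] [InnerProductSpace ℝ E] where
  N : E → ℝ
  N' : E → ℝ
  M : E → ℝ
  M' : E → ℝ
  F : E → E
  G : E → E
  hN : DualPair N N'
  hM : DualPair M M'
  h : SphIso N M F G

variable {E : Type*} [NormedAddCommGroup E] [InnerProductSpace ℝ E]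

/-- The map equal to `A` on the kernel of `g` and sending `e` to `e'`. -/
noncomputable def Lmap (A : E →L[ℝ] E) (g e e' : E) : E →L[ℝ] E :=
  A + (innerSL ℝ g).smulRight (⟪g, e⟫⁻¹ • (e' - A e))

theorem Lmap_apply (A : E →L[ℝ] E) (g e e' v : E) :
    Lmap A g e e' v = A v + ⟪g, v⟫ • ⟪g, e⟫⁻¹ • (e' - A e) := by
  simp [Lmap]

theorem Lmap_self (A : E →L[ℝ] E) {g e : E} (e' : E) (h : ⟪g, e⟫ ≠ 0) :
    Lmap A g e e' e = e' := by
  rw [Lmap_apply, smul_smul, mul_inv_cancel₀ h, one_smul, add_sub_cancel]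

theorem Lmap_ker (A : E →L[ℝ] E) {g v : E} (e e' : E) (h : ⟪g, v⟫ = 0) :
    Lmap A g e e' v = A v := by
  rw [Lmap_apply, h, zero_smul, add_zero]

theorem exists_split {g e : E} (h : ⟪g, e⟫ ≠ 0) (v : E) :
    ∃ (a : ℝ) (ξ : E), ⟪g, ξ⟫ = 0 ∧ v = ξ + a • e := by
  refine ⟨⟪g, v⟫ / ⟪g, e⟫, v - (⟪g, v⟫ / ⟪g, e⟫) • e, ?_, by simp⟩
  rw [inner_sub_right, inner_smul_right, div_mul_cancel₀ _ h, sub_self]

theorem Lmap_inv {A B : E →L[ℝ] E} {g g' e e' : E} (hBA : ∀ v, B (A v) = v)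
    (hg : ∀ v, ⟪g', A v⟫ = ⟪g, v⟫) (h : ⟪g, e⟫ ≠ 0) (h' : ⟪g', e'⟫ ≠ 0) (v : E) :
    Lmap B g' e' e (Lmap A g e e' v) = v := by
  obtain ⟨a, ξ, hξ, rfl⟩ := exists_split h v
  rw [map_add, map_smul, Lmap_self _ _ h, Lmap_ker _ _ _ hξ, map_add, map_smul,
    Lmap_self _ _ h', Lmap_ker _ _ _ ((hg ξ).trans hξ), hBA]

theorem Lmap_det [FiniteDimensional ℝ E] {A B : E →L[ℝ] E} {g g' e : E} (e' : E)
    (hAB : ∀ v, A (B v) = v) (hBA : ∀ v, B (A v) = v)
    (hg : ∀ v, ⟪g, B v⟫ = ⟪g', v⟫) (h : ⟪g, e⟫ ≠ 0) :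
    (Lmap A g e e').det * ⟪g, e⟫ = A.det * ⟪g', e'⟫ := by
  rw [det_rank_one _ A B hAB g _ (Lmap_apply A g e e'), map_smul, map_sub, hBA, inner_smul_right,
    inner_sub_right, hg]
  field_simp
  ring

theorem isOpen_back [FiniteDimensional ℝ E] {N : E → ℝ} (hN : IsNorm N) :
    IsOpen {q : E × E | Back N q.1 q.2} := by
  have hc := hN.continuous
  have h2 : IsOpen (⋃ c : ℝ, ⋃ _ : 0 < c, {q : E × E | N (q.1 + c • q.2) < N q.1}) :=
    isOpen_iUnion fun c => isOpen_iUnion fun _ => isOpen_lt (by fun_prop) (by fun_prop)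
  have : {q : E × E | Back N q.1 q.2} =
      ⋃ c : ℝ, ⋃ _ : 0 < c, {q : E × E | N (q.1 + c • q.2) < N q.1} := by
    ext q
    simp [Back]
  rwa [this]

theorem Back.feas {N : E → ℝ} {x e : E} (h : Back N x e) : Feas N x e (N x) := by
  obtain ⟨c, _, hlt⟩ := h
  refine ⟨?_, c, hlt⟩
  rintro rfl
  simp at hlt

theorem exit_eq_of_sub [FiniteDimensional ℝ E] {N N' : E → ℝ} (hN : DualPair N N')
    {p d g : E} {t s : ℝ} (h : Feas N p d t) (hs : N (p + s • d) = t)
    (hg : Sub N N' (p + s • d) g) (hpos : 0 < ⟪g, d⟫) : exit N p d t = s := by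
  refine le_antisymm ?_ (le_exit hN.n h hs.le)
  have h1 := hN.sub_ineq hg (p + exit N p d t • d)
  have h2 : p + exit N p d t • d - (p + s • d) = (exit N p d t - s) • d := by module
  rw [h2, inner_smul_right, exit_spec hN.n h, hs] at h1
  by_contra hlt
  push Not at hlt
  nlinarith [mul_pos (sub_pos.mpr hlt) hpos]

/-- A first order lower bound at a point is a global lower bound, by convexity. -/
theorem convex_lb [FiniteDimensional ℝ E] {M : E → ℝ} (hM : IsNorm M) {c : ℝ → E} {c' : E}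
    {l : ℝ → ℝ} {l' K : ℝ} (hK : 0 ≤ K) (hc : HasDerivAt c c' 0) (hl : HasDerivAt l l' 0)
    (hle : ∀ s, l s ≤ K * M (c s)) (h0 : l 0 = K * M (c 0)) : l 0 + l' ≤ K * M (c 0 + c') := by
  have t1 := hl.tendsto_slope_zero_right
  have t2 := hc.tendsto_slope_zero_right
  have t3 : Tendsto (fun s : ℝ => K * M (c 0 + s⁻¹ • (c (0 + s) - c 0)) - l 0) (𝓝[>] 0)
      (𝓝 (K * M (c 0 + c') - l 0)) :=
    (((hM.continuous.tendsto _).comp (t2.const_add _)).const_mul K).sub_const _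
  have := le_of_tendsto_of_tendsto t1 t3 (by
    filter_upwards [Ioo_mem_nhdsGT (zero_lt_one' ℝ)] with s hs
    have h1 := hM.convex_comb (c 0) (c 0 + s⁻¹ • (c (0 + s) - c 0)) (sub_nonneg.mpr hs.2.le)
      hs.1.le
    have h2 : (1 - s) • c 0 + s • (c 0 + s⁻¹ • (c (0 + s) - c 0)) = c (0 + s) := by
      rw [smul_add, smul_smul, mul_inv_cancel₀ hs.1.ne']
      module
    rw [h2] at h1
    have h3 := hle (0 + s)
    rw [smul_eq_mul, inv_mul_le_iff₀ hs.1, h0]
    nlinarith [mul_le_mul_of_nonneg_left h1 hK])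
  linarith

namespace Geo

variable (D : Geo E)

/-- The data seen from the other side. -/
def symm : Geo E := ⟨D.M, D.M', D.N, D.N', D.G, D.F, D.hM, D.hN, D.h.symm⟩

theorem symm_symm : D.symm.symm = D := rfl

/-- Length of the chord. -/
noncomputable def rho (x e : E) : ℝ := exit D.N x e (D.N x)

/-- End point of the chord. -/
noncomputable def uu (x e : E) : E := x + D.rho x e • e

/-- Direction of the image chord. -/
noncomputable def dir (x e : E) : E := (D.rho x e)⁻¹ • (D.F (D.uu x e) - D.F x)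

variable [FiniteDimensional ℝ E]

/-- Gradient of the norm. -/
noncomputable def gx (x : E) : E := gradient D.N x

/-- Gradient of the dual norm. -/
noncomputable def ge (φ : E) : E := gradient D.N' φ

/-- Derivative of the map. -/
noncomputable def A (x : E) : E →L[ℝ] E := fderiv ℝ D.F x

/-- Chord linearisation at the first end. -/
noncomputable def Lx (x e : E) : E →L[ℝ] E := Lmap (D.A x) (D.gx x) e (D.dir x e)

/-- Chord linearisation at the second end. -/
noncomputable def Lu (x e : E) : E →L[ℝ] E :=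
  Lmap (D.A (D.uu x e)) (D.gx (D.uu x e)) e (D.dir x e)

/-- The transported functional. -/
noncomputable def psi (x e φ : E) : E :=
  ContinuousLinearMap.adjoint (D.symm.Lx (D.F x) (D.dir x e)) φ

/-- Good points. -/
structure Good (x : E) : Prop where
  ne : x ≠ 0
  aN : ∃ H, Alex D.N D.N' x (D.gx x) H
  aM : ∃ H, Alex D.M D.M' (D.F x) (D.symm.gx (D.F x)) H
  qF : Quad D.F x (D.A x)
  qG : Quad D.G (D.F x) (D.symm.A (D.F x))

variable {D}

section chord

variable {x e : E}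

theorem rho_pos (hb : Back D.N x e) : 0 < D.rho x e := by
  obtain ⟨c, hc, hlt⟩ := hb
  exact hc.trans (lt_exit D.hN.n (Back.feas ⟨c, hc, hlt⟩) hlt)

theorem N_uu (hb : Back D.N x e) : D.N (D.uu x e) = D.N x := exit_spec D.hN.n hb.feas

theorem N_lt (hb : Back D.N x e) {s : ℝ} (h0 : 0 < s) (h1 : s < D.rho x e) :
    D.N (x + s • e) < D.N x :=
  lt_of_between D.hN.n hb.feas (s₀ := 0) (by simp) (exit_le D.hN.n hb.feas) h0 h1

theorem F_uu (hb : Back D.N x e) : D.F (D.uu x e) = D.F x + D.rho x e • D.dir x e := by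
  rw [dir, smul_smul, mul_inv_cancel₀ (rho_pos hb).ne', one_smul, add_sub_cancel]

theorem M_dir (hb : Back D.N x e) : D.M (D.dir x e) = D.N e := by
  have hρ := rho_pos hb
  rw [dir, D.hM.n.smul_nonneg (by positivity), D.h.iso _ _ (N_uu hb), uu, add_sub_cancel_left,
    D.hN.n.smul_nonneg hρ.le, ← mul_assoc, inv_mul_cancel₀ hρ.ne', one_mul]

theorem M_mid (hb : Back D.N x e) :
    D.M (D.F x + (D.rho x e / 2) • D.dir x e) < D.M (D.F x) := by
  have hρ := rho_pos hb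
  by_contra hge
  push Not at hge
  have h1 : D.M (D.F (D.uu x e)) = D.M (D.F x) := by rw [D.h.nrm, D.h.nrm, N_uu hb]
  have h2 : D.F x + D.F (D.uu x e) = (2 : ℝ) • (D.F x + (D.rho x e / 2) • D.dir x e) := by
    rw [F_uu hb]; module
  have h3 := D.hM.n.add_le (D.F x) (D.F (D.uu x e))
  have h4 : D.M (D.F x + D.F (D.uu x e)) = 2 * D.M (D.F x) := by
    refine le_antisymm (by linarith) ?_
    rw [h2, D.hM.n.smul_nonneg (by norm_num)]
    linarith
  have h5 := D.h.symm.star D.hM D.hN.n h1 h4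
  rw [D.h.gf, D.h.gf, D.h.nrm] at h5
  have h6 : x + D.uu x e = (2 : ℝ) • (x + (D.rho x e / 2) • e) := by rw [uu]; module
  rw [h6, D.hN.n.smul_nonneg (by norm_num)] at h5
  have := N_lt hb (half_pos hρ) (half_lt_self hρ)
  linarith

theorem back_symm (hb : Back D.N x e) : Back D.symm.N (D.F x) (D.dir x e) :=
  ⟨_, half_pos (rho_pos hb), M_mid hb⟩

theorem rho_symm (hb : Back D.N x e) : D.symm.rho (D.F x) (D.dir x e) = D.rho x e := by
  have hρ := rho_pos hb
  refine exit_eq D.hM.n (back_symm hb).feas.1 (M_mid hb) (half_lt_self hρ) ?_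
  rw [← F_uu hb]
  change D.M _ = D.M _
  rw [D.h.nrm, D.h.nrm, N_uu hb]

theorem uu_symm (hb : Back D.N x e) : D.symm.uu (D.F x) (D.dir x e) = D.F (D.uu x e) := by
  rw [uu, rho_symm hb, F_uu hb]

theorem dir_symm (hb : Back D.N x e) : D.symm.dir (D.F x) (D.dir x e) = e := by
  rw [dir, rho_symm hb, uu_symm hb]
  change _ • (D.G _ - D.G _) = _
  rw [D.h.gf, D.h.gf, uu, add_sub_cancel_left, smul_smul, inv_mul_cancel₀ (rho_pos hb).ne',
    one_smul]

end chord

namespace Good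

variable {x : E}

theorem pos (hx : D.Good x) : 0 < D.N x := D.hN.n.pos x hx.ne

theorem symm (hx : D.Good x) : D.symm.Good (D.F x) where
  ne := fun h0 => by
    have := D.h.nrm x
    rw [h0, D.hM.n.zero] at this
    exact hx.pos.ne this
  aN := hx.aM
  aM := by
    change ∃ H, Alex D.N D.N' (D.G (D.F x)) (D.gx (D.G (D.F x))) H
    rw [D.h.gf]
    exact hx.aN
  qF := hx.qG
  qG := by
    change Quad D.F (D.G (D.F x)) (D.A (D.G (D.F x)))
    rw [D.h.gf]
    exact hx.qF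

theorem dN (hx : D.Good x) : HasFDerivAt D.N (innerSL ℝ (D.gx x)) x := by
  obtain ⟨H, hH⟩ := hx.aN
  exact hH.hasFDerivAt D.hN

theorem sub (hx : D.Good x) : Sub D.N D.N' x (D.gx x) := by
  obtain ⟨H, hH⟩ := hx.aN
  exact hH.sub

theorem dF (hx : D.Good x) : HasFDerivAt D.F (D.A x) x := hx.qF.hasFDerivAt

theorem BA (hx : D.Good x) (v : E) : D.symm.A (D.F x) (D.A x v) = v := by
  have h1 := HasFDerivAt.comp x (g := D.G) hx.qG.hasFDerivAt hx.dF
  have h2 : D.G ∘ D.F = id := funext D.h.gf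
  rw [h2] at h1
  have := h1.unique (hasFDerivAt_id x)
  exact congrArg (fun L : E →L[ℝ] E => L v) this

theorem AB (hx : D.Good x) (v : E) : D.A x (D.symm.A (D.F x) v) = v :=
  left_inv_of_right_inv _ _ hx.BA v

theorem inner_A (hx : D.Good x) (v : E) : ⟪D.symm.gx (D.F x), D.A x v⟫ = ⟪D.gx x, v⟫ := by
  have h1 := HasFDerivAt.comp x (g := D.M) hx.symm.dN hx.dF
  have h2 : D.M ∘ D.F = D.N := funext D.h.nrm
  rw [h2] at h1
  have := h1.unique hx.dN
  exact congrArg (fun L : E →L[ℝ] ℝ => L v) this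

theorem inner_B (hx : D.Good x) (v : E) :
    ⟪D.gx x, D.symm.A (D.F x) v⟫ = ⟪D.symm.gx (D.F x), v⟫ := by
  rw [← hx.inner_A, hx.AB]

theorem A_self (hx : D.Good x) : D.A x x = D.F x := by
  have h1 : HasDerivAt (fun c : ℝ => c • x) x 1 := by simpa using (hasDerivAt_id (1 : ℝ)).smul_const x
  have h2 : HasDerivAt (fun c : ℝ => D.F (c • x)) (D.A x x) 1 :=
    HasFDerivAt.comp_hasDerivAt (l := D.F) (f := fun c : ℝ => c • x) (1 : ℝ)
      (by simpa using hx.dF) h1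
  have h3 : HasDerivAt (fun c : ℝ => c • D.F x) (D.F x) 1 := by
    simpa using (hasDerivAt_id (1 : ℝ)).smul_const (D.F x)
  refine h2.unique (h3.congr_of_eventuallyEq ?_)
  filter_upwards [lt_mem_nhds (zero_lt_one' ℝ)] with c hc using D.h.hom c x hc.le

variable {e φ : E}

theorem back (hx : D.Good x) (he : ⟪D.gx x, e⟫ < 0) : Back D.N x e :=
  back_of_hasFDerivAt hx.dN he

theorem inner_dir (hx : D.Good x) (he : ⟪D.gx x, e⟫ < 0) :
    ⟪D.symm.gx (D.F x), D.dir x e⟫ < 0 :=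
  D.hM.back_inner_neg (back_symm (hx.back he)) hx.symm.sub

theorem Lx_symm (hx : D.Good x) (he : ⟪D.gx x, e⟫ < 0) :
    D.symm.Lx (D.F x) (D.dir x e) =
      Lmap (D.symm.A (D.F x)) (D.symm.gx (D.F x)) (D.dir x e) e := by
  rw [Lx, dir_symm (hx.back he)]

theorem Li_Lx (hx : D.Good x) (he : ⟪D.gx x, e⟫ < 0) (v : E) :
    D.symm.Lx (D.F x) (D.dir x e) (D.Lx x e v) = v := by
  rw [hx.Lx_symm he]
  exact Lmap_inv hx.BA hx.inner_A he.ne (hx.inner_dir he).ne v

theorem Lx_Li (hx : D.Good x) (he : ⟪D.gx x, e⟫ < 0) (v : E) :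
    D.Lx x e (D.symm.Lx (D.F x) (D.dir x e) v) = v :=
  left_inv_of_right_inv _ _ (hx.Li_Lx he) v

theorem Lx_det (hx : D.Good x) (he : ⟪D.gx x, e⟫ < 0) :
    (D.Lx x e).det * ⟪D.gx x, e⟫ = (D.A x).det * ⟪D.symm.gx (D.F x), D.dir x e⟫ :=
  Lmap_det _ hx.AB hx.BA hx.inner_B he.ne

theorem psi_Lx (hx : D.Good x) (he : ⟪D.gx x, e⟫ < 0) (φ v : E) :
    ⟪D.psi x e φ, D.Lx x e v⟫ = ⟪φ, v⟫ := by
  rw [psi, ContinuousLinearMap.adjoint_inner_left, hx.Li_Lx he]

theorem psi_symm (hx : D.Good x) (he : ⟪D.gx x, e⟫ < 0) (φ : E) :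
    D.symm.psi (D.F x) (D.dir x e) (D.psi x e φ) = φ := by
  refine ext_inner_right ℝ fun v => ?_
  rw [psi, ContinuousLinearMap.adjoint_inner_left, dir_symm (hx.back he)]
  change ⟪_, D.Lx (D.G (D.F x)) e v⟫ = _
  rw [D.h.gf, hx.psi_Lx he]

theorem psi_key (hx : D.Good x) (he : ⟪D.gx x, e⟫ < 0) (h1 : D.N e = 1)
    (hφ : ⟪φ, e⟫ = D.N' φ) {ξ : E} (hξ : ⟪D.gx x, ξ⟫ = 0) :
    D.rho x e * D.N' φ - ⟪φ, ξ⟫ ≤ D.N' φ * D.M (D.rho x e • D.dir x e - D.A x ξ) := by
  have hb := hx.back he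
  have hp := hx.pos
  have l1 : HasDerivAt (fun s : ℝ => x + s • ξ) ξ 0 := by
    simpa using ((hasDerivAt_id (0 : ℝ)).smul_const ξ).const_add x
  have l2 : HasDerivAt (fun s : ℝ => D.N (x + s • ξ) / D.N x) 0 0 := by
    have := (HasFDerivAt.comp_hasDerivAt (l := D.N) (f := fun s : ℝ => x + s • ξ) (0 : ℝ)
      (by simpa using hx.dN) l1).div_const (D.N x)
    simpa [hξ] using this
  have l3 : HasDerivAt (fun s : ℝ => D.F (x + s • ξ)) (D.A x ξ) 0 :=
    HasFDerivAt.comp_hasDerivAt (l := D.F) (f := fun s : ℝ => x + s • ξ) (0 : ℝ)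
      (by simpa using hx.dF) l1
  have l4 := (l2.smul_const (D.F (D.uu x e))).sub l3
  have l5 := HasFDerivAt.comp_hasDerivAt (0 : ℝ) (innerSL ℝ φ).hasFDerivAt
    ((l2.smul_const (D.uu x e)).sub l1)
  have key := convex_lb D.hM.n (D.hN.n'.nonneg φ) l4 l5 (fun s => by
    have hc : 0 ≤ D.N (x + s • ξ) / D.N x := div_nonneg (D.hN.n.nonneg _) hp.le
    simp only [Function.comp, Pi.sub_apply, innerSL_apply_apply]
    rw [← D.h.hom _ _ hc, D.h.iso _ _ (by
      rw [D.hN.n.smul_nonneg hc, N_uu hb, div_mul_cancel₀ _ hp.ne'])]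
    exact D.hN.le _ _) (by
    simp only [Function.comp, Pi.sub_apply, innerSL_apply_apply, zero_smul, add_zero,
      div_self hp.ne', one_smul]
    rw [D.h.iso _ _ (N_uu hb), uu, add_sub_cancel_left, inner_smul_right,
      D.hN.n.smul_nonneg (rho_pos hb).le, h1, hφ]
    ring)
  simp only [Function.comp, Pi.sub_apply, innerSL_apply_apply, zero_smul, add_zero,
    div_self hp.ne', one_smul, zero_sub, inner_neg_right] at key
  rw [F_uu hb, add_sub_cancel_left, uu, add_sub_cancel_left, inner_smul_right, hφ] at key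
  simpa [sub_eq_add_neg] using key

theorem psi_dir (hx : D.Good x) (he : ⟪D.gx x, e⟫ < 0) (φ : E) :
    ⟪D.psi x e φ, D.dir x e⟫ = ⟪φ, e⟫ := by
  rw [← hx.psi_Lx he φ e, Lx, Lmap_self _ _ he.ne]

theorem psi_norm (hx : D.Good x) (he : ⟪D.gx x, e⟫ < 0) (h1 : D.N e = 1)
    (hφ : ⟪φ, e⟫ = D.N' φ) : D.M' (D.psi x e φ) = D.N' φ := by
  have hb := hx.back he
  have hρ := rho_pos hb
  have hd : D.M (D.dir x e) = 1 := (M_dir hb).trans h1
  have h0 := D.hN.n'.nonneg φ
  refine le_antisymm ?_ ?_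
  · obtain ⟨w, hw1, hw2⟩ := D.hM.ex' (D.psi x e φ)
    obtain ⟨a, ξ, hξ, hv⟩ := exists_split he.ne (D.symm.Lx (D.F x) (D.dir x e) w)
    have hw : w = D.A x ξ + a • D.dir x e := by
      rw [← hx.Lx_Li he w, hv, map_add, map_smul, Lx, Lmap_self _ _ he.ne, Lmap_ker _ _ _ hξ]
    have h2 : ⟪w, D.psi x e φ⟫ = ⟪φ, ξ⟫ + a * D.N' φ := by
      rw [real_inner_comm, ← hx.Lx_Li he w, hx.psi_Lx he, hv, inner_add_right, inner_smul_right,
        hφ]
    set b := |a| + 1 with hb'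
    have hb0 : 0 < b := by positivity
    have hab : 0 ≤ b - a := by linarith [le_abs_self a]
    have h3 := hx.psi_key he h1 hφ (ξ := (-(D.rho x e / b)) • ξ) (by
      rw [inner_smul_right, hξ, mul_zero])
    have h4 : D.rho x e • D.dir x e - D.A x ((-(D.rho x e / b)) • ξ) =
        (D.rho x e / b) • (w + (b - a) • D.dir x e) := by
      rw [hw, map_smul]
      match_scalars <;> field_simp <;> ring
    have h5 := D.hM.n.add_le w ((b - a) • D.dir x e)
    rw [D.hM.n.smul_nonneg hab, hd] at h5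
    rw [h4, D.hM.n.smul_nonneg (by positivity), inner_smul_right] at h3
    have h6 : b * D.N' φ + ⟪φ, ξ⟫ ≤ D.N' φ * D.M (w + (b - a) • D.dir x e) := by
      have h7 : D.rho x e / b * (b * D.N' φ + ⟪φ, ξ⟫) ≤
          D.rho x e / b * (D.N' φ * D.M (w + (b - a) • D.dir x e)) := by
        have : D.rho x e / b * (b * D.N' φ) = D.rho x e * D.N' φ := by field_simp
        nlinarith
      exact le_of_mul_le_mul_left h7 (by positivity)
    rw [← hw2, h2]
    nlinarith [mul_le_mul_of_nonneg_left h5 h0, mul_le_mul_of_nonneg_left hw1 h0]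
  · have := D.hM.le (D.dir x e) (D.psi x e φ)
    rw [hx.psi_dir he, hφ, hd, mul_one] at this
    exact this

theorem psi_sub (hx : D.Good x) (he : ⟪D.gx x, e⟫ < 0) (h1 : D.N e = 1)
    (hφ : ⟪φ, e⟫ = D.N' φ) : Sub D.M' D.M (D.psi x e φ) (D.dir x e) :=
  ⟨((M_dir (hx.back he)).trans h1).le, by
    rw [real_inner_comm, hx.psi_dir he, hx.psi_norm he h1 hφ, hφ]⟩

theorem psi_eq (hx : D.Good x) (he : ⟪D.gx x, e⟫ < 0) (φ : E) :
    ∃ k : ℝ, D.psi x e φ = ContinuousLinearMap.adjoint (D.symm.A (D.F x)) φ +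
      k • -D.symm.gx (D.F x) := by
  refine ⟨-⟪φ, ⟪D.symm.gx (D.F x), D.dir x e⟫⁻¹ • (e - D.symm.A (D.F x) (D.dir x e))⟫, ?_⟩
  refine ext_inner_right ℝ fun v => ?_
  rw [psi, hx.Lx_symm he, ContinuousLinearMap.adjoint_inner_left, Lmap_apply, inner_add_left,
    ContinuousLinearMap.adjoint_inner_left, inner_add_right, inner_smul_right (r := ⟪_, v⟫),
    inner_smul_left, inner_neg_left]
  simp only [conj_trivial]
  ring

end Good

end Geo

end Vale.Agent.P084
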