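import Vale.Agent.P084.Chord

/-! Derivatives of chord data and the determinant inequality. -/

open scoped RealInnerProductSpace Topology
open Filter Set

namespace Vale.Agent.P084

variable {E : Type*} [NormedAddCommGroup E] [InnerProductSpace ℝ E] [FiniteDimensional ℝ E]

omit [FiniteDimensional ℝ E] in
theorem det_of_comp (C A B : E →L[ℝ] E) (h : ∀ v, C v = A (B v)) : C.det = A.det * B.det := by
  unfold ContinuousLinearMap.det
  rw [← LinearMap.det_comp]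
  congr 1
  ext v
  simp [h]

theorem zero_of_slack {a b : ℝ → ℝ} {β : ℝ} {P : ℝ → Prop} (hb : HasDerivAt b β 0)
    (ha : a =O[𝓝 0] fun τ => τ ^ 2) (hP : ∀ᶠ τ in 𝓝 0, P τ)
    (h : ∀ η : ℝ, 0 < η → ∀ᶠ ε in 𝓝 (0 : ℝ), ∀ τ, P τ → ε * (b τ - b 0) ≤ η * ε ^ 2 + a τ) :
    β = 0 := by
  by_contra hne
  obtain ⟨C, hC, hbd⟩ := ha.exists_pos
  have hβ : 0 < β ^ 2 := by positivity
  set s := β / (2 * C) with hs
  have hl : HasDerivAt (fun ε : ℝ => s * ε) s 0 := by simpa using (hasDerivAt_id (0 : ℝ)).const_mul s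
  have ht : Tendsto (fun ε : ℝ => s * ε) (𝓝 0) (𝓝 0) := by simpa using hl.continuousAt.tendsto
  have h1 : HasDerivAt (fun ε : ℝ => b (s * ε)) (β * s) 0 :=
    HasDerivAt.comp (0 : ℝ) (h₂ := b) (by simpa using hb) hl
  have h2 := h1.tendsto_slope_zero_right
  have h3 : β * s ≤ β ^ 2 / (8 * C) + C * s ^ 2 := by
    refine le_of_tendsto h2 ?_
    filter_upwards [nhdsWithin_le_nhds (h (β ^ 2 / (8 * C)) (by positivity)),
      nhdsWithin_le_nhds (ht.eventually hP), nhdsWithin_le_nhds (ht.eventually hbd.bound),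
      self_mem_nhdsWithin] with ε e1 e2 e3 e4
    have hε : (0 : ℝ) < ε := e4
    have e5 := e1 _ e2
    rw [Real.norm_eq_abs, Real.norm_eq_abs, abs_of_nonneg (sq_nonneg (s * ε))] at e3
    have e6 := le_abs_self (a (s * ε))
    rw [zero_add, mul_zero, smul_eq_mul, inv_mul_le_iff₀ hε]
    refine le_of_mul_le_mul_left ?_ hε
    nlinarith
  have h4 : β * s = β ^ 2 / (2 * C) := by rw [hs]; ring
  have h5 : C * s ^ 2 = β ^ 2 / (4 * C) := by rw [hs]; field_simp; ring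
  have h6 : β ^ 2 / (2 * C) - β ^ 2 / (8 * C) - β ^ 2 / (4 * C) = β ^ 2 / (8 * C) := by
    field_simp; ring
  have h7 : 0 < β ^ 2 / (8 * C) := by positivity
  linarith

namespace Geo

variable {D : Geo E} {x e φ : E}

theorem inner_uu_pos (hb : Back D.N x e) (hu : D.Good (D.uu x e)) :
    0 < ⟪D.gx (D.uu x e), e⟫ := exit_inner_pos D.hN hb.feas hu.sub

theorem hasFDerivAt_dir_e (hb : Back D.N x e) (hu : D.Good (D.uu x e)) :
    HasFDerivAt (fun e' => D.dir x e') (D.Lu x e) e := by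
  have hρ := rho_pos hb
  have hp := inner_uu_pos hb hu
  have h1 := hasFDerivAt_exit D.hN.n (a := e) (p := fun _ => x) (d := fun e' => e')
    (t := fun _ => D.N x) (hasFDerivAt_const x e) (hasFDerivAt_id e) (hasFDerivAt_const _ e)
    hb.feas hu.dN hp
  have h2 := (h1.smul (hasFDerivAt_id e)).const_add x
  have h3 := (HasFDerivAt.comp e (g := D.F) hu.dF h2).sub_const (D.F x)
  have h4 := ((hasDerivAt_inv hρ.ne').comp_hasFDerivAt e h1).smul h3
  refine HasFDerivAt.congr_fderiv h4 ?_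
  ext v
  have h5 := F_uu hb
  have h6 : exit D.N x e (D.N x) = D.rho x e := rfl
  simp [Lu, Lmap_apply, h5, h6]
  match_scalars <;> field_simp <;> ring

theorem Good.hasFDerivAt_rho (hx : D.Good x) (he : ⟪D.gx x, e⟫ < 0) (hu : D.Good (D.uu x e)) :
    HasFDerivAt (fun x' => D.rho x' e)
      (⟪D.gx (D.uu x e), e⟫⁻¹ • (innerSL ℝ (D.gx x) - innerSL ℝ (D.gx (D.uu x e)))) x := by
  have hb := hx.back he
  have h1 := hasFDerivAt_exit D.hN.n (a := x) (p := fun x' => x') (d := fun _ => e)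
    (t := D.N) (hasFDerivAt_id x) (hasFDerivAt_const e x) hx.dN hb.feas hu.dN (inner_uu_pos hb hu)
  refine HasFDerivAt.congr_fderiv h1 ?_
  ext v
  simp

theorem Good.hasFDerivAt_dir (hx : D.Good x) (he : ⟪D.gx x, e⟫ < 0) (hu : D.Good (D.uu x e)) :
    ∃ Dd : E →L[ℝ] E, HasFDerivAt (fun x' => D.dir x' e) Dd x ∧
      ∀ ξ, ⟪D.gx x, ξ⟫ = 0 → D.rho x e • Dd ξ = D.Lu x e ξ - D.Lx x e ξ := by
  have hb := hx.back he
  have hρ := rho_pos hb
  have hp := inner_uu_pos hb hu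
  have h1 := hx.hasFDerivAt_rho he hu
  have h2 := (hasFDerivAt_id x).add (h1.smul_const e)
  have h3 := (HasFDerivAt.comp x (g := D.F) hu.dF h2).sub hx.dF
  have h4 := ((hasDerivAt_inv hρ.ne').comp_hasFDerivAt x h1).smul h3
  refine ⟨_, h4, fun ξ hξ => ?_⟩
  have h5 := F_uu hb
  have h6 : x + D.rho x e • e = D.uu x e := rfl
  simp [Lu, Lx, Lmap_apply, h5, h6, hξ]
  match_scalars <;> field_simp <;> ring

theorem eventually_back (hb : Back D.N x e) : ∀ᶠ x' in 𝓝 x, Back D.N x' e :=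
  (Continuous.prodMk_left e).continuousAt.eventually ((isOpen_back D.hN.n).mem_nhds hb)

theorem Good.psi_Lu (hx : D.Good x) (he : ⟪D.gx x, e⟫ < 0) (hu : D.Good (D.uu x e))
    (h1 : D.N e = 1) (hφ : ⟪φ, e⟫ = D.N' φ) (v : E) : ⟪D.psi x e φ, D.Lu x e v⟫ = ⟪φ, v⟫ := by
  have hb := hx.back he
  obtain ⟨Dd, hD, hDξ⟩ := hx.hasFDerivAt_dir he hu
  have hmax : IsLocalMax (fun x' => ⟪D.psi x e φ, D.dir x' e⟫) x := by
    filter_upwards [eventually_back hb] with x' hx'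
    have := D.hM.le (D.dir x' e) (D.psi x e φ)
    rwa [M_dir hx', h1, mul_one, hx.psi_norm he h1 hφ, ← hφ, ← hx.psi_dir he] at this
  have h0 := hmax.hasFDerivAt_eq_zero
    (HasFDerivAt.comp x (innerSL ℝ (D.psi x e φ)).hasFDerivAt hD)
  obtain ⟨a, ξ, hξ, rfl⟩ := exists_split he.ne v
  have h2 : ⟪D.psi x e φ, Dd ξ⟫ = 0 := congrArg (fun L : E →L[ℝ] ℝ => L ξ) h0
  have h3 := congrArg (fun z => ⟪D.psi x e φ, z⟫) (hDξ ξ hξ)
  simp only [inner_smul_right, inner_sub_right, h2, mul_zero, hx.psi_Lx he] at h3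
  rw [map_add, map_smul, inner_add_right, inner_add_right, inner_smul_right, inner_smul_right, Lu,
    Lmap_self _ _ (inner_uu_pos hb hu).ne', hx.psi_dir he, ← Lu]
  linarith

variable (D) in
/-- The transported functional, described through an exit time. -/
noncomputable def Phi (x φ : E) : E :=
  ContinuousLinearMap.adjoint (D.symm.A (D.F x)) φ +
    exit D.M' (ContinuousLinearMap.adjoint (D.symm.A (D.F x)) φ) (-D.symm.gx (D.F x)) (D.N' φ) •
      -D.symm.gx (D.F x)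

theorem Good.inner_dir' (hx : D.Good x) (he : ⟪D.gx x, e⟫ < 0) :
    0 < ⟪D.dir x e, -D.symm.gx (D.F x)⟫ := by
  rw [inner_neg_right, real_inner_comm]
  linarith [hx.inner_dir he]

theorem Good.psi_eq_Phi (hx : D.Good x) (he : ⟪D.gx x, e⟫ < 0) (h1 : D.N e = 1)
    (hφ : ⟪φ, e⟫ = D.N' φ)
    (hf : Feas D.M' (ContinuousLinearMap.adjoint (D.symm.A (D.F x)) φ) (-D.symm.gx (D.F x))
      (D.N' φ)) : D.psi x e φ = D.Phi x φ := by
  obtain ⟨k, hk⟩ := hx.psi_eq he φ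
  rw [Phi, exit_eq_of_sub D.hM.symm hf (s := k) (g := D.dir x e)
    (by rw [← hk, hx.psi_norm he h1 hφ]) (by rw [← hk]; exact hx.psi_sub he h1 hφ)
    (hx.inner_dir' he), hk]

theorem Good.feas_of_diff (hx : D.Good x) (he : ⟪D.gx x, e⟫ < 0) (h1 : D.N e = 1)
    (hφ : ⟪φ, e⟫ = D.N' φ) (hd : HasFDerivAt D.M' (innerSL ℝ (D.dir x e)) (D.psi x e φ)) :
    Feas D.M' (ContinuousLinearMap.adjoint (D.symm.A (D.F x)) φ) (-D.symm.gx (D.F x))
      (D.N' φ) := by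
  obtain ⟨k, hk⟩ := hx.psi_eq he φ
  have h2 := hx.inner_dir he
  obtain ⟨c, _, hc⟩ := back_of_hasFDerivAt hd (e := D.symm.gx (D.F x))
    (by rwa [real_inner_comm])
  refine ⟨?_, k - c, ?_⟩
  · intro h0
    rw [neg_eq_zero.mp h0, inner_zero_left] at h2
    exact lt_irrefl _ h2
  · rw [hx.psi_norm he h1 hφ, hk] at hc
    rw [sub_smul, smul_neg c, sub_neg_eq_add, ← add_assoc]
    exact hc

theorem Good.hasFDerivAt_Phi (hx : D.Good x) (he : ⟪D.gx x, e⟫ < 0) (h1 : D.N e = 1)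
    (hφ : ⟪φ, e⟫ = D.N' φ) (hd' : HasFDerivAt D.N' (innerSL ℝ e) φ)
    (hd : HasFDerivAt D.M' (innerSL ℝ (D.dir x e)) (D.psi x e φ)) :
    HasFDerivAt (D.Phi x) (ContinuousLinearMap.adjoint (D.symm.Lx (D.F x) (D.dir x e))) φ := by
  have hf := hx.feas_of_diff he h1 hφ hd
  rw [hx.psi_eq_Phi he h1 hφ hf] at hd
  have h2 := hasFDerivAt_exit D.hM.n' (a := φ)
    (p := fun φ' => ContinuousLinearMap.adjoint (D.symm.A (D.F x)) φ')
    (d := fun _ => -D.symm.gx (D.F x)) (t := D.N')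
    (ContinuousLinearMap.adjoint (D.symm.A (D.F x))).hasFDerivAt (hasFDerivAt_const _ φ) hd' hf hd
    (hx.inner_dir' he)
  have h3 := (ContinuousLinearMap.adjoint (D.symm.A (D.F x))).hasFDerivAt.add
    (h2.smul_const (-D.symm.gx (D.F x)))
  refine HasFDerivAt.congr_fderiv h3 ?_
  ext χ
  refine ext_inner_right ℝ fun v => ?_
  rw [hx.Lx_symm he, ContinuousLinearMap.adjoint_inner_left, Lmap_apply]
  simp [inner_add_left, inner_add_right, inner_smul_left, inner_smul_right, inner_sub_right,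
    ContinuousLinearMap.adjoint_inner_left, ContinuousLinearMap.adjoint_inner_right,
    real_inner_comm (D.dir x e) (D.symm.gx (D.F x)), real_inner_comm e χ,
    real_inner_comm (D.symm.A (D.F x) (D.dir x e)) χ]
  ring

theorem Good.Lu_hess (hx : D.Good x) (he : ⟪D.gx x, e⟫ < 0) (hu : D.Good (D.uu x e))
    (hφ0 : φ ≠ 0) {H H' : E →L[ℝ] E} (ha : Alex D.N' D.N φ e H)
    (hb : Alex D.M' D.M (D.psi x e φ) (D.dir x e) H') (χ : E) :
    D.Lu x e (H χ) = H' (ContinuousLinearMap.adjoint (D.symm.Lx (D.F x) (D.dir x e)) χ) := by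
  have h1 : D.N e = 1 := D.hN.symm.sub_norm_eq ha.sub hφ0
  have hφ : ⟪φ, e⟫ = D.N' φ := by rw [real_inner_comm]; exact ha.sub.2
  choose b hbs using D.hN.symm.exists_sub
  have hbφ : b φ = e := ha.unique (hbs φ)
  have d1 : HasFDerivAt b (H.comp (ContinuousLinearMap.id ℝ E)) φ :=
    ha.comp_hasFDerivAt (hasFDerivAt_id φ) rfl (Eventually.of_forall hbs)
  have d2 := HasFDerivAt.comp φ (g := fun e' => D.dir x e')
    (by rw [hbφ]; exact hasFDerivAt_dir_e (hx.back he) hu) d1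
  have hd := hb.hasFDerivAt D.hM.symm
  have hf := hx.feas_of_diff he h1 hφ hd
  have d3 := hx.hasFDerivAt_Phi he h1 hφ (ha.hasFDerivAt D.hN.symm) hd
  have e1 : ∀ᶠ φ' in 𝓝 φ, φ' ≠ 0 := isOpen_ne.mem_nhds hφ0
  have e2 : ∀ᶠ φ' in 𝓝 φ, ⟪D.gx x, b φ'⟫ < 0 :=
    (ContinuousAt.inner (𝕜 := ℝ) continuousAt_const d1.continuousAt).eventually_lt continuousAt_const
      (by rwa [hbφ])
  have e3 : ∀ᶠ φ' in 𝓝 φ, Feas D.M' (ContinuousLinearMap.adjoint (D.symm.A (D.F x)) φ')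
      (-D.symm.gx (D.F x)) (D.N' φ') := by
    have hc := D.hN.n'.continuous
    have : Continuous fun φ' => (ContinuousLinearMap.adjoint (D.symm.A (D.F x)) φ',
        -D.symm.gx (D.F x), D.N' φ') := by fun_prop
    exact this.continuousAt.eventually ((isOpen_feas D.hM.n').mem_nhds hf)
  have d4 := hb.comp_hasFDerivAt (b := (fun e' => D.dir x e') ∘ b) d3
    (hx.psi_eq_Phi he h1 hφ hf).symm (by
      filter_upwards [e1, e2, e3] with φ' f1 f2 f3
      have g1 : D.N (b φ') = 1 := D.hN.symm.sub_norm_eq (hbs φ') f1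
      have g2 : ⟪φ', b φ'⟫ = D.N' φ' := by rw [real_inner_comm]; exact (hbs φ').2
      rw [← hx.psi_eq_Phi f2 g1 g2 f3]
      exact hx.psi_sub f2 g1 g2)
  exact congrArg (fun L : E →L[ℝ] E => L χ) (d2.unique d4)

theorem Good.slack (hx : D.Good x) (he : ⟪D.gx x, e⟫ < 0) (hu : D.Good (D.uu x e))
    (h1 : D.N e = 1) (hφ : ⟪φ, e⟫ = D.N' φ) {ξ : E} (hξ : ⟪D.gx x, ξ⟫ = 0) :
    (fun τ : ℝ => D.N' φ - ⟪D.psi x e φ, D.dir (x + τ • ξ) e⟫) =O[𝓝 0] fun τ => τ ^ 2 := by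
  have hb := hx.back he
  have hρ := rho_pos hb
  have d1 := hx.hasFDerivAt_rho he hu
  have d2 : DifferentiableAt ℝ (fun x' => D.uu x' e) x :=
    ((hasFDerivAt_id x).add (d1.smul_const e)).differentiableAt
  have t2 : Tendsto (fun x' => D.uu x' e) (𝓝 x) (𝓝 (D.uu x e)) := d2.continuousAt
  have b2 := d2.isBigO_sub.norm_norm.pow 2
  obtain ⟨H, hH⟩ := hx.aN
  obtain ⟨H', hH'⟩ := hu.aN
  set ψ := D.psi x e φ with hψ
  have o1 := ((innerSL ℝ ψ).isBigO_comp _ _).trans hx.qF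
  have o2 := ((innerSL ℝ ψ).isBigO_comp _ _).trans ((hu.qF.comp_tendsto t2).trans b2)
  have o3 := hH.quadN D.hN
  have o4 := ((hH'.quadN D.hN).comp_tendsto t2).trans b2
  set k := ⟪ψ, ⟪D.gx (D.uu x e), e⟫⁻¹ • (D.dir x e - D.A (D.uu x e) e)⟫ with hk
  have o5 := (o1.sub o2).add ((o3.sub o4).const_mul_left k)
  have o6 : (fun x' => (D.rho x' e)⁻¹) =O[𝓝 x] fun _ => (1 : ℝ) :=
    (d1.continuousAt.inv₀ hρ.ne').tendsto.isBigO_one ℝ
  have t0 : Tendsto (fun τ : ℝ => x + τ • ξ) (𝓝 0) (𝓝 x) := by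
    have : Continuous fun s : ℝ => x + s • ξ := by fun_prop
    simpa using this.tendsto 0
  have o7 := (o6.mul o5).comp_tendsto t0
  have o8 : ((fun x' => 1 * ‖x' - x‖ ^ 2) ∘ fun τ : ℝ => x + τ • ξ) =O[𝓝 0] fun τ => τ ^ 2 := by
    refine Asymptotics.IsBigO.of_bound (‖ξ‖ ^ 2) (Eventually.of_forall fun τ => ?_)
    simp [norm_smul, mul_pow, mul_comm]
  refine (o7.trans o8).congr' ?_ EventuallyEq.rfl
  filter_upwards [t0.eventually (eventually_back hb)] with τ hτ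
  have hρ' := rho_pos hτ
  set x' := x + τ • ξ with hx'
  have f1 : ⟪D.gx x, x' - x⟫ = 0 := by
    rw [hx', add_sub_cancel_left, inner_smul_right, hξ, mul_zero]
  have f2 : ⟪ψ, D.A x (x' - x)⟫ = ⟪φ, x' - x⟫ := by
    rw [← hx.psi_Lx he φ (x' - x), Lx, Lmap_ker _ _ _ f1]
  have f3 : ⟪ψ, D.A (D.uu x e) (D.uu x' e - D.uu x e)⟫ = ⟪φ, D.uu x' e - D.uu x e⟫ -
      ⟪D.gx (D.uu x e), D.uu x' e - D.uu x e⟫ * k := by
    rw [← hx.psi_Lu he hu h1 hφ, Lu, Lmap_apply, inner_add_right, inner_smul_right, ← hk]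
    ring
  have f4 : ⟪φ, D.uu x' e - D.uu x e⟫ = ⟪φ, x' - x⟫ + (D.rho x' e - D.rho x e) * D.N' φ := by
    rw [← hφ, ← inner_smul_right, ← inner_add_right, uu, uu]
    congr 1
    module
  have f5 : ⟪ψ, D.F (D.uu x e)⟫ = ⟪ψ, D.F x⟫ + D.rho x e * D.N' φ := by
    rw [F_uu hb, inner_add_right, inner_smul_right, hx.psi_dir he, hφ]
  have f6 : ⟪ψ, D.F (D.uu x' e)⟫ = ⟪ψ, D.F x'⟫ + D.rho x' e * ⟪ψ, D.dir x' e⟫ := by
    rw [F_uu hτ, inner_add_right, inner_smul_right]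
  simp only [Function.comp, innerSL_apply_apply, ← hx']
  rw [inner_sub_right ψ, inner_sub_right ψ, inner_sub_right ψ, inner_sub_right ψ, f1, f2, f3, f4,
    f5, f6, N_uu hτ, N_uu hb]
  field_simp
  ring

theorem Good.ker_Lu (hx : D.Good x) (he : ⟪D.gx x, e⟫ < 0) (hu : D.Good (D.uu x e))
    (h1 : D.N e = 1) (hφ : ⟪φ, e⟫ = D.N' φ) {H' : E →L[ℝ] E}
    (hb : Alex D.M' D.M (D.psi x e φ) (D.dir x e) H') {χ : E} (hχ : H' χ = 0) (v : E) :
    ⟪χ, D.Lu x e v⟫ = ⟪χ, D.Lx x e v⟫ := by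
  have hbk := hx.back he
  obtain ⟨Dd, hD, hDξ⟩ := hx.hasFDerivAt_dir he hu
  obtain ⟨a, ξ, hξ, rfl⟩ := exists_split he.ne v
  have l1 : HasDerivAt (fun s : ℝ => x + s • ξ) ξ 0 := by
    simpa using ((hasDerivAt_id (0 : ℝ)).smul_const ξ).const_add x
  have l2 : HasDerivAt (fun s : ℝ => D.dir (x + s • ξ) e) (Dd ξ) 0 :=
    HasFDerivAt.comp_hasDerivAt (l := fun x' => D.dir x' e) (f := fun s : ℝ => x + s • ξ) (0 : ℝ)
      (by simpa using hD) l1
  have l3 := HasFDerivAt.comp_hasDerivAt (0 : ℝ) (innerSL ℝ χ).hasFDerivAt l2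
  have t0 : Tendsto (fun τ : ℝ => x + τ • ξ) (𝓝 0) (𝓝 x) := by simpa using l1.continuousAt.tendsto
  have key := zero_of_slack l3 (hx.slack he hu h1 hφ hξ) (t0.eventually (eventually_back hbk))
    (fun η hη => by
      filter_upwards [hb.ker_bound D.hM.symm hχ hη] with ε hε τ hτ
      have g1 := D.hM.le (D.dir (x + τ • ξ) e) (D.psi x e φ + ε • χ)
      rw [M_dir hτ, h1, mul_one, inner_add_left, inner_smul_left] at g1
      rw [hx.psi_norm he h1 hφ, real_inner_comm] at hε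
      simp only [Function.comp, innerSL_apply_apply, zero_smul, add_zero, conj_trivial] at g1 ⊢
      linarith)
  have h3 := congrArg (fun z => ⟪χ, z⟫) (hDξ ξ hξ)
  simp only [innerSL_apply_apply] at key
  simp only [inner_smul_right, inner_sub_right, key, mul_zero] at h3
  rw [map_add, map_add, map_smul, map_smul, inner_add_right, inner_add_right, Lu, Lx,
    Lmap_self _ _ (inner_uu_pos hbk hu).ne', Lmap_self _ _ he.ne, ← Lu, ← Lx]
  linarith

theorem Lu_symm (hb : Back D.N x e) : D.symm.Lu (D.F x) (D.dir x e) =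
    Lmap (D.symm.A (D.F (D.uu x e))) (D.symm.gx (D.F (D.uu x e))) (D.dir x e) e := by
  rw [Lu, dir_symm hb, uu_symm hb]

theorem Lui_Lu (hb : Back D.N x e) (hu : D.Good (D.uu x e)) (v : E) :
    D.symm.Lu (D.F x) (D.dir x e) (D.Lu x e v) = v := by
  have h1 := inner_uu_pos (back_symm hb) (by rw [uu_symm hb]; exact hu.symm)
  rw [uu_symm hb] at h1
  rw [Lu_symm hb]
  exact Lmap_inv hu.BA hu.inner_A (inner_uu_pos hb hu).ne' h1.ne' v

theorem Good.det_two (hx : D.Good x) (he : ⟪D.gx x, e⟫ < 0) (hu : D.Good (D.uu x e))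
    (hφ0 : φ ≠ 0) {H H' : E →L[ℝ] E} (ha : Alex D.N' D.N φ e H)
    (hb : Alex D.M' D.M (D.psi x e φ) (D.dir x e) H') {τ : ℝ} (h0 : 0 ≤ τ) (h1 : τ ≤ 1) :
    1 ≤ |((1 - τ) • D.Lx x e + τ • D.Lu x e).det| *
      |((1 - τ) • D.symm.Lx (D.F x) (D.dir x e) + τ • D.symm.Lu (D.F x) (D.dir x e)).det| := by
  have hbk := hx.back he
  have he1 : D.N e = 1 := D.hN.symm.sub_norm_eq ha.sub hφ0
  have hφ : ⟪φ, e⟫ = D.N' φ := by rw [real_inner_comm]; exact ha.sub.2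
  set Li := D.symm.Lx (D.F x) (D.dir x e) with hLi
  set Lj := D.symm.Lu (D.F x) (D.dir x e) with hLj
  have i1 : ∀ v, Li (D.Lx x e v) = v := hx.Li_Lx he
  have i2 : ∀ v, D.Lx x e (Li v) = v := hx.Lx_Li he
  have i3 : ∀ v, D.Lu x e (Lj v) = v := left_inv_of_right_inv _ _ (Lui_Lu hbk hu)
  have k1 : ∀ a b, ⟪(Li.comp (D.Lu x e)) (H a), b⟫ =
      ⟪H' (ContinuousLinearMap.adjoint Li a), ContinuousLinearMap.adjoint Li b⟫ := fun a b => by
    rw [ContinuousLinearMap.comp_apply, hx.Lu_hess he hu hφ0 ha hb,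
      ContinuousLinearMap.adjoint_inner_right]
  have key := det_ineq (Li.comp (D.Lu x e)) (Lj.comp (D.Lx x e)) H
    (fun v => by simp [i1, i3]) ha.symm (ha.psd D.hN.symm)
    (fun a b => by rw [k1, real_inner_comm _ a, k1, hb.symm, real_inner_comm])
    (fun a => by rw [k1]; exact hb.psd D.hM.symm _)
    (fun χ hχ v => by
      have h2 := hx.Lu_hess he hu hφ0 ha hb χ
      rw [hχ, map_zero] at h2
      rw [ContinuousLinearMap.comp_apply, ← ContinuousLinearMap.adjoint_inner_left,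
        hx.ker_Lu he hu he1 hφ hb h2.symm, ContinuousLinearMap.adjoint_inner_left, i1]) h0 h1
  rw [det_of_comp ((1 - τ) • D.Lx x e + τ • D.Lu x e) (D.Lx x e)
      ((1 - τ) • 1 + τ • Li.comp (D.Lu x e)) (fun v => by simp [i2]),
    det_of_comp ((1 - τ) • Li + τ • Lj) ((1 - τ) • 1 + τ • Lj.comp (D.Lx x e)) Li
      (fun v => by simp [i2]), abs_mul, abs_mul]
  have h3 := congrArg abs (det_mul_det_of_inverse _ _ i2)
  rw [abs_mul, abs_one] at h3
  calc (1 : ℝ) ≤ _ := key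
    _ = _ * (|(D.Lx x e).det| * |Li.det|) := by rw [h3, mul_one]
    _ = _ := by ring

end Geo

end Vale.Agent.P084
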