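import Mathlib

/-! Determinant facts (task T3). -/

open scoped RealInnerProductSpace

namespace Vale.Agent.P084

variable {E : Type*} [NormedAddCommGroup E] [InnerProductSpace ℝ E] [FiniteDimensional ℝ E]

theorem det_adjoint (A : E →L[ℝ] E) : (ContinuousLinearMap.adjoint A).det = A.det := by
  classical
  let b := stdOrthonormalBasis ℝ E
  unfold ContinuousLinearMap.det
  rw [← ContinuousLinearMap.adjoint_toLinearMap, ← LinearMap.det_toMatrix b.toBasis,
    ← LinearMap.det_toMatrix b.toBasis, LinearMap.toMatrix_adjoint, Matrix.det_conjTranspose]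
  simp

theorem det_mul_det_of_inverse (A B : E →L[ℝ] E) (hAB : ∀ v, A (B v) = v) :
    A.det * B.det = 1 := by
  unfold ContinuousLinearMap.det
  rw [← LinearMap.det_comp]
  have : (A : E →ₗ[ℝ] E).comp (B : E →ₗ[ℝ] E) = LinearMap.id := by
    ext v
    simp [hAB]
  rw [this, LinearMap.det_id]

theorem det_ne_zero_of_injective (A : E →L[ℝ] E) (hA : ∀ v, A v = 0 → v = 0) : A.det ≠ 0 := by
  intro hdet
  apply LinearMap.det_eq_zero_iff_ker_ne_bot.mp hdet
  rw [LinearMap.ker_eq_bot']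
  exact hA

theorem left_inv_of_right_inv (A B : E →L[ℝ] E) (hAB : ∀ v, A (B v) = v) (v : E) :
    B (A v) = v := by
  have h1 : (A : E →ₗ[ℝ] E) * (B : E →ₗ[ℝ] E) = 1 := by
    ext w
    simp [hAB]
  have h2 := mul_eq_one_comm.mp h1
  exact LinearMap.congr_fun h2 v

theorem one_le_multiset_prod (s : Multiset ℂ) (h : ∀ z ∈ s, 1 ≤ ‖z‖) : 1 ≤ ‖s.prod‖ := by
  induction s using Multiset.induction_on with
  | empty => simp
  | cons a s ih =>
    rw [Multiset.prod_cons, norm_mul]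
    have h1 := h a (Multiset.mem_cons_self _ _)
    have h2 := ih fun z hz => h z (Multiset.mem_cons_of_mem hz)
    nlinarith

/-- If all complex eigenvalues have modulus at least one, so has the determinant. -/
theorem one_le_abs_det (T : E →ₗ[ℝ] E)
    (hT : ∀ (a c : E) (p q : ℝ), ¬ (a = 0 ∧ c = 0) → T a = p • a - q • c → T c = q • a + p • c →
      1 ≤ p ^ 2 + q ^ 2) : 1 ≤ |LinearMap.det T| := by
  classical
  let b := Module.finBasis ℝ E
  set A := LinearMap.toMatrix b b T with hA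
  set Ac : Matrix _ _ ℂ := (algebraMap ℝ ℂ).mapMatrix A with hAc
  have h1 : Ac.det = ((LinearMap.det T : ℝ) : ℂ) := by
    rw [hAc, ← RingHom.map_det, hA, LinearMap.det_toMatrix]
    rfl
  have h2 : 1 ≤ ‖Ac.det‖ := by
    rw [Matrix.det_eq_prod_roots_charpoly]
    apply one_le_multiset_prod
    intro z hz
    have h3 : Ac.charpoly.eval z = 0 := (Polynomial.mem_roots'.mp hz).2
    rw [Matrix.eval_charpoly, ← Matrix.exists_mulVec_eq_zero_iff] at h3
    obtain ⟨u, hu0, hu⟩ := h3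
    have hu' : ∀ i, ∑ j, (A i j : ℂ) * u j = z * u i := by
      intro i
      have h4 := congrFun hu i
      rw [Matrix.sub_mulVec, Matrix.scalar_apply, Pi.sub_apply, Matrix.mulVec_diagonal,
        Pi.zero_apply, sub_eq_zero] at h4
      rw [h4]
      simp [Matrix.mulVec, dotProduct, hAc]
    set a : E := b.equivFun.symm fun i => (u i).re with ha
    set c : E := b.equivFun.symm fun i => (u i).im with hc
    have hra : ∀ i, b.repr a i = (u i).re := fun i => by
      rw [← b.equivFun_apply, ha, LinearEquiv.apply_symm_apply]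
    have hrc : ∀ i, b.repr c i = (u i).im := fun i => by
      rw [← b.equivFun_apply, hc, LinearEquiv.apply_symm_apply]
    have hrep : ∀ (x : E) i, b.repr (T x) i = ∑ j, A i j * b.repr x j := by
      intro x i
      rw [← LinearMap.toMatrix_mulVec_repr b b T x]
      simp [Matrix.mulVec, dotProduct, hA]
    have h5 := hT a c z.re z.im ?_ ?_ ?_
    · have h6 : ‖z‖ ^ 2 = z.re ^ 2 + z.im ^ 2 := by
        rw [Complex.sq_norm, Complex.normSq_apply]; ring
      nlinarith [norm_nonneg z]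
    · rintro ⟨ha0, hc0⟩
      apply hu0
      funext i
      apply Complex.ext
      · rw [← hra i, ha0]; simp
      · rw [← hrc i, hc0]; simp
    · apply b.ext_elem
      intro i
      have h7 := congrArg Complex.re (hu' i)
      simp only [Complex.re_sum, Complex.mul_re, Complex.ofReal_re, Complex.ofReal_im, zero_mul,
        sub_zero] at h7
      simp only [hrep, hra, hrc, map_sub, map_smul, Finsupp.coe_sub, Finsupp.coe_smul,
        Pi.sub_apply, Pi.smul_apply, smul_eq_mul]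
      exact h7
    · apply b.ext_elem
      intro i
      have h7 := congrArg Complex.im (hu' i)
      simp only [Complex.im_sum, Complex.mul_im, Complex.ofReal_re, Complex.ofReal_im, zero_mul,
        add_zero] at h7
      simp only [hrep, hra, hrc, map_add, map_smul, Finsupp.coe_add, Finsupp.coe_smul,
        Pi.add_apply, Pi.smul_apply, smul_eq_mul]
      linarith
  rw [h1, Complex.norm_real, Real.norm_eq_abs] at h2
  exact h2

/-- The abstract form: `Q h` is symmetric and dominates `h`, and the transpose of `Q` is the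
identity on the kernel of `h`. -/
theorem one_le_abs_det_of_dominates (Q h : E →L[ℝ] E)
    (hpsd : ∀ a, 0 ≤ ⟪h a, a⟫) (hsymm : ∀ a b, ⟪h a, b⟫ = ⟪a, h b⟫)
    (ksymm : ∀ a b, ⟪Q (h a), b⟫ = ⟪a, Q (h b)⟫) (kge : ∀ a, ⟪h a, a⟫ ≤ ⟪Q (h a), a⟫)
    (hker : ∀ χ, h χ = 0 → ∀ v, ⟪χ, Q v⟫ = ⟪χ, v⟫) : 1 ≤ |Q.det| := by
  rw [← det_adjoint]
  apply one_le_abs_det
  intro a c p q hne ha hc
  have hzero : ∀ x, ⟪h x, x⟫ = 0 → h x = 0 := by
    intro x hx
    have h1 : ∀ y, ⟪h x, y⟫ = 0 := by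
      intro y
      have h2 : ∀ t : ℝ, 0 ≤ ⟪h y, y⟫ * (t * t) + 2 * ⟪h x, y⟫ * t + 0 := by
        intro t
        have h3 := hpsd (x + t • y)
        have h4 : ⟪h y, x⟫ = ⟪h x, y⟫ := by rw [hsymm, real_inner_comm]
        simp only [map_add, map_smul, inner_add_left, inner_add_right, inner_smul_left,
          inner_smul_right, hx, h4, conj_trivial] at h3
        nlinarith
      have h5 := discrim_le_zero h2
      rw [discrim] at h5
      nlinarith [sq_nonneg ⟪h x, y⟫]
    exact inner_self_eq_zero.mp (h1 (h x))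
  have hQa : ∀ v, ⟪Q v, a⟫ = p * ⟪v, a⟫ - q * ⟪v, c⟫ := by
    intro v
    rw [← ContinuousLinearMap.adjoint_inner_right]
    have : ContinuousLinearMap.adjoint Q a = p • a - q • c := ha
    rw [this, inner_sub_right, inner_smul_right, inner_smul_right]
  have hQc : ∀ v, ⟪Q v, c⟫ = q * ⟪v, a⟫ + p * ⟪v, c⟫ := by
    intro v
    rw [← ContinuousLinearMap.adjoint_inner_right]
    have : ContinuousLinearMap.adjoint Q c = q • a + p • c := hc
    rw [this, inner_add_right, inner_smul_right, inner_smul_right]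
  have hca : ⟪h c, a⟫ = ⟪h a, c⟫ := by rw [hsymm, real_inner_comm]
  have h1 := kge a
  have h2 := kge c
  rw [hQa] at h1
  rw [hQc, hca] at h2
  have h3 := hpsd a
  have h4 := hpsd c
  rcases (add_nonneg h3 h4).eq_or_lt with h0 | h0
  · have ha0 : h a = 0 := hzero a (by linarith)
    have hc0 : h c = 0 := hzero c (by linarith)
    have e1 := hker a ha0 a
    have e2 := hker c hc0 c
    rw [real_inner_comm, hQa] at e1
    rw [real_inner_comm, hQc, real_inner_comm a c] at e2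
    have e3 : 0 < ⟪a, a⟫ + ⟪c, c⟫ := by
      by_contra hle
      apply hne
      have n1 : 0 ≤ ⟪a, a⟫ := real_inner_self_nonneg
      have n2 : 0 ≤ ⟪c, c⟫ := real_inner_self_nonneg
      exact ⟨inner_self_eq_zero.mp (by linarith : ⟪a, a⟫ = 0),
        inner_self_eq_zero.mp (by linarith : ⟪c, c⟫ = 0)⟩
    have e4 : (p - 1) * (⟪a, a⟫ + ⟪c, c⟫) = 0 := by linarith
    have e5 : p = 1 := by
      rcases mul_eq_zero.mp e4 with h | h
      · linarith
      · exact absurd h e3.ne'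
    rw [e5]
    nlinarith [sq_nonneg q]
  · have e4 : 0 ≤ (p - 1) * (⟪h a, a⟫ + ⟪h c, c⟫) := by linarith
    have e5 : 0 ≤ p - 1 := nonneg_of_mul_nonneg_left e4 h0
    nlinarith [sq_nonneg q]

/-- The product of the two determinants is the determinant of
`Q = 1 + τ (1 - τ) (R + R⁻¹ - 2)`, and `(R + R⁻¹ - 2) h = (1 - R⁻¹) (R h) (1 - R⁻¹)ᵀ` is
positive semidefinite. -/
theorem det_ineq (R Rinv h : E →L[ℝ] E) (hR : ∀ v, R (Rinv v) = v)
    (hsymm : ∀ a b, ⟪h a, b⟫ = ⟪a, h b⟫) (hpsd : ∀ a, 0 ≤ ⟪h a, a⟫)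
    (ksymm : ∀ a b, ⟪R (h a), b⟫ = ⟪a, R (h b)⟫) (kpsd : ∀ a, 0 ≤ ⟪R (h a), a⟫)
    (hker : ∀ χ, h χ = 0 → ∀ v, ⟪χ, R v⟫ = ⟪χ, v⟫) {τ : ℝ} (h0 : 0 ≤ τ) (h1 : τ ≤ 1) :
    1 ≤ |((1 - τ) • (1 : E →L[ℝ] E) + τ • R).det| *
      |((1 - τ) • (1 : E →L[ℝ] E) + τ • Rinv).det| := by
  have hR' := left_inv_of_right_inv R Rinv hR
  set Q : E →L[ℝ] E := ((1 - τ) • (1 : E →L[ℝ] E) + τ • R).comp
    ((1 - τ) • (1 : E →L[ℝ] E) + τ • Rinv) with hQ
  have hdet : Q.det = ((1 - τ) • (1 : E →L[ℝ] E) + τ • R).det *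
      ((1 - τ) • (1 : E →L[ℝ] E) + τ • Rinv).det := by
    unfold ContinuousLinearMap.det
    rw [← LinearMap.det_comp]
    rfl
  have hQv : ∀ v, Q v = v + (τ * (1 - τ)) • (R v + Rinv v - (2 : ℝ) • v) := by
    intro v
    simp only [hQ, ContinuousLinearMap.comp_apply, add_apply,
      smul_apply, one_apply_eq_self, map_add, map_smul, hR]
    module
  set S := ContinuousLinearMap.adjoint Rinv with hS
  have hSl : ∀ a b, ⟪S a, b⟫ = ⟪a, Rinv b⟫ := fun a b =>
    ContinuousLinearMap.adjoint_inner_left Rinv b a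
  have hSr : ∀ a b, ⟪a, S b⟫ = ⟪Rinv a, b⟫ := fun a b =>
    ContinuousLinearMap.adjoint_inner_right Rinv a b
  -- `R h S = h`
  have key : ∀ a b, ⟪R (h (S a)), b⟫ = ⟪h a, b⟫ := by
    intro a b
    rw [ksymm, hSl, hR', hsymm]
  have key' : ∀ a, R (h (S a)) = h a := fun a => ext_inner_right ℝ (key a)
  have key2 : ∀ a, Rinv (h a) = h (S a) := by
    intro a
    rw [← key' a, hR']
  have isymm : ∀ a b, ⟪Rinv (h a), b⟫ = ⟪a, Rinv (h b)⟫ := by
    intro a b
    rw [key2, hsymm, hSl]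
  rw [← abs_mul, ← hdet]
  have hτ : 0 ≤ τ * (1 - τ) := mul_nonneg h0 (by linarith)
  refine one_le_abs_det_of_dominates Q h hpsd hsymm ?_ ?_ ?_
  · intro a b
    simp only [hQv, inner_add_left, inner_add_right, inner_sub_left, inner_sub_right,
      inner_smul_left, inner_smul_right, conj_trivial, hsymm, ksymm, isymm]
  · intro a
    have h2 := kpsd (a - S a)
    simp only [map_sub, inner_sub_left, inner_sub_right, key', hSr, hR'] at h2
    simp only [hQv, inner_add_left, inner_sub_left, inner_smul_left, conj_trivial]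
    have h3 : 0 ≤ ⟪R (h a), a⟫ + ⟪Rinv (h a), a⟫ - 2 * ⟪h a, a⟫ := by linarith
    nlinarith [mul_nonneg hτ h3]
  · intro χ hχ v
    have h2 := hker χ hχ v
    have h3 := hker χ hχ (Rinv v)
    rw [hR] at h3
    simp only [hQv, inner_add_right, inner_sub_right, inner_smul_right, h2, ← h3]
    ring

/-- Determinant of the Jacobian of a chord map on `E × ℝ`. -/
theorem det_chord (L : E × ℝ →L[ℝ] E × ℝ) (α : E →L[ℝ] E) (e g w : E)
    (hL : ∀ ξ σ, L (ξ, σ) = (α (ξ + σ • e) + ⟪g, ξ⟫ • w, ⟪g, ξ⟫)) :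
    |L.det| = |⟪g, e⟫| * |α.det| := by
  let f : Module.Dual ℝ (E × ℝ) :=
    (innerₗ E g).comp (LinearMap.fst ℝ E ℝ) - (⟪g, e⟫ + 1) • LinearMap.snd ℝ E ℝ
  have hf : ∀ x : E × ℝ, f x = ⟪g, x.1⟫ - (⟪g, e⟫ + 1) * x.2 := fun x => by simp [f]
  have h1 : (L : E × ℝ →ₗ[ℝ] E × ℝ) =
      (LinearMap.transvection (LinearMap.snd ℝ E ℝ) (w, 0)).comp
        ((LinearMap.prodMap (α : E →ₗ[ℝ] E) (LinearMap.id : ℝ →ₗ[ℝ] ℝ)).comp
          ((LinearMap.transvection f (0, 1)).comp
            (LinearMap.transvection (LinearMap.snd ℝ E ℝ) (e, 0)))) := by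
    apply LinearMap.ext
    rintro ⟨ξ, σ⟩
    have h2 : σ + (⟪g, ξ + σ • e⟫ - (⟪g, e⟫ + 1) * σ) = ⟪g, ξ⟫ := by
      rw [inner_add_right, inner_smul_right]; ring
    simp only [ContinuousLinearMap.coe_coe, hL, LinearMap.comp_apply, LinearMap.transvection.apply,
      hf, LinearMap.snd_apply, Prod.smul_mk, Prod.mk_add_mk, smul_zero, add_zero, smul_eq_mul,
      mul_one, mul_zero, h2, LinearMap.prodMap_apply, LinearMap.id_apply]
  unfold ContinuousLinearMap.det
  rw [h1]
  simp only [LinearMap.det_comp, LinearMap.transvection.det, LinearMap.det_prodMap,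
    LinearMap.det_id, hf, LinearMap.snd_apply, inner_zero_right]
  rw [← abs_neg, ← abs_mul]
  congr 1
  ring

theorem det_prod_id (L : E × ℝ →L[ℝ] E × ℝ) (A : E →L[ℝ] E)
    (hL : ∀ ξ σ, L (ξ, σ) = (A ξ, σ)) : L.det = A.det := by
  have h1 : (L : E × ℝ →ₗ[ℝ] E × ℝ) =
      LinearMap.prodMap (A : E →ₗ[ℝ] E) (LinearMap.id : ℝ →ₗ[ℝ] ℝ) := by
    apply LinearMap.ext
    rintro ⟨ξ, σ⟩
    simp [hL]
  unfold ContinuousLinearMap.det
  rw [h1, LinearMap.det_prodMap, LinearMap.det_id, mul_one]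

/-- Rank one update. -/
theorem det_rank_one (L A B : E →L[ℝ] E) (hAB : ∀ v, A (B v) = v) (g w : E)
    (hL : ∀ v, L v = A v + ⟪g, v⟫ • w) : L.det = A.det * (1 + ⟪g, B w⟫) := by
  have h1 : (L : E →ₗ[ℝ] E) =
      (A : E →ₗ[ℝ] E).comp (LinearMap.transvection (innerₗ E g) (B w)) := by
    apply LinearMap.ext
    intro v
    simp [hL, LinearMap.transvection.apply, hAB]
  unfold ContinuousLinearMap.det
  rw [h1, LinearMap.det_comp, LinearMap.transvection.det]
  simp

end Vale.Agent.P084
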