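import Vale.Agent.P084.Basic

/-! Properties of the exit time. -/

open scoped RealInnerProductSpace Topology
open Filter Set

namespace Vale.Agent.P084

variable {E : Type*} [NormedAddCommGroup E] [InnerProductSpace ℝ E] {N : E → ℝ}

theorem bddAbove_sublevel (hN : IsNorm N) {p d : E} (hd : d ≠ 0) (t : ℝ) :
    BddAbove {s : ℝ | N (p + s • d) ≤ t} := by
  have hpos := hN.pos d hd
  refine ⟨(t + N p) / N d, fun s hs => ?_⟩
  rw [le_div_iff₀ hpos]
  have h1 := hN.sub_le (p + s • d) p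
  rw [add_sub_cancel_left, hN.smul] at h1
  have h2 : s * N d ≤ |s| * N d := mul_le_mul_of_nonneg_right (le_abs_self s) hpos.le
  have h3 : N (p + s • d) ≤ t := hs
  linarith

theorem continuous_line [FiniteDimensional ℝ E] (hN : IsNorm N) (p d : E) :
    Continuous fun s : ℝ => N (p + s • d) :=
  hN.continuous.comp (by fun_prop)

theorem exit_def {p d : E} {t : ℝ} (h : Feas N p d t) :
    exit N p d t = sSup {s : ℝ | N (p + s • d) ≤ t} := by
  simp [exit, h]

theorem le_exit [FiniteDimensional ℝ E] (hN : IsNorm N) {p d : E} {t s : ℝ}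
    (h : Feas N p d t) (hs : N (p + s • d) ≤ t) : s ≤ exit N p d t := by
  rw [exit_def h]
  exact le_csSup (bddAbove_sublevel hN h.1 t) hs

theorem exit_le [FiniteDimensional ℝ E] (hN : IsNorm N) {p d : E} {t : ℝ}
    (h : Feas N p d t) : N (p + exit N p d t • d) ≤ t := by
  rw [exit_def h]
  have hcl : IsClosed {s : ℝ | N (p + s • d) ≤ t} :=
    isClosed_le (continuous_line hN p d) continuous_const
  obtain ⟨s, hs⟩ := h.2
  exact hcl.csSup_mem ⟨s, hs.le⟩ (bddAbove_sublevel hN h.1 t)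

theorem lt_exit [FiniteDimensional ℝ E] (hN : IsNorm N) {p d : E} {t s : ℝ}
    (h : Feas N p d t) (hs : N (p + s • d) < t) : s < exit N p d t := by
  have hev : ∀ᶠ s' in 𝓝 s, N (p + s' • d) < t :=
    (continuous_line hN p d).continuousAt.eventually_lt continuousAt_const hs
  obtain ⟨s', hs', hlt⟩ := ((hev.filter_mono (nhdsWithin_le_nhds (s := Ioi s))).and
    self_mem_nhdsWithin).exists
  exact lt_of_lt_of_le hlt (le_exit hN h hs'.le)

theorem exit_spec [FiniteDimensional ℝ E] (hN : IsNorm N) {p d : E} {t : ℝ}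
    (h : Feas N p d t) : N (p + exit N p d t • d) = t := by
  refine le_antisymm (exit_le hN h) ?_
  by_contra hlt
  push Not at hlt
  exact lt_irrefl _ (lt_exit hN h hlt)

theorem lt_of_exit_lt [FiniteDimensional ℝ E] (hN : IsNorm N) {p d : E} {t s : ℝ}
    (h : Feas N p d t) (hs : exit N p d t < s) : t < N (p + s • d) := by
  by_contra hle
  push Not at hle
  exact absurd (le_exit hN h hle) (not_le.mpr hs)

theorem line_convex (hN : IsNorm N) (p d : E) {a b s : ℝ} (hab : a < b) (ha : a ≤ s)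
    (hb : s ≤ b) :
    (b - a) * N (p + s • d) ≤ (b - s) * N (p + a • d) + (s - a) * N (p + b • d) := by
  have h1 := hN.convex_comb (p + a • d) (p + b • d) (sub_nonneg.mpr hb) (sub_nonneg.mpr ha)
  have h2 : (b - s) • (p + a • d) + (s - a) • (p + b • d) = (b - a) • (p + s • d) := by
    module
  rwa [h2, hN.smul_nonneg (sub_pos.mpr hab).le] at h1

/-- Strictly between two points of the sublevel set, on a line meeting the open sublevel set. -/
theorem lt_of_between (hN : IsNorm N) {p d : E} {t s₀ s s₁ : ℝ}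
    (h : Feas N p d t) (h₀ : N (p + s₀ • d) ≤ t) (h₁ : N (p + s₁ • d) ≤ t)
    (hs₀ : s₀ < s) (hs₁ : s < s₁) : N (p + s • d) < t := by
  obtain ⟨a, ha⟩ := h.2
  rcases lt_trichotomy a s with hlt | heq | hgt
  · have := line_convex hN p d (hlt.trans hs₁) hlt.le hs₁.le
    have h3 : 0 < s₁ - a := by linarith
    by_contra hge
    push Not at hge
    nlinarith [mul_le_mul_of_nonneg_left hge h3.le, mul_lt_mul_of_pos_left ha (sub_pos.mpr hs₁),
      mul_le_mul_of_nonneg_left h₁ (sub_pos.mpr hlt).le]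
  · rwa [← heq]
  · have := line_convex hN p d (hs₀.trans hgt) hs₀.le hgt.le
    have h3 : 0 < a - s₀ := by linarith
    by_contra hge
    push Not at hge
    nlinarith [mul_le_mul_of_nonneg_left hge h3.le, mul_lt_mul_of_pos_left ha (sub_pos.mpr hs₀),
      mul_le_mul_of_nonneg_left h₀ (sub_pos.mpr hgt).le]

theorem exit_eq [FiniteDimensional ℝ E] (hN : IsNorm N) {p d : E} {t s₀ s : ℝ} (hd : d ≠ 0)
    (h₀ : N (p + s₀ • d) < t) (hs : s₀ < s) (ht : N (p + s • d) = t) : exit N p d t = s := by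
  have h : Feas N p d t := ⟨hd, s₀, h₀⟩
  refine le_antisymm ?_ (le_exit hN h ht.le)
  by_contra hlt
  push Not at hlt
  have := lt_of_between hN h h₀.le (exit_le hN h) hs hlt
  linarith

theorem feas_shift {p d : E} {t : ℝ} (c : ℝ) (h : Feas N p d t) : Feas N (p + c • d) d t := by
  obtain ⟨hd, s, hs⟩ := h
  refine ⟨hd, s - c, ?_⟩
  have : p + c • d + (s - c) • d = p + s • d := by module
  rwa [this]

theorem exit_shift (hN : IsNorm N) (p d : E) (t c : ℝ) (h : Feas N p d t)
    [FiniteDimensional ℝ E] : exit N (p + c • d) d t = exit N p d t - c := by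
  obtain ⟨s, hs⟩ := h.2
  have h1 := lt_exit hN h hs
  refine exit_eq hN h.1 (s₀ := s - c) ?_ (by linarith) ?_
  · have : p + c • d + (s - c) • d = p + s • d := by module
    rwa [this]
  · have : p + c • d + (exit N p d t - c) • d = p + exit N p d t • d := by module
    rw [this]
    exact exit_spec hN h

theorem isOpen_feas [FiniteDimensional ℝ E] (hN : IsNorm N) :
    IsOpen {q : E × E × ℝ | Feas N q.1 q.2.1 q.2.2} := by
  have h1 : IsOpen {q : E × E × ℝ | q.2.1 ≠ 0} := isOpen_ne_fun (by fun_prop) continuous_const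
  have h2 : IsOpen (⋃ s : ℝ, {q : E × E × ℝ | N (q.1 + s • q.2.1) < q.2.2}) :=
    isOpen_iUnion fun s => isOpen_lt (hN.continuous.comp (by fun_prop)) (by fun_prop)
  convert h1.inter h2 using 1
  ext q
  simp [Feas]

theorem continuousAt_exit [FiniteDimensional ℝ E] (hN : IsNorm N) {p d : E} {t : ℝ}
    (h : Feas N p d t) :
    ContinuousAt (fun q : E × E × ℝ => exit N q.1 q.2.1 q.2.2) (p, d, t) := by
  have hfe : ∀ᶠ q : E × E × ℝ in 𝓝 (p, d, t), Feas N q.1 q.2.1 q.2.2 :=
    (isOpen_feas hN).mem_nhds h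
  have hc : ∀ s : ℝ, Continuous fun q : E × E × ℝ => N (q.1 + s • q.2.1) :=
    fun s => hN.continuous.comp (by fun_prop)
  refine tendsto_order.2 ⟨fun a ha => ?_, fun b hb => ?_⟩
  · obtain ⟨s₀, hs₀⟩ := h.2
    have h0 := lt_exit hN h hs₀
    obtain ⟨s, hs1, hs2⟩ := exists_between (max_lt ha h0)
    have hs : N (p + s • d) < t := lt_of_between hN h hs₀.le (exit_le hN h)
      ((le_max_right _ _).trans_lt hs1) hs2
    have hev : ∀ᶠ q : E × E × ℝ in 𝓝 (p, d, t), N (q.1 + s • q.2.1) < q.2.2 :=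
      (hc s).continuousAt.eventually_lt (by fun_prop) hs
    filter_upwards [hfe, hev] with q hq1 hq2
    exact ((le_max_left _ _).trans_lt hs1).trans (lt_exit hN hq1 hq2)
  · obtain ⟨s₀, hs₀⟩ := h.2
    have h0 := lt_exit hN h hs₀
    have hs : t < N (p + b • d) := lt_of_exit_lt hN h hb
    have hev : ∀ᶠ q : E × E × ℝ in 𝓝 (p, d, t), q.2.2 < N (q.1 + b • q.2.1) :=
      ContinuousAt.eventually_lt (by fun_prop) (hc b).continuousAt hs
    have hev0 : ∀ᶠ q : E × E × ℝ in 𝓝 (p, d, t), N (q.1 + s₀ • q.2.1) < q.2.2 :=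
      (hc s₀).continuousAt.eventually_lt (by fun_prop) hs₀
    filter_upwards [hfe, hev, hev0] with q hq1 hq2 hq3
    by_contra hge
    push Not at hge
    rcases hge.eq_or_lt with heq | hlt
    · have := exit_le hN hq1
      rw [← heq] at this
      linarith
    · have := lt_of_between hN hq1 hq3.le (exit_le hN hq1) (h0.trans hb) hlt
      linarith

theorem measurable_exit [FiniteDimensional ℝ E] [MeasurableSpace E] [BorelSpace E]
    (hN : IsNorm N) : Measurable (fun q : E × E × ℝ => exit N q.1 q.2.1 q.2.2) := by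
  classical
  have hU := isOpen_feas hN
  have h1 : ContinuousOn (fun q : E × E × ℝ => exit N q.1 q.2.1 q.2.2)
      {q : E × E × ℝ | Feas N q.1 q.2.1 q.2.2} :=
    fun q hq => (continuousAt_exit hN hq).continuousWithinAt
  have h2 : ContinuousOn (fun _ : E × E × ℝ => (0 : ℝ))
      {q : E × E × ℝ | Feas N q.1 q.2.1 q.2.2}ᶜ := continuousOn_const
  have h3 := h1.measurable_piecewise h2 hU.measurableSet
  have h4 : (fun q : E × E × ℝ => exit N q.1 q.2.1 q.2.2) =
      Set.piecewise {q : E × E × ℝ | Feas N q.1 q.2.1 q.2.2}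
        (fun q : E × E × ℝ => exit N q.1 q.2.1 q.2.2) (fun _ => (0 : ℝ)) := by
    ext q
    by_cases hq : Feas N q.1 q.2.1 q.2.2
    · simp [Set.piecewise, hq]
    · simp [Set.piecewise, exit, hq]
  rw [h4]
  exact h3

/-- At the exit point every subgradient is positive on the direction. -/
theorem exit_inner_pos [FiniteDimensional ℝ E] {N' : E → ℝ} (hN : DualPair N N') {p d φ : E}
    {t : ℝ} (h : Feas N p d t) (hφ : Sub N N' (p + exit N p d t • d) φ) : 0 < ⟪φ, d⟫ := by
  obtain ⟨s, hs⟩ := h.2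
  have h1 := lt_exit hN.n h hs
  have h2 := hN.sub_ineq hφ (p + s • d)
  rw [exit_spec hN.n h] at h2
  have h3 : p + s • d - (p + exit N p d t • d) = (s - exit N p d t) • d := by module
  rw [h3, inner_smul_right] at h2
  by_contra hle
  push Not at hle
  nlinarith

/-- Implicit differentiation at a point. -/
theorem hasFDerivAt_implicit {A : Type*} [NormedAddCommGroup A] [NormedSpace ℝ A] {a : A}
    {r : A → ℝ} {g : A × ℝ → ℝ} {g' : A × ℝ →L[ℝ] ℝ} (hr : ContinuousAt r a)
    (hg : HasFDerivAt g g' (a, r a)) (h0 : ∀ᶠ b in 𝓝 a, g (b, r b) = g (a, r a))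
    (hne : g' (0, 1) ≠ 0) :
    HasFDerivAt r (-(g' (0, 1))⁻¹ • g'.comp (ContinuousLinearMap.inl ℝ A ℝ)) a := by
  set c := g' (0, 1) with hc
  set l : A →L[ℝ] ℝ := g'.comp (ContinuousLinearMap.inl ℝ A ℝ) with hl
  have hsplit : ∀ (v : A) (s : ℝ), g' (v, s) = l v + s * c := by
    intro v s
    have : ((v, s) : A × ℝ) = (v, 0) + s • ((0 : A), (1 : ℝ)) := by simp
    rw [this, map_add, map_smul]
    simp [hl, hc]
  have htend : Tendsto (fun b => (b, r b)) (𝓝 a) (𝓝 (a, r a)) :=
    continuousAt_id.prodMk hr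
  have ho := (hasFDerivAt_iff_isLittleO.mp hg).comp_tendsto htend
  have ho2 : (fun b => l (b - a) + (r b - r a) * c) =o[𝓝 a]
      fun b => ((b - a, r b - r a) : A × ℝ) := by
    refine ho.neg_left.congr' ?_ (Eventually.of_forall fun b => by simp)
    filter_upwards [h0] with b hb
    simp only [Function.comp, hb, sub_self, zero_sub, neg_neg, Prod.mk_sub_mk, hsplit]
  have hcpos : 0 < |c| := abs_pos.mpr hne
  have hO : (fun b => ((b - a, r b - r a) : A × ℝ)) =O[𝓝 a] fun b => b - a := by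
    have hb := ho2.bound (half_pos hcpos)
    refine Asymptotics.IsBigO.of_bound (max 1 ((‖l‖ + |c| / 2) / (|c| / 2))) ?_
    filter_upwards [hb] with b hb
    rw [Prod.norm_mk] at hb ⊢
    have h1 : |l (b - a)| ≤ ‖l‖ * ‖b - a‖ := l.le_opNorm _
    have h2 : |(r b - r a) * c| ≤ |l (b - a) + (r b - r a) * c| + |l (b - a)| := by
      have := abs_sub (l (b - a) + (r b - r a) * c) (l (b - a))
      simpa using this
    rw [abs_mul] at h2
    rw [Real.norm_eq_abs, Real.norm_eq_abs] at hb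
    have h3 : max ‖b - a‖ |r b - r a| ≤ ‖b - a‖ + |r b - r a| :=
      max_le (le_add_of_nonneg_right (abs_nonneg _)) (le_add_of_nonneg_left (norm_nonneg _))
    have h4 : |r b - r a| * (|c| / 2) ≤ (‖l‖ + |c| / 2) * ‖b - a‖ := by
      nlinarith [mul_le_mul_of_nonneg_left h3 (half_pos hcpos).le]
    have h5 : |r b - r a| ≤ (‖l‖ + |c| / 2) / (|c| / 2) * ‖b - a‖ := by
      rw [div_mul_eq_mul_div, le_div_iff₀ (half_pos hcpos)]
      exact h4
    refine max_le ?_ ?_
    · exact le_mul_of_one_le_left (norm_nonneg _) (le_max_left _ _)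
    · rw [Real.norm_eq_abs]
      exact h5.trans (mul_le_mul_of_nonneg_right (le_max_right _ _) (norm_nonneg _))
  have ho3 := (ho2.trans_isBigO hO).const_mul_left c⁻¹
  rw [hasFDerivAt_iff_isLittleO]
  refine ho3.congr_left fun b => ?_
  simp only [smul_apply, smul_eq_mul]
  field_simp
  ring

/-- Implicit differentiation of the exit time. -/
theorem hasFDerivAt_exit [FiniteDimensional ℝ E] (hN : IsNorm N)
    {A : Type*} [NormedAddCommGroup A] [NormedSpace ℝ A] {a : A}
    {p d : A → E} {t : A → ℝ} {p' d' : A →L[ℝ] E} {t' : A →L[ℝ] ℝ} {φ : E}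
    (hp : HasFDerivAt p p' a) (hd : HasFDerivAt d d' a) (ht : HasFDerivAt t t' a)
    (h : Feas N (p a) (d a) (t a))
    (hφ : HasFDerivAt N (innerSL ℝ φ) (p a + exit N (p a) (d a) (t a) • d a))
    (hpos : 0 < ⟪φ, d a⟫) :
    HasFDerivAt (fun b => exit N (p b) (d b) (t b))
      ((⟪φ, d a⟫)⁻¹ • (t' - (innerSL ℝ φ).comp p'
        - exit N (p a) (d a) (t a) • (innerSL ℝ φ).comp d')) a := by
  have hcont : ContinuousAt (fun b => (p b, d b, t b)) a :=
    hp.continuousAt.prodMk (hd.continuousAt.prodMk ht.continuousAt)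
  have hr : ContinuousAt (fun b => exit N (p b) (d b) (t b)) a :=
    ContinuousAt.comp (f := fun b => (p b, d b, t b)) (continuousAt_exit hN h) hcont
  have hfe : ∀ᶠ b in 𝓝 a, Feas N (p b) (d b) (t b) := hcont ((isOpen_feas hN).mem_nhds h)
  set r := exit N (p a) (d a) (t a) with hrdef
  have hp1 : HasFDerivAt (fun z : A × ℝ => p z.1) (p'.comp (ContinuousLinearMap.fst ℝ A ℝ))
      (a, r) := HasFDerivAt.comp (a, r) (g := p) hp hasFDerivAt_fst
  have hd1 : HasFDerivAt (fun z : A × ℝ => d z.1) (d'.comp (ContinuousLinearMap.fst ℝ A ℝ))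
      (a, r) := HasFDerivAt.comp (a, r) (g := d) hd hasFDerivAt_fst
  have ht1 : HasFDerivAt (fun z : A × ℝ => t z.1) (t'.comp (ContinuousLinearMap.fst ℝ A ℝ))
      (a, r) := HasFDerivAt.comp (a, r) (g := t) ht hasFDerivAt_fst
  have hs1 : HasFDerivAt (fun z : A × ℝ => z.2) (ContinuousLinearMap.snd ℝ A ℝ) (a, r) :=
    hasFDerivAt_snd
  have hin := hp1.add (hs1.smul hd1)
  have hg := (HasFDerivAt.comp (a, r) (g := N) (f := fun z : A × ℝ => p z.1 + z.2 • d z.1)
    hφ hin).sub ht1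
  have key := hasFDerivAt_implicit (r := fun b => exit N (p b) (d b) (t b)) hr hg (by
    filter_upwards [hfe] with b hb
    simp only [Function.comp, Pi.sub_apply]
    rw [exit_spec hN hb, exit_spec hN h, sub_self, sub_self]) (by simpa using hpos.ne')
  refine key.congr_fderiv ?_
  ext v
  simp
  ring

/-- The exit time is Lipschitz in the level, above a feasible level. -/
theorem exit_lipschitzOn [FiniteDimensional ℝ E] (hN : IsNorm N) {p d : E} {t₀ : ℝ}
    (h : Feas N p d t₀) : ∃ K, LipschitzOnWith K (fun t => exit N p d t) (Ici t₀) := by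
  obtain ⟨s₀, hs₀⟩ := h.2
  have hr₀ := lt_exit hN h hs₀
  have hfe : ∀ t, t₀ ≤ t → Feas N p d t := fun t ht => ⟨h.1, s₀, hs₀.trans_le ht⟩
  set r₀ := exit N p d t₀
  set g₀ := N (p + s₀ • d)
  have hK : 0 < (r₀ - s₀) / (t₀ - g₀) := div_pos (by linarith) (by linarith)
  have key : ∀ t₁ t₂, t₀ ≤ t₁ → t₁ ≤ t₂ → 0 ≤ exit N p d t₂ - exit N p d t₁ ∧
      exit N p d t₂ - exit N p d t₁ ≤ (r₀ - s₀) / (t₀ - g₀) * (t₂ - t₁) := by
    intro t₁ t₂ h1 h2
    have e0 := exit_spec hN h
    have e1 := exit_spec hN (hfe t₁ h1)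
    have e2 := exit_spec hN (hfe t₂ (h1.trans h2))
    have m1 : r₀ ≤ exit N p d t₁ := le_exit hN (hfe t₁ h1) (e0.le.trans h1)
    have m2 : exit N p d t₁ ≤ exit N p d t₂ :=
      le_exit hN (hfe t₂ (h1.trans h2)) (e1.le.trans h2)
    refine ⟨by linarith, ?_⟩
    set r₁ := exit N p d t₁
    set r₂ := exit N p d t₂
    have c1 := line_convex hN p d (a := s₀) (b := r₁) (s := r₀) (by linarith) hr₀.le m1
    have c2 := line_convex hN p d (a := s₀) (b := r₂) (s := r₁) (by linarith) (by linarith) m2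
    rw [e0, e1] at c1
    rw [e1, e2] at c2
    rw [div_mul_eq_mul_div, le_div_iff₀ (by linarith)]
    have a1 : (r₁ - s₀) * (t₀ - g₀) ≤ (r₀ - s₀) * (t₁ - g₀) := by nlinarith
    have a2 : (r₂ - r₁) * (t₁ - g₀) ≤ (r₁ - s₀) * (t₂ - t₁) := by nlinarith
    have p1 : 0 < r₁ - s₀ := by linarith
    have p2 : 0 < t₁ - g₀ := by linarith
    have : (r₂ - r₁) * (t₀ - g₀) * (r₁ - s₀) ≤ (r₀ - s₀) * (t₂ - t₁) * (r₁ - s₀) := by
      nlinarith [mul_le_mul_of_nonneg_left a1 (sub_nonneg.mpr m2),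
        mul_le_mul_of_nonneg_left a2 (sub_pos.mpr hr₀).le]
    exact le_of_mul_le_mul_right this p1
  refine ⟨⟨_, hK.le⟩, LipschitzOnWith.of_dist_le_mul fun t₁ h1 t₂ h2 => ?_⟩
  rw [Real.dist_eq, Real.dist_eq]
  change _ ≤ (r₀ - s₀) / (t₀ - g₀) * _
  rcases le_total t₁ t₂ with hle | hle
  · obtain ⟨k1, k2⟩ := key t₁ t₂ h1 hle
    rw [abs_sub_comm, abs_of_nonneg k1, abs_sub_comm, abs_of_nonneg (sub_nonneg.mpr hle)]
    exact k2
  · obtain ⟨k1, k2⟩ := key t₂ t₁ h2 hle
    rw [abs_of_nonneg k1, abs_of_nonneg (sub_nonneg.mpr hle)]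
    exact k2

end Vale.Agent.P084
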