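import Vale.Agent.P084.Integ
import Vale.Agent.P084.Assembly

/-! The derivative of the homogeneous extension is a contraction. -/

open scoped RealInnerProductSpace Topology ENNReal
open Filter Set MeasureTheory

namespace Vale.Agent.P084

variable {E : Type*} [NormedAddCommGroup E] [InnerProductSpace ℝ E] [FiniteDimensional ℝ E]

theorem star_convex {N N' : E → ℝ} (hN : DualPair N N') {x g : E} (hx : 0 < N x)
    (hd : HasFDerivAt N (innerSL ℝ g) x) :
    Convex ℝ {q | N q = 1 ∧ N ((N x)⁻¹ • x + q) = 2} := by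
  have hg := hN.sub_of_hasFDerivAt hd
  have h1 : N ((N x)⁻¹ • x) = 1 := by
    rw [hN.n.smul_nonneg (by positivity), inv_mul_cancel₀ hx.ne']
  have h2 : {q | N q = 1 ∧ N ((N x)⁻¹ • x + q) = 2} = {q | N q ≤ 1} ∩ {q | ⟪g, q⟫ = 1} := by
    ext q
    constructor
    · rintro ⟨a1, a2⟩
      obtain ⟨φ, hφ⟩ := hN.exists_sub ((N x)⁻¹ • x + q)
      have b1 := hN.inner_le_of_sub hφ ((N x)⁻¹ • x)
      have b2 := hN.inner_le_of_sub hφ q
      have b3 := hφ.2
      rw [inner_add_right, a2] at b3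
      have b4 : ⟪φ, (N x)⁻¹ • x⟫ = 1 := by linarith
      rw [inner_smul_right, inv_mul_eq_one₀ hx.ne'] at b4
      rw [← hN.sub_eq_of_hasFDerivAt hd ⟨hφ.1, b4.symm⟩]
      exact ⟨a1.le, show ⟪φ, q⟫ = 1 by linarith⟩
    · rintro ⟨a1, a2⟩
      have a1' : N q ≤ 1 := a1
      have a2' : ⟪g, q⟫ = 1 := a2
      have b1 := hN.inner_le_of_sub hg q
      have b2 := hN.inner_le_of_sub hg ((N x)⁻¹ • x + q)
      have b3 := hN.n.add_le ((N x)⁻¹ • x) q
      rw [inner_add_right, inner_smul_right, hg.2, inv_mul_cancel₀ hx.ne'] at b2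
      exact ⟨by linarith, by linarith⟩
  rw [h2]
  refine Convex.inter (by simpa using hN.n.convexOn.convex_le 1) ?_
  · exact convex_hyperplane (f := fun q => ⟪g, q⟫) (innerSL ℝ g).toLinearMap.isLinear 1

namespace Geo

variable {D : Geo E} {x : E}

theorem Good.face (hx : D.Good x) (hf : FaceAffine D.N D.M D.F) {q : E} (h1 : D.N q ≤ 1)
    (h2 : ⟪D.gx x, q⟫ = 1) : D.M (D.A x q) ≤ 1 := by
  have hp := hx.pos
  have a1 : D.N ((D.N x)⁻¹ • x) = 1 := by
    rw [D.hN.n.smul_nonneg (by positivity), inv_mul_cancel₀ hp.ne']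
  have b1 := D.hN.inner_le_of_sub hx.sub q
  have b2 := D.hN.inner_le_of_sub hx.sub ((D.N x)⁻¹ • x + q)
  have b3 := D.hN.n.add_le ((D.N x)⁻¹ • x) q
  rw [inner_add_right, inner_smul_right, hx.sub.2, inv_mul_cancel₀ hp.ne'] at b2
  have a2 : D.N q = 1 := by linarith
  have c2 := star_convex D.hM hx.symm.pos hx.symm.dN
  have e1 : (D.M (D.F x))⁻¹ • D.F x = D.F ((D.N x)⁻¹ • x) := by
    rw [D.h.hom _ _ (by positivity), D.h.nrm]
  have key := hf _ q a1 a2 (by linarith) (star_convex D.hN hp hx.dN) (by rw [← e1]; exact c2)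
  have l1 : HasDerivAt (fun s : ℝ => x + s • (D.N x • q - x)) (D.N x • q - x) 0 := by
    simpa using ((hasDerivAt_id (0 : ℝ)).smul_const (D.N x • q - x)).const_add x
  have l2 : HasDerivAt (fun s : ℝ => D.F (x + s • (D.N x • q - x))) (D.A x (D.N x • q - x)) 0 :=
    HasFDerivAt.comp_hasDerivAt (l := D.F) (f := fun s : ℝ => x + s • (D.N x • q - x)) (0 : ℝ)
      (by simpa using hx.dF) l1
  have l3 : HasDerivAt (fun s : ℝ => D.F x + s • (D.N x • D.F q - D.F x))
      (D.N x • D.F q - D.F x) 0 := by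
    simpa using ((hasDerivAt_id (0 : ℝ)).smul_const (D.N x • D.F q - D.F x)).const_add (D.F x)
  have l4 : HasDerivWithinAt (fun s : ℝ => D.F (x + s • (D.N x • q - x)))
      (D.N x • D.F q - D.F x) (Icc 0 1) 0 := by
    refine l3.hasDerivWithinAt.congr_of_mem (fun s hs => ?_) (left_mem_Icc.mpr zero_le_one)
    have g1 : x + s • (D.N x • q - x) = D.N x • ((D.N x)⁻¹ • x + s • (q - (D.N x)⁻¹ • x)) := by
      match_scalars <;> field_simp
    rw [g1, D.h.hom _ _ hp.le, key s hs, D.h.hom _ _ (inv_pos.mpr hp).le]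
    match_scalars <;> field_simp
  have l5 := (uniqueDiffOn_Icc zero_lt_one 0 (left_mem_Icc.mpr zero_le_one)).eq_deriv _
    l2.hasDerivWithinAt l4
  rw [map_sub, map_smul, hx.A_self, sub_left_inj] at l5
  rw [smul_right_injective E hp.ne' l5, D.h.nrm]
  exact h1

variable (D) in
/-- The conclusion of the volume argument at a functional. -/
def Nice (x φ : E) : Prop :=
  HasFDerivAt D.N' (innerSL ℝ (D.ge φ)) φ ∧ D.N (D.ge φ) = 1 ∧ ⟪φ, D.ge φ⟫ = D.N' φ ∧
    (⟪D.gx x, D.ge φ⟫ < 0 →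
      HasFDerivAt D.M' (innerSL ℝ (D.dir x (D.ge φ))) (D.psi x (D.ge φ) φ) ∧
        D.symm.W (D.F x) (D.dir x (D.ge φ)) ≤ D.W x (D.ge φ))

theorem Good.adj_gx (hx : D.Good x) :
    ContinuousLinearMap.adjoint (D.symm.A (D.F x)) (D.gx x) = D.symm.gx (D.F x) :=
  ext_inner_right ℝ fun v => by rw [ContinuousLinearMap.adjoint_inner_left, hx.inner_B]

theorem Good.gamma_mono (hx : D.Good x) {φ : E} (h0 : D.Nice x φ) (he : ⟪D.gx x, D.ge φ⟫ < 0)
    (hae : ∀ᵐ c : ℝ, D.Nice x (φ + c • -D.gx x)) {b : ℝ} (hb : 0 ≤ b) :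
    exit D.M' (ContinuousLinearMap.adjoint (D.symm.A (D.F x)) φ) (-D.symm.gx (D.F x)) (D.N' φ) ≤
      exit D.M' (ContinuousLinearMap.adjoint (D.symm.A (D.F x)) φ) (-D.symm.gx (D.F x))
        (D.N' (φ + b • -D.gx x)) - b := by
  obtain ⟨a1, a2, a3, a4⟩ := h0
  have hf := hx.feas_of_diff he a2 a3 (a4 he).1
  set p := ContinuousLinearMap.adjoint (D.symm.A (D.F x)) φ with hp
  set d := -D.symm.gx (D.F x) with hd
  have t1 : ∀ c : ℝ, D.N' φ - c * ⟪D.gx x, D.ge φ⟫ ≤ D.N' (φ + c • -D.gx x) := fun c => by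
    have := D.hN.n'.grad_ineq a1 (φ + c • -D.gx x)
    rwa [add_sub_cancel_left, inner_smul_right, inner_neg_right, real_inner_comm, mul_neg,
      ← sub_eq_add_neg] at this
  have t2 : ∀ c : ℝ, 0 ≤ c → D.N' φ ≤ D.N' (φ + c • -D.gx x) := fun c hc => by
    nlinarith [t1 c]
  obtain ⟨K, hK⟩ := exit_lipschitzOn D.hM.n' hf
  obtain ⟨K', hK'⟩ := D.hN.n'.lipschitz
  have l1 := hK'.comp ((LipschitzWith.const φ).add
    (ContinuousLinearMap.toSpanSingleton ℝ (-D.gx x)).lipschitz)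
  have l2 := (hK.comp (l1.lipschitzOnWith (s := Icc 0 b)) fun c hc => t2 c hc.1).sub
    (LipschitzWith.id.lipschitzOnWith (s := Icc 0 b))
  have key := le_of_ae_deriv_nonneg
    (g := fun c => exit D.M' p d (D.N' (φ + c • -D.gx x)) - c) hb l2 (by
      filter_upwards [hae] with c hc hcb
      obtain ⟨b1, b2, b3, b4⟩ := hc
      have c1 : ⟪D.gx x, D.ge (φ + c • -D.gx x)⟫ < 0 := by
        have := D.hN.n'.grad_ineq b1 φ
        rw [sub_add_cancel_left, inner_neg_right, inner_smul_right, inner_neg_right,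
          real_inner_comm] at this
        by_contra hge
        push Not at hge
        nlinarith [t1 c, mul_nonneg hcb.1.le hge, mul_pos hcb.1 (neg_pos.mpr he)]
      obtain ⟨c2, c3⟩ := b4 c1
      have hf' : Feas D.M' p d (D.N' (φ + c • -D.gx x)) := by
        obtain ⟨g1, s, g2⟩ := hf
        exact ⟨g1, s, g2.trans_le (t2 c hcb.1.le)⟩
      have c4 : ContinuousLinearMap.adjoint (D.symm.A (D.F x)) (φ + c • -D.gx x) = p + c • d := by
        rw [map_add, map_smul, map_neg, hx.adj_gx]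
      rw [hx.psi_eq_Phi c1 b2 b3 (hx.feas_of_diff c1 b2 b3 c2), Phi, c4, ← hd,
        exit_shift D.hM.n' _ _ _ _ hf', add_assoc, ← add_smul, add_sub_cancel] at c2
      have l3 : HasDerivAt (fun s : ℝ => φ + s • -D.gx x) (-D.gx x) c := by
        simpa using ((hasDerivAt_id c).smul_const (-D.gx x)).const_add φ
      have l4 := HasFDerivAt.comp_hasDerivAt (l := D.N') (f := fun s : ℝ => φ + s • -D.gx x) c
        b1 l3
      have c5 := hx.inner_dir' c1
      have l5 := (hasFDerivAt_exit D.hM.n' (a := c) (p := fun _ => p) (d := fun _ => d)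
        (t := fun s : ℝ => D.N' (φ + s • -D.gx x)) (hasFDerivAt_const p c) (hasFDerivAt_const d c)
        l4.hasFDerivAt hf' c2 c5).hasDerivAt
      refine ⟨_, l5.sub (hasDerivAt_id c), ?_⟩
      rw [W, W, abs_of_neg (hx.inner_dir c1), abs_of_neg c1, real_inner_comm,
        ← inner_neg_right, real_inner_comm _ (D.gx x), ← inner_neg_right (D.ge _), ← hd] at c3
      simp only [ContinuousLinearMap.comp_zero, sub_zero, smul_zero, smul_apply,
        ContinuousLinearMap.toSpanSingleton_apply, one_smul, smul_eq_mul, innerSL_apply_apply,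
        sub_nonneg]
      rw [le_inv_mul_iff₀ c5, mul_one, one_mul]
      exact c3)
  simpa using key

theorem Good.le_of_nice (hx : D.Good x) (hf : FaceAffine D.N D.M D.F) {φ : E} (h0 : D.Nice x φ)
    (he : ⟪D.gx x, D.ge φ⟫ < 0) (hae : ∀ᵐ c : ℝ, D.Nice x (φ + c • -D.gx x)) :
    D.N' φ ≤ D.M' (ContinuousLinearMap.adjoint (D.symm.A (D.F x)) φ) := by
  have hm := fun n : ℕ => hx.gamma_mono h0 he hae (Nat.cast_nonneg n)
  obtain ⟨a1, a2, a3, a4⟩ := h0
  have hfe := hx.feas_of_diff he a2 a3 (a4 he).1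
  set p := ContinuousLinearMap.adjoint (D.symm.A (D.F x)) φ with hp
  set d := -D.symm.gx (D.F x) with hd
  choose z hz using fun n : ℕ => D.hN.symm.exists_sub (φ + (n : ℝ) • -D.gx x)
  obtain ⟨q, hq, u, hu, hlim⟩ := (D.hN.n.isCompact_le 1).tendsto_subseq (x := z) fun n => (hz n).1
  have hq1 : D.N q ≤ 1 := hq
  have g1 : D.N' (D.gx x) = 1 := D.hN.sub_norm_eq hx.sub hx.ne
  have z1 : ∀ n : ℕ, D.N' (φ + (n : ℝ) • -D.gx x) = ⟪φ, z n⟫ - n * ⟪D.gx x, z n⟫ := fun n => by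
    rw [← (hz n).2, real_inner_comm, inner_add_left, real_inner_smul_left, inner_neg_left]
    ring
  have z2 : ∀ w, D.N w ≤ 1 → -1 ≤ ⟪D.gx x, w⟫ := fun w hw => by
    have := D.hN.inner_le_of_sub hx.sub (-w)
    rw [inner_neg_right, D.hN.n.neg] at this
    linarith
  have q1 : ⟪D.gx x, q⟫ = -1 := by
    refine le_antisymm ?_ (z2 q hq1)
    have t1 : Tendsto (fun n => ⟪D.gx x, z (u n)⟫) atTop (𝓝 ⟪D.gx x, q⟫) :=
      Tendsto.inner (𝕜 := ℝ) tendsto_const_nhds hlim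
    have t2 := ((tendsto_const_div_atTop_nhds_zero_nat (2 * D.N' φ)).comp
      hu.tendsto_atTop).const_add (-1)
    rw [add_zero] at t2
    refine le_of_tendsto_of_tendsto t1 t2 ?_
    filter_upwards [hu.tendsto_atTop.eventually_gt_atTop 0] with n hn
    have hn' : (0 : ℝ) < u n := Nat.cast_pos.mpr hn
    have b1 := D.hN.n'.sub_le (φ + (u n : ℝ) • -D.gx x) φ
    rw [add_sub_cancel_left, D.hN.n'.smul_nonneg hn'.le, D.hN.n'.neg, g1, z1] at b1
    have b2 := D.hN.le (z (u n)) φ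
    have b3 := mul_le_mul_of_nonneg_left (hz (u n)).1 (D.hN.n'.nonneg φ)
    simp only [Function.comp]
    rw [← sub_le_iff_le_add', le_div_iff₀ hn']
    nlinarith
  have q2 : D.M (D.A x q) ≤ 1 := by
    have := hx.face hf (q := -q) (by rwa [D.hN.n.neg]) (by rw [inner_neg_right, q1, neg_neg])
    rwa [map_neg, D.hM.n.neg] at this
  have key : exit D.M' p d (D.N' φ) ≤ 0 := by
    have t1 : Tendsto (fun n => ⟪φ, z (u n)⟫ - ⟪φ, q⟫) atTop (𝓝 (⟪φ, q⟫ - ⟪φ, q⟫)) :=
      (Tendsto.inner (𝕜 := ℝ) tendsto_const_nhds hlim).sub_const _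
    rw [sub_self] at t1
    refine ge_of_tendsto' t1 fun n => (hm (u n)).trans ?_
    have hf' : Feas D.M' p d (D.N' (φ + (u n : ℝ) • -D.gx x)) := by
      obtain ⟨g1, s, g2⟩ := hfe
      refine ⟨g1, s, g2.trans_le ?_⟩
      have := D.hN.n'.grad_ineq a1 (φ + (u n : ℝ) • -D.gx x)
      rw [add_sub_cancel_left, inner_smul_right, inner_neg_right, real_inner_comm] at this
      nlinarith [(Nat.cast_nonneg (u n) : (0 : ℝ) ≤ u n)]
    have b1 := D.hM.le (D.A x q) (p + exit D.M' p d (D.N' (φ + (u n : ℝ) • -D.gx x)) • d)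
    rw [exit_spec D.hM.n' hf', inner_add_left, real_inner_smul_left] at b1
    have b2 : ⟪p, D.A x q⟫ = ⟪φ, q⟫ := by rw [hp, ContinuousLinearMap.adjoint_inner_left, hx.BA]
    have b3 : ⟪d, D.A x q⟫ = 1 := by rw [hd, inner_neg_left, hx.inner_A, q1, neg_neg]
    have b4 := mul_le_mul_of_nonneg_left q2 (D.hN.n'.nonneg (φ + (u n : ℝ) • -D.gx x))
    have b5 := mul_le_mul_of_nonneg_left (z2 _ (hz (u n)).1) (Nat.cast_nonneg (α := ℝ) (u n))
    have b6 := z1 (u n)
    rw [b2, b3] at b1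
    linarith
  rcases key.eq_or_lt with h | h
  · have := exit_spec D.hM.n' hfe
    rw [h, zero_smul, add_zero] at this
    exact this.ge
  · have := lt_of_exit_lt D.hM.n' hfe h
    rw [zero_smul, add_zero] at this
    exact this.le

theorem Good.le_of_flat (hx : D.Good x) {φ : E} (h1 : ¬ Back D.N' φ (D.gx x))
    (h2 : ¬ Back D.N' (-φ) (D.gx x)) :
    D.N' φ ≤ D.M' (ContinuousLinearMap.adjoint (D.symm.A (D.F x)) φ) := by
  set p := ContinuousLinearMap.adjoint (D.symm.A (D.F x)) φ with hp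
  have hy := hx.symm
  by_contra hlt
  push Not at hlt
  set t := (D.M' p + D.N' φ) / 2 with ht
  have g1 : D.M' (D.symm.gx (D.F x)) = 1 := D.hM.sub_norm_eq hy.sub hy.ne
  have hfe : Feas D.M' p (-D.symm.gx (D.F x)) t := ⟨fun h0 => by
    rw [neg_eq_zero.mp h0, D.hM.n'.zero] at g1
    exact zero_ne_one g1, 0, by rw [zero_smul, add_zero]; linarith⟩
  set c := exit D.M' p (-D.symm.gx (D.F x)) t
  have hc : 0 < c := lt_exit D.hM.n' hfe (by rw [zero_smul, add_zero]; linarith)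
  have hψ : D.M' (p + c • -D.symm.gx (D.F x)) = t := exit_spec D.hM.n' hfe
  set ψ := p + c • -D.symm.gx (D.F x) with hψ'
  obtain ⟨e, he⟩ := D.hM.symm.exists_sub ψ
  have hb : Back D.M' ψ (D.symm.gx (D.F x)) := ⟨c, hc, by
    rw [hψ, hψ', smul_neg, neg_add_cancel_right]; linarith⟩
  have a1 : ⟪D.symm.gx (D.F x), e⟫ < 0 := by
    rw [real_inner_comm]; exact D.hM.symm.back_inner_neg hb he
  have a2 : D.M e = 1 := D.hM.symm.sub_norm_eq he fun h0 => by
    rw [h0, D.hM.n'.zero] at hψ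
    linarith [D.hM.n'.nonneg p]
  have a3 : D.N' (D.symm.psi (D.F x) e ψ) = D.M' ψ :=
    hy.psi_norm a1 a2 (by rw [real_inner_comm]; exact he.2)
  obtain ⟨k, hk⟩ := hy.psi_eq a1 ψ
  have a4 : D.symm.psi (D.F x) e ψ = φ + (c + k) • -D.gx x := by
    rw [hk]
    change ContinuousLinearMap.adjoint (D.A (D.G (D.F x))) ψ + k • -D.gx (D.G (D.F x)) = _
    rw [D.h.gf]
    refine ext_inner_right ℝ fun v => ?_
    simp only [inner_add_left, real_inner_smul_left, inner_neg_left, hψ', hp,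
      ContinuousLinearMap.adjoint_inner_left, hx.BA, hx.inner_A]
    ring
  rw [a4, hψ] at a3
  rcases lt_trichotomy (c + k) 0 with h | h | h
  · refine h1 ⟨-(c + k), by linarith, ?_⟩
    rw [neg_smul, ← smul_neg, a3]
    linarith
  · rw [h, zero_smul, add_zero] at a3
    linarith
  · refine h2 ⟨c + k, h, ?_⟩
    rw [← D.hN.n'.neg, neg_add, neg_neg, ← smul_neg, a3, D.hN.n'.neg]
    linarith

variable [MeasurableSpace E] [BorelSpace E] (μ : Measure E) [μ.IsAddHaarMeasure]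

theorem Good.contraction (hx : D.Good x) (hf : FaceAffine D.N D.M D.F)
    (hae : ∀ᵐ φ ∂μ, D.Nice x φ) (v : E) : D.M (D.A x v) ≤ D.N v := by
  set B := ContinuousLinearMap.adjoint (D.symm.A (D.F x)) with hB
  have h1 : ∀ φ ∈ {φ | Back D.N' φ (D.gx x)}, D.N' φ ≤ D.M' (B φ) := by
    refine le_of_ae_le μ ((isOpen_back D.hN.n').preimage (Continuous.prodMk_left (D.gx x)))
      D.hN.n'.continuous (D.hM.n'.continuous.comp B.continuous) ?_
    filter_upwards [hae, ae_ae_line μ hae (-D.gx x)] with φ a1 a2 a3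
    refine hx.le_of_nice hf a1 ?_ a2
    rw [real_inner_comm]
    exact D.hN.symm.back_inner_neg a3 (D.hN.symm.sub_of_hasFDerivAt a1.1)
  have h2 : ∀ φ, D.N' φ ≤ D.M' (B φ) := fun φ => by
    by_cases a1 : Back D.N' φ (D.gx x)
    · exact h1 φ a1
    by_cases a2 : Back D.N' (-φ) (D.gx x)
    · have := h1 _ a2
      rwa [map_neg, D.hN.n'.neg, D.hM.n'.neg] at this
    exact hx.le_of_flat a1 a2
  obtain ⟨ψ, g1, g2⟩ := D.hM.ex (D.A x v)
  have h3 : B (ContinuousLinearMap.adjoint (D.A x) ψ) = ψ := ext_inner_right ℝ fun w => by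
    rw [hB, ContinuousLinearMap.adjoint_inner_left, ContinuousLinearMap.adjoint_inner_left, hx.AB]
  have h4 := h2 (ContinuousLinearMap.adjoint (D.A x) ψ)
  have h5 := D.hN.le v (ContinuousLinearMap.adjoint (D.A x) ψ)
  rw [h3] at h4
  rw [ContinuousLinearMap.adjoint_inner_left, g2] at h5
  nlinarith [D.hN.n.nonneg v]

end Geo

variable [MeasurableSpace E] [BorelSpace E] {μ : Measure E} [μ.IsAddHaarMeasure]

namespace Sets

variable {D : Geo E} (S : Sets D μ)

theorem ae_Lx {r : ℝ} (hr : 0 < r) : ∃ l : ℝ, 0 < l ∧ ∀ᵐ q ∂μ.prod μ, q ∈ S.Base r →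
    l * |(D.Lx q.2 (D.ge q.1)).det| = 1 := by
  obtain ⟨l, hl, h⟩ := S.ae_det r hr
  refine ⟨l, hl, ?_⟩
  have h1 := Measure.ae_ae_of_ae_prod
    ((measurePreserving_prodAssoc μ μ volume).quasiMeasurePreserving.ae h)
  filter_upwards [h1] with q hq hqB
  have hρ := Geo.rho_pos ((S.good _ hqB.1).back hqB.2.2.2.2.1)
  have hc : Continuous fun s : ℝ => l * |(D.al q.2 (D.ge q.1) s).det| :=
    continuous_const.mul (ContinuousLinearMap.continuous_det.comp (by
      unfold Geo.al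
      fun_prop)).abs
  have h2 := Measure.eqOn_Ico_of_ae_eq (μ := volume) (a := 0) (b := D.rho q.2 (D.ge q.1))
    (f := fun s : ℝ => l * |(D.al q.2 (D.ge q.1) s).det|) (g := fun _ => 1) (by
      refine (ae_restrict_iff' measurableSet_Ico).mpr ?_
      filter_upwards [hq, Measure.ae_ne volume 0] with s a1 a2 a3
      exact a1 ⟨hqB, lt_of_le_of_ne a3.1 a2.symm, a3.2⟩) hc.continuousOn continuousOn_const
    (left_mem_Ico.mpr hρ)
  simpa [Geo.al] using h2

include S in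
theorem ae_W {r : ℝ} (hr : 0 < r) : ∀ᵐ x ∂μ, D.N x < r → ∀ᵐ φ ∂μ, D.N' φ < r →
    ⟪D.gx x, D.ge φ⟫ < 0 → D.symm.W (D.F x) (D.dir x (D.ge φ)) ≤ D.W x (D.ge φ) := by
  obtain ⟨l, hl, h⟩ := S.ae_Lx hr
  have h1 := Measure.ae_ae_of_ae_prod
    (Measure.measurePreserving_swap.quasiMeasurePreserving.ae (h.and S.ae_full))
  filter_upwards [h1, S.aGX] with x hx hG hxr
  have hg := S.good x hG
  have h2 : ∀ᵐ φ ∂μ, φ ∈ S.DX ∧ (D.N' φ < r → ⟪D.gx x, D.ge φ⟫ < 0 →
      l * |(D.A x).det| * D.symm.W (D.F x) (D.dir x (D.ge φ)) = D.W x (D.ge φ)) := by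
    filter_upwards [hx] with φ hφ
    obtain ⟨a1, a2, _, a3⟩ := hφ
    refine ⟨a2, fun b1 b2 => ?_⟩
    have c1 : l * |(D.Lx x (D.ge φ)).det| = 1 := a1 ⟨hG, hxr, a2, b1, b2, a3 b2⟩
    have c2 := congrArg abs (hg.Lx_det b2)
    rw [abs_mul, abs_mul] at c2
    rw [Geo.W, Geo.W, mul_assoc, ← c2, ← mul_assoc, c1, one_mul]
  have g1 : D.N' (D.gx x) = 1 := D.hN.sub_norm_eq hg.sub hg.ne
  have hm0 : 0 ≤ l * |(D.A x).det| := by positivity
  have h3 : 1 ≤ l * |(D.A x).det| := by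
    refine le_of_forall_pos_le_add fun ε hε => ?_
    set δ := min ε 1 * r / 4 with hδ
    have hε' : 0 < min ε 1 := lt_min hε one_pos
    have hδ0 : 0 < δ := by positivity
    have hc := D.hN.n'.continuous
    obtain ⟨φ, b1, b2, b3⟩ := (Measure.dense_of_ae h2).inter_open_nonempty
      {φ | D.N' (φ + (r / 2) • D.gx x) < δ} (isOpen_lt (by fun_prop) continuous_const)
      ⟨-((r / 2) • D.gx x), by simpa [D.hN.n'.zero] using hδ0⟩
    have b1' : D.N' (φ + (r / 2) • D.gx x) < δ := b1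
    have c0 : D.N' ((r / 2) • D.gx x) = r / 2 := by
      rw [D.hN.n'.smul_nonneg (half_pos hr).le, g1, mul_one]
    have c1 := D.hN.n'.sub_le (φ + (r / 2) • D.gx x) φ
    have c2 := D.hN.n'.sub_le (φ + (r / 2) • D.gx x) ((r / 2) • D.gx x)
    rw [add_sub_cancel_left, c0] at c1
    rw [add_sub_cancel_right, c0] at c2
    have c3 := D.hN.le (D.ge φ) (φ + (r / 2) • D.gx x)
    rw [S.N_ge b2, mul_one, inner_add_left, real_inner_smul_left, S.inner_ge b2] at c3
    have c4 : min ε 1 ≤ 1 := min_le_right _ _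
    have c5 : min ε 1 ≤ ε := min_le_left _ _
    have c6 : ⟪D.gx x, D.ge φ⟫ < -1 + min ε 1 := by
      by_contra hge
      push Not at hge
      nlinarith [mul_le_mul_of_nonneg_left hge (half_pos hr).le]
    have c7 : ⟪D.gx x, D.ge φ⟫ < 0 := by linarith
    have c8 := b3 (by nlinarith) c7
    have c9 : D.symm.W (D.F x) (D.dir x (D.ge φ)) ≤ 1 := by
      have := D.hM.abs_le (D.dir x (D.ge φ)) (D.symm.gx (D.F x))
      rwa [D.hM.sub_norm_eq hg.symm.sub hg.symm.ne, Geo.M_dir (hg.back c7), S.N_ge b2,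
        mul_one] at this
    have c10 := mul_le_mul_of_nonneg_left c9 hm0
    rw [c8, Geo.W, abs_of_neg c7] at c10
    linarith
  filter_upwards [h2] with φ hφ b1 b2
  rw [← hφ.2 b1 b2]
  exact le_mul_of_one_le_left (abs_nonneg _) h3

include S in
theorem ae_nice : ∀ᵐ x ∂μ, D.Good x ∧ ∀ᵐ φ ∂μ, D.Nice x φ := by
  have h1 := ae_all_iff.mpr fun n : ℕ => S.ae_W (r := n + 1) (Nat.cast_add_one_pos n)
  filter_upwards [h1, S.aGX] with x hx hG
  refine ⟨S.good x hG, ?_⟩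
  have h2 : ∀ᵐ φ ∂μ, ∀ n : ℕ, D.N x < n + 1 → D.N' φ < n + 1 → ⟪D.gx x, D.ge φ⟫ < 0 →
      D.symm.W (D.F x) (D.dir x (D.ge φ)) ≤ D.W x (D.ge φ) := by
    refine ae_all_iff.mpr fun n => ?_
    by_cases hn : D.N x < n + 1
    · filter_upwards [hx n hn] with φ hφ _ using hφ
    · exact Eventually.of_forall fun φ h => absurd h hn
  filter_upwards [h2, S.aDX, S.ae_psi hG] with φ a1 a2 a3
  refine ⟨S.dN' a2, S.N_ge a2, S.inner_ge a2, fun he => ⟨?_, ?_⟩⟩
  · rw [← S.ge_psi hG a2 he (a3 a2 he)]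
    exact S.symm.dN' (a3 a2 he)
  · obtain ⟨n, hn⟩ := exists_nat_gt (max (D.N x) (D.N' φ))
    exact a1 n (by linarith [le_max_left (D.N x) (D.N' φ)])
      (by linarith [le_max_right (D.N x) (D.N' φ)]) he

end Sets

theorem modelThm : ModelThm := by
  intro n N N' M M' F G hN hM h hf
  let D : Geo (EuclideanSpace ℝ (Fin (n + 1))) := ⟨N, N', M, M', F, G, hN, hM, h⟩
  obtain ⟨S⟩ := exists_sets volume D
  obtain ⟨K, hK⟩ := h.lipschitz hN.n hM.n
  refine contraction_of_ae volume hN.n hM hK ?_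
  filter_upwards [S.ae_nice] with x hx
  exact ⟨D.A x, hx.1.dF, hx.1.contraction volume hf hx.2⟩

end Vale.Agent.P084
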