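import Vale.Agent.P084.Basic

/-! Measure theoretic tools (task T5). -/

open scoped RealInnerProductSpace Topology NNReal
open Filter Set MeasureTheory

namespace Vale.Agent.P084

section General

variable {V : Type*} [NormedAddCommGroup V] [NormedSpace ℝ V] [FiniteDimensional ℝ V]
  [MeasurableSpace V] [BorelSpace V] (μ : Measure V) [μ.IsAddHaarMeasure]

/-- Lipschitz maps send null sets to null sets (compare `μ` with the Hausdorff measure). -/
theorem null_image_of_lipschitz {f : V → V} {K : ℝ≥0} (hf : LipschitzWith K f) {s : Set V}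
    (hs : μ s = 0) : μ (f '' s) = 0 := by
  have h1 : μ ≪ (Measure.hausdorffMeasure (Module.finrank ℝ V : ℝ) : Measure V) :=
    Measure.absolutelyContinuous_isAddHaarMeasure _ _
  have h2 : (Measure.hausdorffMeasure (Module.finrank ℝ V : ℝ) : Measure V) ≪ μ :=
    Measure.absolutelyContinuous_isAddHaarMeasure _ _
  apply h1
  have h3 := hf.hausdorffMeasure_image_le (d := (Module.finrank ℝ V : ℝ)) (by positivity) s
  rw [h2 hs, mul_zero] at h3
  exact nonpos_iff_eq_zero.mp h3

/-- An injective map with invertible derivative reflects null sets. -/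
theorem null_of_image_null {f : V → V} {f' : V → V →L[ℝ] V} {s : Set V} (hs : MeasurableSet s)
    (hf' : ∀ x ∈ s, HasFDerivWithinAt f (f' x) s x) (hinj : InjOn f s)
    (hdet : ∀ x ∈ s, (f' x).det ≠ 0) (h0 : μ (f '' s) = 0) : μ s = 0 := by
  have h1 := lintegral_abs_det_fderiv_eq_addHaar_image μ hs hf' hinj
  rw [h0, lintegral_eq_zero_iff' (aemeasurable_ofReal_abs_det_fderivWithin μ hs hf')] at h1
  have h2 : ∀ᵐ x ∂μ.restrict s, x ∈ s := ae_restrict_mem hs
  have h3 : ∀ᵐ x ∂μ.restrict s, False := by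
    filter_upwards [h1, h2] with x hx hxs
    have h4 : 0 < |(f' x).det| := abs_pos.mpr (hdet x hxs)
    simp only [Pi.zero_apply, ENNReal.ofReal_eq_zero] at hx
    linarith
  rw [eventually_false_iff_eq_bot, ae_eq_bot, Measure.restrict_eq_zero] at h3
  exact h3

/-- An almost everywhere property holds almost everywhere on almost every line. -/
theorem ae_ae_line {P : V → Prop} (hP : ∀ᵐ z ∂μ, P z) (v : V) :
    ∀ᵐ z ∂μ, ∀ᵐ c : ℝ, P (z + c • v) := by
  obtain ⟨Z, hZ, hZm, hZ0⟩ := exists_measurable_superset_of_null (ae_iff.mp hP)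
  have hm : MeasurableSet {x : V × ℝ | x.1 + x.2 • v ∉ Z} := by
    have hc : Measurable fun x : V × ℝ => x.1 + x.2 • v :=
      (continuous_fst.add (continuous_snd.smul continuous_const)).measurable
    exact hc hZm.compl
  have h1 : ∀ᵐ z ∂μ, ∀ᵐ c : ℝ, z + c • v ∉ Z := by
    refine (Measure.ae_ae_comm (p := fun (z : V) (c : ℝ) => z + c • v ∉ Z) hm).mpr ?_
    refine Eventually.of_forall fun c => ?_
    rw [ae_iff]
    have h2 : {a : V | ¬ (a + c • v ∉ Z)} = (fun a => a + c • v) ⁻¹' Z := by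
      ext a
      simp
    rw [h2, measure_preimage_add_right, hZ0]
  filter_upwards [h1] with z hz
  filter_upwards [hz] with c hc
  by_contra hn
  exact hc (hZ hn)

/-- A closed condition true almost everywhere on an open set is true on it. -/
theorem le_of_ae_le {U : Set V} (hU : IsOpen U) {f g : V → ℝ} (hf : Continuous f)
    (hg : Continuous g) (h : ∀ᵐ z ∂μ, z ∈ U → f z ≤ g z) : ∀ z ∈ U, f z ≤ g z := by
  intro z hz
  by_contra hlt
  have hO : IsOpen (U ∩ {w | g w < f w}) := hU.inter (isOpen_lt hg hf)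
  have hpos : 0 < μ (U ∩ {w | g w < f w}) := hO.measure_pos μ ⟨z, hz, not_le.mp hlt⟩
  have h0 : μ (U ∩ {w | g w < f w}) = 0 := by
    refine measure_mono_null ?_ (ae_iff.mp h)
    intro w hw hle
    exact absurd (hle hw.1) (not_le.mpr hw.2)
  exact hpos.ne' h0

end General

/-- A Lipschitz function with almost everywhere nonnegative derivative is monotone. -/
theorem le_of_ae_deriv_nonneg {g : ℝ → ℝ} {a b : ℝ} {K : ℝ≥0} (hab : a ≤ b)
    (hg : LipschitzOnWith K g (Icc a b))
    (hd : ∀ᵐ c : ℝ, c ∈ Ioo a b → ∃ g', HasDerivAt g g' c ∧ 0 ≤ g') : g a ≤ g b := by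
  have hac : AbsolutelyContinuousOnInterval g a b := by
    apply LipschitzOnWith.absolutelyContinuousOnInterval (K := K)
    rwa [uIcc_of_le hab]
  have h1 := hac.integral_deriv_eq_sub
  have h2 : 0 ≤ ∫ x in a..b, deriv g x := by
    rw [intervalIntegral.integral_of_le hab, integral_Ioc_eq_integral_Ioo]
    apply setIntegral_nonneg_of_ae_restrict
    refine (ae_restrict_iff' measurableSet_Ioo).mpr ?_
    filter_upwards [hd] with c hc hcm
    obtain ⟨g', h3, h4⟩ := hc hcm
    simp only [Pi.zero_apply]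
    rw [h3.deriv]
    exact h4
  linarith

variable {E : Type*} [NormedAddCommGroup E] [InnerProductSpace ℝ E] [FiniteDimensional ℝ E]
  [MeasurableSpace E] [BorelSpace E] (μ : Measure E) [μ.IsAddHaarMeasure]

/-- A Lipschitz map whose derivative is almost everywhere a contraction is a contraction. -/
theorem contraction_of_ae {N M M' : E → ℝ} (hN : IsNorm N) (hM : DualPair M M') {F : E → E}
    {K : ℝ≥0} (hF : LipschitzWith K F)
    (h : ∀ᵐ x ∂μ, ∃ A : E →L[ℝ] E, HasFDerivAt F A x ∧ ∀ v, M (A v) ≤ N v) (a b : E) :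
    M (F a - F b) ≤ N (a - b) := by
  obtain ⟨ψ, hψ1, hψ2⟩ := hM.ex (F a - F b)
  set v := a - b with hv
  have h1 := ae_ae_line μ h v
  have h2 : ∀ᵐ z ∂μ, z ∈ (univ : Set E) → ⟪ψ, F (z + v) - F z⟫ ≤ N v := by
    filter_upwards [h1] with z hz _
    have hlip : ∃ K' : ℝ≥0, LipschitzWith K' (fun c : ℝ => c * N v - ⟪ψ, F (z + c • v)⟫) := by
      have l1 : LipschitzWith ‖N v‖₊ (fun c : ℝ => c * N v) := by
        refine LipschitzWith.of_dist_le_mul fun x y => ?_
        rw [Real.dist_eq, Real.dist_eq, ← sub_mul, abs_mul, mul_comm]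
        simp
      have l2 : LipschitzWith ‖v‖₊ (fun c : ℝ => z + c • v) := by
        refine LipschitzWith.of_dist_le_mul fun x y => ?_
        rw [dist_eq_norm, Real.dist_eq, add_sub_add_left_eq_sub, ← sub_smul, norm_smul, mul_comm]
        simp
      have l3 := (innerSL ℝ ψ).lipschitz.comp (hF.comp l2)
      exact ⟨_, l1.sub l3⟩
    obtain ⟨K', hK'⟩ := hlip
    have h3 := le_of_ae_deriv_nonneg (g := fun c : ℝ => c * N v - ⟪ψ, F (z + c • v)⟫)
      zero_le_one hK'.lipschitzOnWith (by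
        filter_upwards [hz] with c hc _
        obtain ⟨A, hA, hAv⟩ := hc
        have d1 : HasDerivAt (fun c : ℝ => z + c • v) v c := by
          simpa using ((hasDerivAt_id c).smul_const v).const_add z
        have d2 : HasDerivAt (fun c : ℝ => F (z + c • v)) (A v) c := hA.comp_hasDerivAt c d1
        have d3 : HasDerivAt (fun c : ℝ => ⟪ψ, F (z + c • v)⟫) ⟪ψ, A v⟫ c :=
          (innerSL ℝ ψ).hasFDerivAt.comp_hasDerivAt c d2
        have d4 : HasDerivAt (fun c : ℝ => c * N v) (N v) c := by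
          simpa using (hasDerivAt_id c).mul_const (N v)
        refine ⟨_, d4.sub d3, ?_⟩
        have h5 := hM.le (A v) ψ
        have h6 := hAv v
        have h7 := hM.n.nonneg (A v)
        nlinarith)
    simp only [zero_mul, zero_smul, add_zero, one_mul, one_smul] at h3
    rw [inner_sub_right]
    linarith
  have hFc := hF.continuous
  have h3 := le_of_ae_le μ isOpen_univ (f := fun z => ⟪ψ, F (z + v) - F z⟫) (g := fun _ => N v)
    (continuous_const.inner ((hFc.comp (continuous_id.add continuous_const)).sub hFc))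
    continuous_const h2 b (mem_univ _)
  have h4 : b + v = a := by rw [hv]; abel
  simp only [h4] at h3
  rw [← hψ2]
  exact h3

omit [MeasurableSpace E] [BorelSpace E] [FiniteDimensional ℝ E] in
/-- The gradient inequality for a norm. -/
theorem IsNorm.grad_ineq {N : E → ℝ} (hN : IsNorm N) {g z : E}
    (hg : HasFDerivAt N (innerSL ℝ g) z) (w : E) : N z + ⟪g, w - z⟫ ≤ N w := by
  have d1 : HasDerivAt (fun c : ℝ => z + c • (w - z)) (w - z) 0 := by
    simpa using ((hasDerivAt_id (0 : ℝ)).smul_const (w - z)).const_add z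
  have hg' : HasFDerivAt N (innerSL ℝ g) (z + (0 : ℝ) • (w - z)) := by simpa using hg
  have d2 : HasDerivAt (fun c : ℝ => N (z + c • (w - z))) ⟪g, w - z⟫ 0 :=
    HasFDerivAt.comp_hasDerivAt (l := N) (l' := innerSL ℝ g)
      (f := fun c : ℝ => z + c • (w - z)) (0 : ℝ) hg' d1
  have d3 := d2.tendsto_slope_zero_right
  have h4 : ⟪g, w - z⟫ ≤ N w - N z := by
    refine le_of_tendsto d3 ?_
    have hm : Ioo (0 : ℝ) 1 ∈ 𝓝[>] (0 : ℝ) := Ioo_mem_nhdsGT one_pos
    filter_upwards [hm] with t ht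
    have h5 := hN.convex_comb z w (a := 1 - t) (b := t) (by linarith [ht.2]) ht.1.le
    have h6 : (1 - t) • z + t • w = z + t • (w - z) := by
      rw [sub_smul, smul_sub, one_smul]; abel
    rw [h6] at h5
    simp only [zero_add, zero_smul, add_zero, smul_eq_mul]
    rw [inv_mul_le_iff₀ ht.1]
    linarith
  linarith

/-- Transfer of null sets between two families of parallel chords. The maps
`z ↦ z + (N z - ⟪l, z⟫) • d` are Lipschitz, and the first one is injective with invertible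
derivative on `S`. -/
theorem null_transfer {N₁ N₂ : E → ℝ} (h₁ : IsNorm N₁) (h₂ : IsNorm N₂) {d₁ l₁ d₂ l₂ : E}
    (hl : ⟪l₁, d₁⟫ = 1) (T : E →L[ℝ] E) {S Z : Set E} (hS : MeasurableSet S) (hZ : μ Z = 0)
    (hd : ∀ z ∈ S, ∃ g, HasFDerivAt N₁ (innerSL ℝ g) z ∧ ⟪g, d₁⟫ < 0)
    (hT : ∀ z ∈ S, ∃ z' ∈ Z,
      z + (N₁ z - ⟪l₁, z⟫) • d₁ = T (z' + (N₂ z' - ⟪l₂, z'⟫) • d₂)) : μ S = 0 := by
  classical
  have hlip : ∃ K : ℝ≥0, LipschitzWith K (fun z' : E => T (z' + (N₂ z' - ⟪l₂, z'⟫) • d₂)) := by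
    obtain ⟨K₂, hK₂⟩ := h₂.lipschitz
    have l1 := hK₂.sub (innerSL ℝ l₂).lipschitz
    have l2 := (ContinuousLinearMap.toSpanSingleton ℝ d₂).lipschitz.comp l1
    have l3 := T.lipschitz.comp (LipschitzWith.id.add l2)
    exact ⟨_, l3⟩
  obtain ⟨K, hK⟩ := hlip
  have hnull := null_image_of_lipschitz μ hK hZ
  choose! g hg hgd using hd
  refine null_of_image_null μ (f := fun z => z + (N₁ z - ⟪l₁, z⟫) • d₁)
    (f' := fun z => ContinuousLinearMap.id ℝ E + (innerSL ℝ (g z) - innerSL ℝ l₁).smulRight d₁)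
    hS ?_ ?_ ?_ ?_
  · intro z hz
    have d1 : HasFDerivAt (fun z => N₁ z - ⟪l₁, z⟫) (innerSL ℝ (g z) - innerSL ℝ l₁) z :=
      (hg z hz).sub (innerSL ℝ l₁).hasFDerivAt
    exact ((hasFDerivAt_id z).add (d1.smul_const d₁)).hasFDerivWithinAt
  · intro z hz z' hz' heq
    simp only at heq
    set c : ℝ := (N₁ z - ⟪l₁, z⟫) - (N₁ z' - ⟪l₁, z'⟫) with hc
    have h1 : z' - z = c • d₁ := by
      rw [hc, sub_smul]
      have : z' = z + (N₁ z - ⟪l₁, z⟫) • d₁ - (N₁ z' - ⟪l₁, z'⟫) • d₁ := by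
        rw [heq]; abel
      conv_lhs => rw [this]
      abel
    have h2 : ⟪l₁, z'⟫ - ⟪l₁, z⟫ = c := by
      rw [← inner_sub_right, h1, inner_smul_right, hl, mul_one]
    have h3 : N₁ z = N₁ z' := by linarith
    have h4 := h₁.grad_ineq (hg z hz) z'
    have h5 := h₁.grad_ineq (hg z' hz') z
    have h6 : z - z' = (-c) • d₁ := by rw [neg_smul, ← h1]; abel
    rw [h1, inner_smul_right] at h4
    rw [h6, inner_smul_right] at h5
    have h7 := hgd z hz
    have h8 := hgd z' hz'
    have hc0 : c = 0 := by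
      rcases lt_trichotomy c 0 with h | h | h
      · nlinarith [mul_pos_of_neg_of_neg h h7]
      · exact h
      · nlinarith [mul_neg_of_pos_of_neg h h8]
    rw [hc0, zero_smul, sub_eq_zero] at h1
    exact h1.symm
  · intro z hz hdet
    have hker := LinearMap.det_eq_zero_iff_ker_ne_bot.mp hdet
    apply hker
    rw [LinearMap.ker_eq_bot']
    intro v hv
    have hv' : v + (⟪g z, v⟫ - ⟪l₁, v⟫) • d₁ = 0 := by simpa using hv
    set c : ℝ := ⟪g z, v⟫ - ⟪l₁, v⟫ with hc
    have h1 : v = (-c) • d₁ := by rw [neg_smul]; exact eq_neg_of_add_eq_zero_left hv'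
    have h2 : ⟪g z, v⟫ = -c * ⟪g z, d₁⟫ := by
      conv_lhs => rw [h1]
      rw [inner_smul_right]
    have h3 : ⟪l₁, v⟫ = -c := by
      conv_lhs => rw [h1]
      rw [inner_smul_right, hl, mul_one]
    have h4 : c * ⟪g z, d₁⟫ = 0 := by linarith
    have h5 : c = 0 := by
      rcases mul_eq_zero.mp h4 with h | h
      · exact h
      · exact absurd h (hgd z hz).ne
    rw [h1, h5]
    simp
  · refine measure_mono_null ?_ hnull
    rintro _ ⟨z, hz, rfl⟩
    obtain ⟨z', hz', heq⟩ := hT z hz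
    exact ⟨z', hz', heq.symm⟩

end Vale.Agent.P084
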