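import Vale.Agent.P084.AlexBasic
import Vale.Agent.P084.Alex
import Vale.Agent.P084.Tools
import Vale.Agent.P084.DetIneq
import Vale.Agent.P084.Exit

/-! Quadratic Taylor approximation of a sphere isometry at good points. -/

open scoped RealInnerProductSpace Topology
open Filter Set MeasureTheory

namespace Vale.Agent.P084

variable {E : Type*} [NormedAddCommGroup E] [InnerProductSpace ℝ E] {N N' M M' : E → ℝ}
  {F G : E → E}

theorem DualPair.add_eq (hN : DualPair N N') {a b : E} {c : ℝ} (hc : 0 < c)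
    (h : N (a + c • b) = N a + c * N b) {α β : ℝ} (hα : 0 ≤ α) (hβ : 0 ≤ β) :
    N (α • a + β • b) = α * N a + β * N b := by
  obtain ⟨φ, hφ⟩ := hN.exists_sub (a + c • b)
  have h1 := hN.inner_le_of_sub hφ a
  have h2 := hN.inner_le_of_sub hφ b
  have h3 := hφ.2
  rw [inner_add_right, inner_smul_right, h] at h3
  have h4 : ⟪φ, b⟫ = N b := by
    by_contra hne
    have := mul_lt_mul_of_pos_left (lt_of_le_of_ne h2 hne) hc
    linarith
  have h5 : ⟪φ, a⟫ = N a := by rw [h4] at h3; linarith
  refine le_antisymm (hN.n.convex_comb a b hα hβ) ?_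
  have := hN.inner_le_of_sub hφ (α • a + β • b)
  rwa [inner_add_right, inner_smul_right, inner_smul_right, h4, h5] at this

/-- Points `w` such that the chord between the rays of `x` and `w` is interior. -/
def Region (N : E → ℝ) (x : E) : Set E := {w | N (N x • w + N w • x) < 2 * N x * N w}

variable [FiniteDimensional ℝ E]

theorem isOpen_region (hN : IsNorm N) (x : E) : IsOpen (Region N x) := by
  have := hN.continuous
  exact isOpen_lt (hN.continuous.comp (by fun_prop)) (by fun_prop)

theorem region_symm (hN : DualPair N N') (hM : IsNorm M) (h : SphIso N M F G) {x w : E}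
    (hw : F w ∈ Region M (F x)) : w ∈ Region N x := by
  by_contra hne
  have h1 : 2 * N x * N w ≤ N (N x • w + N w • x) := not_lt.mp hne
  have h2 := hN.n.convex_comb w x (hN.n.nonneg x) (hN.n.nonneg w)
  have h3 : N (N w • x) = N (N x • w) := by
    rw [hN.n.smul_nonneg (hN.n.nonneg _), hN.n.smul_nonneg (hN.n.nonneg _), mul_comm]
  have h4 := h.star hN hM h3 (by
    rw [hN.n.smul_nonneg (hN.n.nonneg _)]
    linarith)
  rw [h.hom _ _ (hN.n.nonneg _), h.hom _ _ (hN.n.nonneg _),
    hN.n.smul_nonneg (hN.n.nonneg _)] at h4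
  have h5 : M (M (F x) • F w + M (F w) • F x) < 2 * M (F x) * M (F w) := hw
  rw [h.nrm, h.nrm, h4] at h5
  linarith

variable [MeasurableSpace E] [BorelSpace E] (μ : Measure E) [μ.IsAddHaarMeasure]

theorem ae_region (hN : DualPair N N') {x : E} (hx : x ≠ 0) :
    ∀ᵐ w ∂μ, w ∈ Region N x → ∃ φ H, Alex N N' (N x • w - N w • x) φ H := by
  have ht := hN.n.pos x hx
  set Z := toMeasurable μ {d | ¬ ∃ φ H, Alex N N' d φ H} with hZ
  have hZ0 : μ Z = 0 := by rw [hZ, measure_toMeasurable]; exact alex_ae hN μ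
  have hZm : MeasurableSet Z := measurableSet_toMeasurable _ _
  have hZs : ∀ d, d ∉ Z → ∃ φ H, Alex N N' d φ H := fun d hd => by
    by_contra hne
    exact hd (subset_toMeasurable _ _ hne)
  set P : E → E := fun w => N x • w - N w • x with hP
  have hPc : Continuous P := by
    have := hN.n.continuous
    fun_prop
  set s := Region N x ∩ Zᶜ ∩ P ⁻¹' Z with hs
  have hsm : MeasurableSet s :=
    ((isOpen_region hN.n x).measurableSet.inter hZm.compl).inter (hPc.measurable hZm)
  have hder : ∀ w ∈ s, HasFDerivAt N (innerSL ℝ (gradient N w)) w := by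
    intro w hw
    obtain ⟨φ, H, ha⟩ := hZs w hw.1.2
    have h1 := ha.hasFDerivAt hN
    have h2 : gradient N w = φ := by
      have : HasGradientAt N φ w := hasGradientAt_iff_hasFDerivAt.mpr h1
      exact this.gradient
    rwa [h2]
  have hs0 : μ s = 0 := by
    refine null_of_image_null μ (f := P)
      (f' := fun w => N x • ContinuousLinearMap.id ℝ E - (innerSL ℝ (gradient N w)).smulRight x)
      hsm (fun w hw => ?_) ?_ (fun w hw => ?_) ?_
    · exact (((hasFDerivAt_id w).const_smul (N x)).sub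
        ((hder w hw).smul_const x)).hasFDerivWithinAt
    · have key : ∀ w₁ w₂, w₁ ∈ Region N x → P w₁ = P w₂ → N w₁ < N w₂ → False := by
        intro w₁ w₂ h1 heq hlt
        have hc : 0 < (N w₂ - N w₁) / N x := div_pos (by linarith) ht
        have h2 : w₂ = w₁ + ((N w₂ - N w₁) / N x) • x := by
          have h3 : N x • w₂ = N x • (w₁ + ((N w₂ - N w₁) / N x) • x) := by
            rw [smul_add, smul_smul, mul_div_cancel₀ _ ht.ne']
            have : N x • w₁ - N w₁ • x = N x • w₂ - N w₂ • x := heq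
            rw [sub_smul]
            linear_combination (norm := module) (-1 : ℝ) • this
          exact smul_right_injective E ht.ne' h3
        have h4 : N (w₁ + ((N w₂ - N w₁) / N x) • x) =
            N w₁ + ((N w₂ - N w₁) / N x) * N x := by
          rw [← h2, div_mul_cancel₀ _ ht.ne']
          ring
        have h5 := hN.add_eq hc h4 ht.le (hN.n.nonneg w₁)
        have h6 : N (N x • w₁ + N w₁ • x) < 2 * N x * N w₁ := h1
        linarith
      intro w₁ h1 w₂ h2 heq
      rcases lt_trichotomy (N w₁) (N w₂) with hlt | he | hgt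
      · exact (key w₁ w₂ h1.1.1 heq hlt).elim
      · have : N x • w₁ - N w₁ • x = N x • w₂ - N w₂ • x := heq
        rw [he, sub_left_inj] at this
        exact smul_right_injective E ht.ne' this
      · exact (key w₂ w₁ h2.1.1 heq.symm hgt).elim
    · refine det_ne_zero_of_injective _ fun v hv => ?_
      set g := gradient N w
      have hv' : N x • v - ⟪g, v⟫ • x = 0 := by simpa using hv
      by_contra hv0
      have h1 : N x * ⟪g, v⟫ - ⟪g, v⟫ * ⟪g, x⟫ = 0 := by
        have := congrArg (fun z => ⟪g, z⟫) hv'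
        simpa [inner_sub_right, inner_smul_right] using this
      have h2 : ⟪g, v⟫ ≠ 0 := by
        intro h0
        rw [h0, zero_smul, sub_zero] at hv'
        exact hv0 ((smul_eq_zero.mp hv').resolve_left ht.ne')
      have h3 : ⟪g, x⟫ = N x := by
        have : ⟪g, v⟫ * (N x - ⟪g, x⟫) = 0 := by linarith
        have := (mul_eq_zero.mp this).resolve_left h2
        linarith
      have hsub := hN.sub_of_hasFDerivAt (hder w hw)
      have h4 := hN.inner_le_of_sub hsub (N x • w + N w • x)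
      rw [inner_add_right, inner_smul_right, inner_smul_right, h3, hsub.2] at h4
      have h6 : N (N x • w + N w • x) < 2 * N x * N w := hw.1.1
      linarith
    · exact measure_mono_null (by rintro _ ⟨w, hw, rfl⟩; exact hw.2) hZ0
  have h1 : ∀ᵐ w ∂μ, w ∉ s := measure_eq_zero_iff_ae_notMem.mp hs0
  have h2 : ∀ᵐ w ∂μ, w ∉ Z := measure_eq_zero_iff_ae_notMem.mp hZ0
  filter_upwards [h1, h2] with w hw1 hw2 hw3
  refine hZs _ fun hz => hw1 ⟨⟨hw3, hw2⟩, hz⟩

theorem SphIso.ae_comp (hN : IsNorm N) (hM : IsNorm M) (h : SphIso N M F G) {P : E → Prop}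
    (hP : ∀ᵐ w ∂μ, P w) : ∀ᵐ w' ∂μ, P (G w') := by
  obtain ⟨K, hK⟩ := h.lipschitz hN hM
  have h0 := null_image_of_lipschitz μ hK (ae_iff.mp hP)
  refine measure_mono_null (fun w' hw' => ?_) h0
  exact ⟨G w', hw', h.fg w'⟩

omit [MeasurableSpace E] [BorelSpace E] in
theorem quad_pair (hN : DualPair N N') (hM : DualPair M M') (h : SphIso N M F G) {x w φ ψ : E}
    {H H' : E →L[ℝ] E} (hw : 0 < N w) (ha : Alex N N' (N x • w - N w • x) φ H)
    (hb : Alex M M' (N x • F w - N w • F x) ψ H') :
    (fun x' => ⟪ψ, F x' - F x⟫ - ⟪φ, x' - x⟫) =O[𝓝[{z | N z = N x}] x]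
      fun x' => ‖x' - x‖ ^ 2 := by
  obtain ⟨K, hK⟩ := h.lipschitz hN.n hM.n
  have hFc := hK.continuous
  have t1 : Tendsto (fun x' => N x • w - N w • x') (𝓝 x) (𝓝 (N x • w - N w • x)) :=
    Continuous.tendsto (by fun_prop) x
  have t2 : Tendsto (fun x' => N x • F w - N w • F x') (𝓝 x) (𝓝 (N x • F w - N w • F x)) :=
    Continuous.tendsto (by fun_prop) x
  have o1 := (ha.quadN hN).comp_tendsto t1
  have o2 := (hb.quadN hM).comp_tendsto t2
  have b1 : ((fun d => ‖d - (N x • w - N w • x)‖ ^ 2) ∘ fun x' => N x • w - N w • x') =O[𝓝 x]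
      fun x' => ‖x' - x‖ ^ 2 := by
    refine Asymptotics.IsBigO.of_bound (N w ^ 2) (Eventually.of_forall fun x' => ?_)
    have : N x • w - N w • x' - (N x • w - N w • x) = (-N w) • (x' - x) := by module
    simp only [Function.comp, this, norm_smul, mul_pow, norm_pow, norm_norm, norm_neg,
      Real.norm_eq_abs, sq_abs, norm_mul, le_refl]
  have b2 : ((fun d => ‖d - (N x • F w - N w • F x)‖ ^ 2) ∘
      fun x' => N x • F w - N w • F x') =O[𝓝 x] fun x' => ‖x' - x‖ ^ 2 := by
    refine Asymptotics.IsBigO.of_bound (N w ^ 2 * K ^ 2) (Eventually.of_forall fun x' => ?_)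
    have : N x • F w - N w • F x' - (N x • F w - N w • F x) = (-N w) • (F x' - F x) := by module
    have h1 := hK.norm_sub_le x' x
    have h2 : ‖F x' - F x‖ ^ 2 ≤ (K * ‖x' - x‖) ^ 2 := by gcongr
    simp only [Function.comp, this, norm_smul, mul_pow, norm_pow, norm_norm, norm_neg,
      Real.norm_eq_abs, sq_abs, norm_mul]
    rw [mul_pow] at h2
    nlinarith [mul_le_mul_of_nonneg_left h2 (sq_nonneg (N w))]
  have o3 := (((o2.trans b2).sub (o1.trans b1)).mono (nhdsWithin_le_nhds
    (s := {z | N z = N x}))).const_mul_left (N w)⁻¹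
  refine o3.congr' ?_ EventuallyEq.rfl
  filter_upwards [self_mem_nhdsWithin] with x' hx'
  have hx'' : N x' = N x := hx'
  have key : ∀ z, N z = N x → M (N x • F w - N w • F z) = N (N x • w - N w • z) := by
    intro z hz
    rw [← h.hom _ _ (hN.n.nonneg _), ← h.hom _ _ (hN.n.nonneg _)]
    refine h.iso _ _ ?_
    rw [hN.n.smul_nonneg (hN.n.nonneg _), hN.n.smul_nonneg (hN.n.nonneg _), hz, mul_comm]
  have e1 : N x • w - N w • x' - (N x • w - N w • x) = (-N w) • (x' - x) := by module
  have e2 : N x • F w - N w • F x' - (N x • F w - N w • F x) = (-N w) • (F x' - F x) := by module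
  simp only [Function.comp, key x' hx'', key x rfl, e1, e2, inner_smul_right]
  field_simp
  ring

include μ in
theorem quad_level (hN : DualPair N N') (hM : DualPair M M') (h : SphIso N M F G) {x ψ : E}
    {H' : E →L[ℝ] E} (hx : x ≠ 0) (hb : Alex M M' (F x) ψ H') :
    ∃ L : E →L[ℝ] E, (fun x' => F x' - F x - L (x' - x)) =O[𝓝[{z | N z = N x}] x]
      fun x' => ‖x' - x‖ ^ 2 := by
  set l := 𝓝[{z | N z = N x}] x
  let S : Submodule ℝ E :=
    { carrier := {ψ | ∃ φ, (fun x' => ⟪ψ, F x' - F x⟫ - ⟪φ, x' - x⟫) =O[l]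
        fun x' => ‖x' - x‖ ^ 2}
      add_mem' := by
        rintro a b ⟨φa, ha⟩ ⟨φb, hb⟩
        refine ⟨φa + φb, (ha.add hb).congr_left fun x' => ?_⟩
        simp only [inner_add_left]
        ring
      zero_mem' := ⟨0, by simpa using Asymptotics.isBigO_zero _ _⟩
      smul_mem' := by
        rintro c a ⟨φa, ha⟩
        refine ⟨c • φa, (ha.const_mul_left c).congr_left fun x' => ?_⟩
        simp only [inner_smul_left, conj_trivial]
        ring }
  have ht := hN.n.pos x hx
  have hy : F x ≠ 0 := fun h0 => by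
    have := h.nrm x
    rw [h0, hM.n.zero] at this
    linarith
  have key : ∀ y₀ : E, y₀ ≠ 0 → ⟪ψ, y₀⟫ ≤ 0 → ∃ ψ₁ ∈ S, ⟪ψ₁, y₀⟫ ≠ 0 := by
    intro y₀ hy₀ hle
    have hm := hM.n.pos y₀ hy₀
    set T := 3 * N x / M y₀ with hT
    have hT0 : 0 < T := by positivity
    have hTm : T * M y₀ = 3 * N x := by rw [hT]; field_simp
    set d₀ := -F x + T • y₀ with hd₀
    have hneg : ⟪ψ, d₀⟫ < 0 := by
      rw [hd₀, inner_add_right, inner_neg_right, inner_smul_right, hb.sub.2, h.nrm]
      nlinarith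
    obtain ⟨c, hc, hlt⟩ := back_of_hasFDerivAt (hb.hasFDerivAt hM) hneg
    have hd0 : d₀ ≠ 0 := by
      rintro h0
      rw [h0, inner_zero_right] at hneg
      exact lt_irrefl _ hneg
    have hfe : Feas M (F x) d₀ (M (F x)) := ⟨hd0, c, hlt⟩
    set ρ := exit M (F x) d₀ (M (F x))
    have hρ : 0 < ρ := hc.trans (lt_exit hM.n hfe hlt)
    have hw₀ : M (F x + ρ • d₀) = N x := (exit_spec hM.n hfe).trans (h.nrm x)
    set b := N x * ρ * T with hb'
    have hb0 : 0 < b := by positivity
    set O := Region M (F x) ∩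
      {w' | M (N x • w' - M w' • F x - b • y₀) < b * M y₀ / 2} with hO
    have hOo : IsOpen O := by
      have := hM.n.continuous
      exact (isOpen_region hM.n _).inter
        (isOpen_lt (hM.n.continuous.comp (by fun_prop)) continuous_const)
    have hOn : F x + ρ • d₀ ∈ O := by
      constructor
      · change M (M (F x) • (F x + ρ • d₀) + M (F x + ρ • d₀) • F x) <
          2 * M (F x) * M (F x + ρ • d₀)
        have h1 := lt_of_between hM.n hfe (s₀ := 0) (s := ρ / 2) (s₁ := ρ) (by simp)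
          (exit_le hM.n hfe) (by positivity) (by linarith)
        rw [hw₀, h.nrm] at *
        have h2 : N x • (F x + ρ • d₀) + N x • F x = (2 * N x) • (F x + (ρ / 2) • d₀) := by
          module
        rw [h2, hM.n.smul_nonneg (by positivity)]
        nlinarith
      · change M (N x • (F x + ρ • d₀) - M (F x + ρ • d₀) • F x - b • y₀) < b * M y₀ / 2
        have h2 : N x • (F x + ρ • d₀) - N x • F x - b • y₀ = (-(N x * ρ)) • F x := by
          rw [hd₀, hb']
          module
        rw [hw₀, h2, hM.n.smul, abs_neg, abs_of_pos (by positivity), h.nrm, hb', mul_assoc _ T,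
          hTm]
        nlinarith [mul_pos (mul_pos ht hρ) ht]
    have hae := (ae_region μ hM hy).and (h.ae_comp μ hN.n hM.n (ae_region μ hN hx))
    obtain ⟨w', hw'O, hw1, hw2⟩ := (Measure.dense_of_ae hae).inter_open_nonempty O hOo ⟨_, hOn⟩
    obtain ⟨ψ₁, H₁, ha₁⟩ := hw1 hw'O.1
    obtain ⟨φ₁, H₂, ha₂⟩ := hw2 (region_symm hN hM.n h (by rw [h.fg]; exact hw'O.1))
    have hMw : N (G w') = M w' := h.symm.nrm w'
    have hpos : 0 < N (G w') := by
      rw [hMw]
      refine hM.n.pos _ ?_
      rintro rfl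
      have : M (M (F x) • (0 : E) + M 0 • F x) < 2 * M (F x) * M 0 := hw'O.1
      simp [hM.n.zero] at this
    have ha₁' : Alex M M' (N x • F (G w') - N (G w') • F x) ψ₁ H₁ := by
      rwa [h.fg, hMw, ← h.nrm x]
    refine ⟨ψ₁, ⟨φ₁, quad_pair hN hM h hpos ha₂ ha₁'⟩, ne_of_gt ?_⟩
    rw [h.nrm] at ha₁
    set Q := N x • w' - M w' • F x
    have h1 := ha₁.sub.2
    have h2 := hM.inner_le_of_sub ha₁.sub (Q - b • y₀)
    rw [inner_sub_right, inner_smul_right, h1] at h2
    have h3 := hM.n.le_add_sub (b • y₀) Q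
    rw [hM.n.smul_nonneg hb0.le, hM.n.sub_comm (b • y₀) Q] at h3
    have h4 : M (Q - b • y₀) < b * M y₀ / 2 := hw'O.2
    by_contra hle'
    push Not at hle'
    nlinarith
  have hS : S = ⊤ := by
    rw [← Submodule.orthogonal_eq_bot_iff, Submodule.eq_bot_iff]
    intro y₀ hy₀
    by_contra hne
    rcases le_total ⟪ψ, y₀⟫ 0 with hle | hle
    · obtain ⟨ψ₁, h1, h2⟩ := key y₀ hne hle
      exact h2 (hy₀ ψ₁ h1)
    · obtain ⟨ψ₁, h1, h2⟩ := key (-y₀) (neg_ne_zero.mpr hne) (by simpa using hle)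
      exact h2 (by simp [hy₀ ψ₁ h1])
  set b := stdOrthonormalBasis ℝ E
  have hb' : ∀ i, ∃ φ, (fun x' => ⟪b i, F x' - F x⟫ - ⟪φ, x' - x⟫) =O[l]
      fun x' => ‖x' - x‖ ^ 2 := fun i => (hS ▸ Submodule.mem_top : b i ∈ S)
  choose φ hφ using hb'
  refine ⟨∑ i, (innerSL ℝ (φ i)).smulRight (b i), ?_⟩
  have h1 : ∀ i ∈ Finset.univ, (fun x' => (⟪b i, F x' - F x⟫ - ⟪φ i, x' - x⟫) • b i) =O[l]
      fun x' => ‖x' - x‖ ^ 2 := fun i _ => by
    have := (hφ i).smul (Asymptotics.isBigO_const_const (b i) (one_ne_zero (α := ℝ)) l)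
    simpa using this
  refine (Asymptotics.IsBigO.sum h1).congr_left fun x' => ?_
  simp only [Finset.sum_apply, sub_smul, Finset.sum_sub_distrib, b.sum_repr', sum_apply,
    ContinuousLinearMap.smulRight_apply, innerSL_apply_apply]

include μ in
theorem quad_of_alex (hN : DualPair N N') (hM : DualPair M M') (h : SphIso N M F G) {x φ ψ : E}
    {H H' : E →L[ℝ] E} (hx : x ≠ 0) (ha : Alex N N' x φ H) (hb : Alex M M' (F x) ψ H') :
    ∃ A, Quad F x A := by
  obtain ⟨L, hL⟩ := quad_level μ hN hM h hx hb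
  have ht := hN.n.pos x hx
  have hNc := hN.n.continuous
  have hev : ∀ᶠ x' in 𝓝 x, 0 < N x' := hNc.continuousAt.eventually (lt_mem_nhds ht)
  set σ : E → E := fun x' => (N x / N x') • x' with hσ
  have hσx : σ x = x := by simp [hσ, ht.ne']
  have hσd : DifferentiableAt ℝ σ x :=
    by
      have h1 : DifferentiableAt ℝ (fun x' => N x / N x') x := by
        simp only [div_eq_mul_inv]
        exact ((ha.hasFDerivAt hN).differentiableAt.inv ht.ne').const_mul _
      exact h1.smul differentiableAt_id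
  have hσt : Tendsto σ (𝓝 x) (𝓝[{z | N z = N x}] x) := by
    refine tendsto_nhdsWithin_iff.mpr ⟨by simpa [hσx] using hσd.continuousAt.tendsto, ?_⟩
    filter_upwards [hev] with x' hx'
    change N ((N x / N x') • x') = N x
    rw [hN.n.smul_nonneg (by positivity), div_mul_cancel₀ _ hx'.ne']
  have hσO : (fun x' => σ x' - x) =O[𝓝 x] fun x' => x' - x := by
    simpa [hσx] using hσd.isBigO_sub
  have o1 := (hL.comp_tendsto hσt).trans (hσO.norm_norm.pow 2)
  have hc : (fun x' => N x' / N x) =O[𝓝 x] fun _ => (1 : ℝ) :=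
    (Continuous.tendsto (by fun_prop) x).isBigO_one ℝ
  have o2 := hc.smul o1
  have o3 := (ha.quadN hN).smul
    (Asymptotics.isBigO_const_const ((N x)⁻¹ • (F x - L x)) (one_ne_zero (α := ℝ)) (𝓝 x))
  simp only [smul_eq_mul, one_mul, mul_one] at o2 o3
  refine ⟨L + (innerSL ℝ φ).smulRight ((N x)⁻¹ • (F x - L x)), (o2.add o3).congr' ?_
    EventuallyEq.rfl⟩
  filter_upwards [hev] with x' hx'
  have e1 : F (σ x') = (N x / N x') • F x' := h.hom _ _ (by positivity)
  have e2 : L (σ x' - x) = (N x / N x') • L x' - L x := by simp only [hσ, map_sub, map_smul]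
  simp only [Function.comp, e1, e2, add_apply,
    ContinuousLinearMap.smulRight_apply, innerSL_apply_apply, L.map_sub]
  generalize ⟪φ, x' - x⟫ = a
  match_scalars <;> field_simp <;> ring

end Vale.Agent.P084
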