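import Vale.Agent.P084.Meas

/-! The volume estimates. -/

open scoped RealInnerProductSpace Topology ENNReal
open Filter Set MeasureTheory

namespace Vale.Agent.P084

variable {E : Type*} [NormedAddCommGroup E] [InnerProductSpace ℝ E] [FiniteDimensional ℝ E]

/-- A truncated cone over the unit ball. -/
def Cone (N : E → ℝ) (r : ℝ) : Set (E × ℝ) := {q | N q.1 < q.2 ∧ q.2 < r}

namespace Geo

variable (D : Geo E)

/-- The weight. -/
noncomputable def W (x e : E) : ℝ := |⟪D.gx x, e⟫|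

/-- Interpolated chord linearisation. -/
noncomputable def al (x e : E) (s : ℝ) : E →L[ℝ] E :=
  (1 - s / D.rho x e) • D.Lx x e + (s / D.rho x e) • D.Lu x e

/-- Transport of chords. -/
noncomputable def T (p : E × E × ℝ) : E × E × ℝ :=
  (D.psi p.2.1 (D.ge p.1) p.1, D.F p.2.1, p.2.2)

variable {D} {x e φ : E}

theorem shift_nonpos {b : ℝ} (h1 : Back D.N x e) (h2 : Back D.N (x + b • e) e)
    (h : D.N (x + b • e) = D.N x) : b ≤ 0 := by
  by_contra hb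
  push Not at hb
  have h3 := rho_pos h2
  rw [rho, h, exit_shift D.hN.n x e _ b h1.feas] at h3
  have := N_lt h1 hb (sub_pos.mp h3)
  linarith

theorem chord_inj {x₁ x₂ : E} {s₁ s₂ : ℝ} (hd : HasFDerivAt D.N' (innerSL ℝ e) φ) (h1 : D.N e = 1)
    (hφ : ⟪φ, e⟫ = D.N' φ) (hφ0 : φ ≠ 0) (b₁ : Back D.N x₁ e) (b₂ : Back D.N x₂ e)
    (p₁ : 0 < s₁) (q₁ : s₁ < D.rho x₁ e) (p₂ : 0 < s₂) (q₂ : s₂ < D.rho x₂ e)
    (heq : D.F x₁ + s₁ • D.dir x₁ e = D.F x₂ + s₂ • D.dir x₂ e) (hN : D.N x₁ = D.N x₂) :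
    x₁ = x₂ ∧ s₁ = s₂ := by
  have m₁ := (M_dir b₁).trans h1
  have m₂ := (M_dir b₂).trans h1
  have hp := D.hN.n'.pos φ hφ0
  have a₁ : D.N (D.uu x₁ e - x₂) ≤ (D.rho x₁ e - s₁) + s₂ := by
    have := D.hM.n.convex_comb (D.dir x₁ e) (D.dir x₂ e) (sub_pos.mpr q₁).le p₂.le
    rw [m₁, m₂, mul_one, mul_one] at this
    rw [← D.h.iso _ _ ((N_uu b₁).trans hN), F_uu b₁]
    refine le_of_eq_of_le (congrArg D.M ?_) this
    linear_combination (norm := module) heq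
  have a₂ : D.N (D.uu x₂ e - x₁) ≤ (D.rho x₂ e - s₂) + s₁ := by
    have := D.hM.n.convex_comb (D.dir x₂ e) (D.dir x₁ e) (sub_pos.mpr q₂).le p₁.le
    rw [m₁, m₂, mul_one, mul_one] at this
    rw [← D.h.iso _ _ ((N_uu b₂).trans hN.symm), F_uu b₂]
    refine le_of_eq_of_le (congrArg D.M ?_) this
    linear_combination (norm := module) (-1 : ℝ) • heq
  have c₁ := D.hN.le (D.uu x₁ e - x₂) φ
  have c₂ := D.hN.le (D.uu x₂ e - x₁) φ
  have c₃ : ⟪φ, D.uu x₁ e - x₂⟫ + ⟪φ, D.uu x₂ e - x₁⟫ = (D.rho x₁ e + D.rho x₂ e) * D.N' φ := by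
    rw [← inner_add_right, ← hφ, ← inner_smul_right, uu, uu]
    congr 1
    module
  have c₄ : ⟪φ, D.uu x₁ e - x₂⟫ = D.N' φ * D.N (D.uu x₁ e - x₂) := by
    nlinarith [mul_le_mul_of_nonneg_left a₁ hp.le, mul_le_mul_of_nonneg_left a₂ hp.le]
  have c₅ : D.uu x₁ e - x₂ = D.N (D.uu x₁ e - x₂) • e := by
    set w := D.uu x₁ e - x₂
    by_cases hw : w = 0
    · rw [hw, D.hN.n.zero, zero_smul]
    · have hw' := D.hN.n.pos w hw
      have : (D.N w)⁻¹ • w = e := D.hN.symm.sub_eq_of_hasFDerivAt hd ⟨by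
        rw [D.hN.n.smul_nonneg (by positivity), inv_mul_cancel₀ hw'.ne'], by
        rw [real_inner_smul_left, real_inner_comm, c₄]
        field_simp⟩
      rw [← this, smul_smul, mul_inv_cancel₀ hw'.ne', one_smul]
  set b := D.rho x₁ e - D.N (D.uu x₁ e - x₂) with hb
  have e₁ : x₂ = x₁ + b • e := by
    rw [hb, sub_smul, ← c₅, uu]
    module
  have e₂ : x₁ = x₂ + (-b) • e := by rw [e₁]; module
  have g₁ : b ≤ 0 := shift_nonpos b₁ (e₁ ▸ b₂) (e₁ ▸ hN.symm)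
  have g₂ : -b ≤ 0 := shift_nonpos b₂ (e₂ ▸ b₁) (e₂ ▸ hN)
  have g₃ : b = 0 := by linarith
  rw [g₃, zero_smul, add_zero] at e₁
  subst e₁
  refine ⟨rfl, smul_left_injective ℝ (back_symm b₁).feas.1 (add_left_cancel heq)⟩

theorem Good.jac1 (hx : D.Good x) (he : ⟪D.gx x, e⟫ < 0) (hu : D.Good (D.uu x e)) (s : ℝ) :
    ∃ L : E × ℝ →L[ℝ] E × ℝ,
      HasFDerivAt (fun q : E × ℝ => (D.F q.1 + q.2 • D.dir q.1 e, D.N q.1)) L (x, s) ∧
        |L.det| = D.W x e * |(D.al x e s).det| := by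
  have hb := hx.back he
  have hρ := rho_pos hb
  obtain ⟨Dd, hD, hDξ⟩ := hx.hasFDerivAt_dir he hu
  have d1 := HasFDerivAt.comp (x, s) (g := D.F) (f := Prod.fst) hx.dF hasFDerivAt_fst
  have d2 := HasFDerivAt.comp (x, s) (g := fun x' => D.dir x' e) (f := Prod.fst) hD
    hasFDerivAt_fst
  have d3 := HasFDerivAt.comp (x, s) (g := D.N) (f := Prod.fst) hx.dN hasFDerivAt_fst
  have d4 := (d1.add ((hasFDerivAt_snd (𝕜 := ℝ) (p := (x, s))).smul d2)).prodMk d3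
  refine ⟨_, d4, det_chord _ _ e (D.gx x)
    (⟪D.gx x, e⟫⁻¹ • (D.A x e + s • Dd e - D.dir x e)) fun ξ σ => ?_⟩
  obtain ⟨a, ξ, hξ, rfl⟩ := exists_split he.ne ξ
  have h1 : D.Lu x e ξ = D.A x ξ + D.rho x e • Dd ξ := by
    rw [hDξ ξ hξ, Lx, Lmap_ker _ _ _ hξ]
    abel
  have h2 : D.Lx x e ξ = D.A x ξ := Lmap_ker _ _ _ hξ
  have h3 : D.Lx x e e = D.dir x e := Lmap_self _ _ he.ne
  have h4 : D.Lu x e e = D.dir x e := Lmap_self _ _ (inner_uu_pos hb hu).ne'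
  have h5 := he.ne
  simp [al, h1, h2, h3, h4, inner_add_right, inner_smul_right, hξ]
  match_scalars <;> field_simp <;> ring

theorem Good.jac2 (hx : D.Good x) (e : E) (s : ℝ) :
    ∃ L : E × ℝ →L[ℝ] E × ℝ,
      HasFDerivAt (fun q : E × ℝ => (q.1 + q.2 • e, D.N q.1)) L (x, s) ∧ |L.det| = D.W x e := by
  have d3 := HasFDerivAt.comp (x, s) (g := D.N) (f := Prod.fst) hx.dN hasFDerivAt_fst
  have d4 := ((hasFDerivAt_fst (𝕜 := ℝ) (p := (x, s))).add
    ((hasFDerivAt_snd (𝕜 := ℝ) (p := (x, s))).smul_const e)).prodMk d3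
  refine ⟨_, d4, (det_chord _ (ContinuousLinearMap.id ℝ E) e (D.gx x) 0 fun ξ σ => ?_).trans ?_⟩
  · simp
  · simp [W, ContinuousLinearMap.det]

theorem Good.weight (hx : D.Good x) (he : ⟪D.gx x, e⟫ < 0) :
    |(D.A x).det| * |(D.symm.Lx (D.F x) (D.dir x e)).det| * D.symm.W (D.F x) (D.dir x e) =
      D.W x e := by
  have h1 := congrArg abs (hx.Lx_det he)
  have h2 := congrArg abs (det_mul_det_of_inverse _ _ (hx.Lx_Li he))
  rw [abs_mul, abs_one] at h2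
  rw [abs_mul, abs_mul] at h1
  rw [W, W]
  calc _ = |(D.symm.Lx (D.F x) (D.dir x e)).det| *
        (|(D.A x).det| * |⟪D.symm.gx (D.F x), D.dir x e⟫|) := by ring
    _ = (|(D.Lx x e).det| * |(D.symm.Lx (D.F x) (D.dir x e)).det|) * |⟪D.gx x, e⟫| := by
        rw [← h1]; ring
    _ = _ := by rw [h2, one_mul]

end Geo

variable [MeasurableSpace E] [BorelSpace E] {μ : Measure E} [μ.IsAddHaarMeasure]

theorem cone_pos {N : E → ℝ} (hN : IsNorm N) {r : ℝ} (hr : 0 < r) :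
    μ.prod volume (Cone N r) ≠ 0 := by
  have hc := hN.continuous
  have ho : IsOpen (Cone N r) :=
    (isOpen_lt (by fun_prop) continuous_snd).inter (isOpen_lt continuous_snd continuous_const)
  exact (ho.measure_pos _ ⟨(0, r / 2), by simp [hN.zero, hr], by simpa using hr⟩).ne'

theorem cone_fin {N : E → ℝ} (hN : IsNorm N) (r : ℝ) : μ.prod volume (Cone N r) ≠ ∞ := by
  refine ne_top_of_le_ne_top ((hN.isCompact_le r).prod (isCompact_Icc (a := 0) (b := r))).measure_ne_top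
    (measure_mono fun q hq => ?_)
  exact ⟨(hq.1.trans hq.2).le, ((hN.nonneg _).trans hq.1.le), hq.2.le⟩

theorem ball_fin {N : E → ℝ} (hN : IsNorm N) (r : ℝ) : μ {φ | N φ < r} ≠ ∞ :=
  ne_top_of_le_ne_top (hN.isCompact_le r).measure_ne_top
    (measure_mono fun φ (hq : N φ < r) => hq.le)

namespace Geo

variable (D : Geo E) {δ : Type*} [MeasurableSpace δ] {x e : δ → E} {s : δ → ℝ}

theorem meas_W (hx : Measurable x) (he : Measurable e) : Measurable fun q => D.W (x q) (e q) :=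
  ((D.meas_gx hx).inner (𝕜 := ℝ) he).abs

theorem meas_al (hx : Measurable x) (he : Measurable e) (hs : Measurable s) :
    Measurable fun q => |(D.al (x q) (e q) (s q)).det| :=
  (meas_det (((measurable_const.sub (hs.div (D.meas_rho hx he))).smul (D.meas_Lx hx he)).add
    ((hs.div (D.meas_rho hx he)).smul (D.meas_Lu hx he)))).abs

theorem meas_T : Measurable D.T :=
  (D.meas_psi measurable_snd.fst (D.meas_ge measurable_fst) measurable_fst).prodMk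
    ((D.meas_F measurable_snd.fst).prodMk measurable_snd.snd)

end Geo

namespace Sets

variable {D : Geo E} (S : Sets D μ) (r : ℝ)

theorem step1 (φ : E) : ∫⁻ q in Prod.mk φ ⁻¹' S.Dom r,
    ENNReal.ofReal (D.W q.1 (D.ge φ) * |(D.al q.1 (D.ge φ) q.2).det|) ∂μ.prod volume ≤
      {φ | D.N' φ < r}.indicator (fun _ => μ.prod volume (Cone D.M r)) φ := by
  have hm : MeasurableSet (Prod.mk φ ⁻¹' S.Dom r) := measurable_prodMk_left (S.measurableSet_dom r)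
  rcases (Prod.mk φ ⁻¹' S.Dom r).eq_empty_or_nonempty with h0 | ⟨q₀, hq₀⟩
  · simp [h0]
  obtain ⟨⟨_, _, hφ, hr, _⟩, _⟩ := hq₀
  rw [indicator_of_mem (show φ ∈ {φ | D.N' φ < r} from hr)]
  set f : E × ℝ → E × ℝ := fun q => (D.F q.1 + q.2 • D.dir q.1 (D.ge φ), D.N q.1) with hf
  have key : ∀ q ∈ Prod.mk φ ⁻¹' S.Dom r, HasFDerivAt f (fderiv ℝ f q) q ∧
      |(fderiv ℝ f q).det| = D.W q.1 (D.ge φ) * |(D.al q.1 (D.ge φ) q.2).det| := by
    rintro ⟨x, s⟩ ⟨⟨h1, _, _, _, h2, h3, _⟩, _⟩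
    obtain ⟨L, hL, hd⟩ := (S.good x h1).jac1 h2 (S.good _ h3) s
    rw [hL.fderiv]
    exact ⟨hL, hd⟩
  have h1 := lintegral_abs_det_fderiv_le_addHaar_image (μ.prod volume) hm
    (fun q hq => (key q hq).1.hasFDerivWithinAt) (by
      rintro ⟨x₁, s₁⟩ ⟨⟨a1, _, _, _, a2, _⟩, a3, a4⟩ ⟨x₂, s₂⟩ ⟨⟨b1, _, _, _, b2, _⟩, b3, b4⟩ heq
      obtain ⟨e1, e2⟩ := Prod.ext_iff.mp heq
      obtain ⟨g1, g2⟩ := Geo.chord_inj (S.dN' hφ) (S.N_ge hφ) (S.inner_ge hφ) (S.dx φ hφ).1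
        ((S.good _ a1).back a2) ((S.good _ b1).back b2) a3 a4 b3 b4 e1 e2
      exact Prod.ext g1 g2)
  rw [setLIntegral_congr_fun hm (fun q hq => by rw [(key q hq).2])] at h1
  refine h1.trans (measure_mono ?_)
  rintro _ ⟨⟨x, s⟩, ⟨⟨a1, a0, _, _, a2, _⟩, a3, a4⟩, rfl⟩
  have hb := (S.good _ a1).back a2
  refine ⟨?_, a0⟩
  have := Geo.N_lt (Geo.back_symm hb) a3 (by rw [Geo.rho_symm hb]; exact a4)
  exact this.trans_eq (D.h.nrm x)

theorem int1 : ∫⁻ p in S.Dom r, ENNReal.ofReal (D.W p.2.1 (D.ge p.1) *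
    |(D.al p.2.1 (D.ge p.1) p.2.2).det|) ∂μ.prod (μ.prod volume) ≤
      μ.prod volume (Cone D.M r) * μ {φ | D.N' φ < r} := by
  refine (setLI_le _ _ (S.measurableSet_dom r) _).trans ((lintegral_mono (S.step1 r)).trans ?_)
  rw [lintegral_indicator_const (measurableSet_lt (D.meas_N' measurable_id') measurable_const)]

theorem step2 (φ : E) (hφ : φ ∈ S.DX) (hf : ∀ᵐ x ∂μ, x ∈ S.GX ∧ (⟪D.gx x, D.ge φ⟫ < 0 →
    D.uu x (D.ge φ) ∈ S.GX ∧ D.psi x (D.ge φ) φ ∈ S.DY)) :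
    {φ | D.N' φ < r}.indicator (fun _ => μ.prod volume (Cone D.N r)) φ ≤
      ∫⁻ q in Prod.mk φ ⁻¹' S.Dom r, ENNReal.ofReal (D.W q.1 (D.ge φ)) ∂μ.prod volume := by
  have hm : MeasurableSet (Prod.mk φ ⁻¹' S.Dom r) := measurable_prodMk_left (S.measurableSet_dom r)
  by_cases hr : φ ∈ {φ | D.N' φ < r}
  swap
  · simp [indicator_of_notMem hr]
  rw [indicator_of_mem hr]
  set e := D.ge φ with he
  set f : E × ℝ → E × ℝ := fun q => (q.1 + q.2 • e, D.N q.1) with hf'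
  have key : ∀ q ∈ Prod.mk φ ⁻¹' S.Dom r, HasFDerivAt f (fderiv ℝ f q) q ∧
      |(fderiv ℝ f q).det| = D.W q.1 e := by
    rintro ⟨x, s⟩ ⟨⟨h1, _⟩, _⟩
    obtain ⟨L, hL, hd⟩ := (S.good x h1).jac2 e s
    rw [hL.fderiv]
    exact ⟨hL, hd⟩
  have h1 := addHaar_image_le_lintegral_abs_det_fderiv (μ.prod volume) hm
    (fun q hq => (key q hq).1.hasFDerivWithinAt)
  rw [setLIntegral_congr_fun hm (fun q hq => by rw [(key q hq).2])] at h1
  refine le_trans ?_ h1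
  obtain ⟨K, hK⟩ := D.hN.n.lipschitz
  have hl : ∃ K', LipschitzWith K' f := ⟨_, (LipschitzWith.prod_fst.add
    ((ContinuousLinearMap.toSpanSingleton ℝ e).lipschitz.comp LipschitzWith.prod_snd)).prodMk
      (hK.comp LipschitzWith.prod_fst)⟩
  obtain ⟨K', hK'⟩ := hl
  set Z := {x | ¬ (x ∈ S.GX ∧ (⟪D.gx x, e⟫ < 0 → D.uu x e ∈ S.GX ∧ D.psi x e φ ∈ S.DY))}
  have h2 : μ.prod volume (f '' (Z ×ˢ (univ : Set ℝ))) = 0 :=
    null_image_of_lipschitz _ hK' (by rw [Measure.prod_prod, ae_iff.mp hf, zero_mul])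
  refine le_trans (measure_mono (t := f '' (Prod.mk φ ⁻¹' S.Dom r) ∪ f '' (Z ×ˢ univ)) ?_)
    ((measure_union_le _ _).trans (by rw [h2, add_zero]))
  rintro ⟨z, t⟩ ⟨h3, h4⟩
  have he0 : e ≠ 0 := by
    intro h0
    have := S.N_ge hφ
    rw [← he, h0, D.hN.n.zero] at this
    exact zero_ne_one this
  have hfe : Feas D.N z (-e) t := ⟨neg_ne_zero.mpr he0, 0, by simpa using h3⟩
  set c := exit D.N z (-e) t
  have hc : 0 < c := lt_exit D.hN.n hfe (by simpa using h3)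
  have hx : D.N (z + c • -e) = t := exit_spec D.hN.n hfe
  set x := z + c • -e with hx'
  have hz : x + c • e = z := by rw [hx']; module
  have hlt : D.N (x + c • e) < D.N x := by rw [hz, hx]; exact h3
  have hb : Back D.N x e := ⟨c, hc, hlt⟩
  have himg : f (x, c) = (z, t) := Prod.ext hz hx
  by_cases hZ : x ∈ Z
  · exact Or.inr ⟨(x, c), ⟨hZ, mem_univ _⟩, himg⟩
  · obtain ⟨g1, g2⟩ := not_not.mp hZ
    have g3 := D.hN.back_inner_neg hb (S.good x g1).sub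
    exact Or.inl ⟨(x, c), ⟨⟨g1, hx.trans_lt h4, hφ, hr, g3, g2 g3⟩, hc,
      lt_exit D.hN.n hb.feas hlt⟩, himg⟩

theorem int2 : μ.prod volume (Cone D.N r) * μ {φ | D.N' φ < r} ≤
    ∫⁻ p in S.Dom r, ENNReal.ofReal (D.W p.2.1 (D.ge p.1)) ∂μ.prod (μ.prod volume) := by
  rw [setLI_eq _ _ (S.measurableSet_dom r)
    (D.meas_W measurable_snd.fst (D.meas_ge measurable_fst)).ennreal_ofReal,
    ← lintegral_indicator_const (measurableSet_lt (D.meas_N' measurable_id') measurable_const)]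
  refine lintegral_mono_ae ?_
  filter_upwards [Measure.ae_ae_of_ae_prod S.ae_full, S.aDX] with φ h1 h2
  exact S.step2 r φ h2 (h1.mono fun x hx => hx.2)

theorem push {g : E × E × ℝ → ℝ≥0∞} (hg : Measurable g) :
    ∫⁻ p in S.Dom r, ENNReal.ofReal (|(D.A p.2.1).det| *
      |(D.symm.Lx (D.F p.2.1) (D.dir p.2.1 (D.ge p.1))).det|) * g (D.T p)
        ∂μ.prod (μ.prod volume) ≤ ∫⁻ p, g p ∂μ.prod (μ.prod volume) := by
  have hG : MeasurableSet (S.GX ×ˢ (univ : Set ℝ)) := S.mGX.prod MeasurableSet.univ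
  refine (setLI_le_symm _ _ (S.measurableSet_dom r) _).trans ?_
  rw [lintegral_prod_symm' _ hg]
  have h1 := lintegral_image_eq_lintegral_abs_det_fderiv_mul (μ.prod volume)
    (f := fun q : E × ℝ => (D.F q.1, q.2))
    (f' := fun q => (D.A q.1).prodMap (ContinuousLinearMap.id ℝ ℝ)) hG
    (fun q hq => (((S.good _ hq.1).dF).prodMap q (hasFDerivAt_id q.2)).hasFDerivWithinAt)
    (fun q _ q' _ heq => Prod.ext (D.h.injective (Prod.ext_iff.mp heq).1) (Prod.ext_iff.mp heq).2)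
    (fun q => ∫⁻ ψ, g (ψ, q) ∂μ)
  refine le_trans ?_ (h1.symm.le.trans (setLIntegral_le_lintegral _ _))
  rw [← lintegral_indicator hG]
  refine lintegral_mono fun q => ?_
  obtain ⟨x, s⟩ := q
  have hm : MeasurableSet ((fun a => (a, x, s)) ⁻¹' S.Dom r) :=
    measurable_prodMk_right (S.measurableSet_dom r)
  rcases ((fun a => (a, x, s)) ⁻¹' S.Dom r).eq_empty_or_nonempty with h0 | ⟨q₀, hq₀⟩
  · simp [h0]
  have hx : x ∈ S.GX := hq₀.1.1
  have hgd := S.good x hx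
  rw [indicator_of_mem (show (x, s) ∈ S.GX ×ˢ (univ : Set ℝ) from ⟨hx, mem_univ _⟩),
    det_prod_id _ (D.A x) (fun ξ σ => rfl)]
  have key : ∀ φ ∈ (fun a => (a, x, s)) ⁻¹' S.Dom r, D.Phi x φ = D.psi x (D.ge φ) φ ∧
      HasFDerivAt (D.Phi x)
        (ContinuousLinearMap.adjoint (D.symm.Lx (D.F x) (D.dir x (D.ge φ)))) φ ∧
      D.symm.psi (D.F x) (D.symm.ge (D.Phi x φ)) (D.Phi x φ) = φ := by
    rintro φ ⟨⟨_, _, a1, _, a2, _, a3⟩, _⟩
    have b1 := S.symm.dN' a3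
    have b2 := S.ge_psi hx a1 a2 a3
    rw [b2] at b1
    have b3 := hgd.psi_eq_Phi a2 (S.N_ge a1) (S.inner_ge a1)
      (hgd.feas_of_diff a2 (S.N_ge a1) (S.inner_ge a1) b1)
    refine ⟨b3.symm, hgd.hasFDerivAt_Phi a2 (S.N_ge a1) (S.inner_ge a1) (S.dN' a1) b1, ?_⟩
    rw [← b3, b2, hgd.psi_symm a2]
  have h2 := lintegral_image_eq_lintegral_abs_det_fderiv_mul μ hm
    (fun φ hφ => (key φ hφ).2.1.hasFDerivWithinAt)
    (fun φ hφ φ' hφ' heq => by rw [← (key φ hφ).2.2, heq, (key φ' hφ').2.2])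
    (fun ψ => g (ψ, D.F x, s))
  refine le_trans (le_of_eq ?_) (mul_le_mul_right (h2.symm.le.trans
    (setLIntegral_le_lintegral _ _)) _)
  rw [← lintegral_const_mul' _ _ ENNReal.ofReal_ne_top]
  refine setLIntegral_congr_fun hm fun φ hφ => ?_
  simp only [det_adjoint, (key φ hφ).1, Geo.T]
  rw [ENNReal.ofReal_mul (abs_nonneg _), mul_assoc]

variable {r}

theorem T_mem {p : E × E × ℝ} (hp : p ∈ S.Dom r) : D.T p ∈ S.symm.Dom r := by
  obtain ⟨φ, x, s⟩ := p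
  obtain ⟨⟨a1, a2, a3, a4, a5, a6, a7⟩, a8, a9⟩ := hp
  have hg := S.good x a1
  have hb := hg.back a5
  have b2 := S.ge_psi a1 a3 a5 a7
  refine ⟨⟨S.map x a1, (D.h.nrm x).trans_lt a2, a7,
    (hg.psi_norm a5 (S.N_ge a3) (S.inner_ge a3)).trans_lt a4, ?_, ?_, ?_⟩, a8, ?_⟩
  all_goals simp only [Geo.T]
  all_goals rw [b2]
  · exact hg.inner_dir a5
  · rw [Geo.uu_symm hb]
    exact S.map _ a6
  · rw [hg.psi_symm a5]
    exact a3
  · rw [Geo.rho_symm hb]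
    exact a9

variable (r)

theorem push' {k : E × E × ℝ → ℝ} (hk : Measurable k) :
    ∫⁻ p in S.Dom r, ENNReal.ofReal (D.W p.2.1 (D.ge p.1) * k (D.T p)) ∂μ.prod (μ.prod volume) ≤
      ∫⁻ p in S.symm.Dom r, ENNReal.ofReal (D.symm.W p.2.1 (D.symm.ge p.1) * k p)
        ∂μ.prod (μ.prod volume) := by
  rw [← lintegral_indicator (S.symm.measurableSet_dom r)]
  refine le_trans (le_of_eq ?_) (S.push r ((((D.symm.meas_W measurable_snd.fst
    (D.symm.meas_ge measurable_fst)).mul hk).ennreal_ofReal).indicator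
      (S.symm.measurableSet_dom r)))
  refine setLIntegral_congr_fun (S.measurableSet_dom r) fun p hp => ?_
  rw [indicator_of_mem (S.T_mem hp), ← ENNReal.ofReal_mul (by positivity)]
  obtain ⟨⟨a1, a2, a3, a4, a5, a6, a7⟩, a8, a9⟩ := hp
  have b2 := S.ge_psi a1 a3 a5 a7
  rw [← (S.good _ a1).weight a5, ← mul_assoc]
  simp only [Geo.T, b2]

theorem ae_det (hr : 0 < r) : ∃ l : ℝ, 0 < l ∧ ∀ᵐ p ∂μ.prod (μ.prod volume), p ∈ S.Dom r →
    l * |(D.al p.2.1 (D.ge p.1) p.2.2).det| = 1 := by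
  set c₁ := μ.prod volume (Cone D.N r)
  set c₂ := μ.prod volume (Cone D.M r)
  have p₁ : 0 < c₁.toReal := ENNReal.toReal_pos (cone_pos D.hN.n hr) (cone_fin D.hN.n r)
  have p₂ : 0 < c₂.toReal := ENNReal.toReal_pos (cone_pos D.hM.n hr) (cone_fin D.hM.n r)
  set l := c₁.toReal / c₂.toReal with hl
  have hl0 : 0 < l := by positivity
  have e₁ : ENNReal.ofReal l * c₂ = c₁ := by
    rw [← ENNReal.ofReal_toReal (a := c₂) (cone_fin D.hM.n r), ← ENNReal.ofReal_mul hl0.le, hl,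
      div_mul_cancel₀ _ p₂.ne', ENNReal.ofReal_toReal (cone_fin D.hN.n r)]
  have e₂ : ENNReal.ofReal l⁻¹ * c₁ = c₂ := by
    rw [← ENNReal.ofReal_toReal (a := c₁) (cone_fin D.hN.n r), ← ENNReal.ofReal_mul (by positivity),
      hl, inv_div, div_mul_cancel₀ _ p₁.ne', ENNReal.ofReal_toReal (cone_fin D.hM.n r)]
  refine ⟨l, hl0, ?_⟩
  set w : E × E × ℝ → ℝ := fun p => D.W p.2.1 (D.ge p.1) with hw
  set a : E × E × ℝ → ℝ := fun p => |(D.al p.2.1 (D.ge p.1) p.2.2).det| with ha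
  set a' : E × E × ℝ → ℝ := fun p => |(D.symm.al p.2.1 (D.symm.ge p.1) p.2.2).det| with ha'
  have mw : Measurable w := D.meas_W measurable_snd.fst (D.meas_ge measurable_fst)
  have ma : Measurable a :=
    D.meas_al measurable_snd.fst (D.meas_ge measurable_fst) measurable_snd.snd
  have ma' : Measurable a' :=
    D.symm.meas_al measurable_snd.fst (D.symm.meas_ge measurable_fst) measurable_snd.snd
  have i1 : ∫⁻ p in S.Dom r, ENNReal.ofReal (w p * a p) ∂μ.prod (μ.prod volume) ≤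
    c₂ * μ {φ | D.N' φ < r} := S.int1 r
  have i2 : ∫⁻ p in S.Dom r, ENNReal.ofReal (w p * a' (D.T p)) ∂μ.prod (μ.prod volume) ≤
    c₁ * μ {φ | D.M' φ < r} := (S.push' r ma').trans (S.symm.int1 r)
  have i3 : c₁ * μ {φ | D.N' φ < r} ≤
    ∫⁻ p in S.Dom r, ENNReal.ofReal (w p) ∂μ.prod (μ.prod volume) := S.int2 r
  have i4 : c₂ * μ {φ | D.M' φ < r} ≤
      ∫⁻ p in S.Dom r, ENNReal.ofReal (w p) ∂μ.prod (μ.prod volume) := by
    have := S.symm.push' r (k := fun _ => 1) measurable_const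
    simp only [mul_one] at this
    exact (S.symm.int2 r).trans this
  have m1 : Measurable fun p => ENNReal.ofReal l * ENNReal.ofReal (w p * a p) :=
    (mw.mul ma).ennreal_ofReal.const_mul _
  have m2 : Measurable fun p => ENNReal.ofReal l⁻¹ * ENNReal.ofReal (w p * a' (D.T p)) :=
    (mw.mul (ma'.comp D.meas_T)).ennreal_ofReal.const_mul _
  have i5 : ∫⁻ p in S.Dom r, (ENNReal.ofReal l * ENNReal.ofReal (w p * a p) +
      ENNReal.ofReal l⁻¹ * ENNReal.ofReal (w p * a' (D.T p))) ∂μ.prod (μ.prod volume) ≤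
        c₁ * μ {φ | D.N' φ < r} + c₂ * μ {φ | D.M' φ < r} := by
    rw [lintegral_add_left m1, lintegral_const_mul' _ _ ENNReal.ofReal_ne_top,
      lintegral_const_mul' _ _ ENNReal.ofReal_ne_top]
    refine add_le_add ((mul_le_mul_right i1 _).trans ?_) ((mul_le_mul_right i2 _).trans ?_)
    · rw [← mul_assoc, e₁]
    · rw [← mul_assoc, e₂]
  have pt : ∀ p ∈ S.Dom r, 0 < w p ∧ 1 ≤ (l * a p) * (l⁻¹ * a' (D.T p)) := by
    rintro ⟨φ, x, s⟩ ⟨⟨a1, a2, a3, a4, a5, a6, a7⟩, a8, a9⟩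
    have hg := S.good x a1
    have hb := hg.back a5
    have hρ := Geo.rho_pos hb
    have b2 := S.ge_psi a1 a3 a5 a7
    obtain ⟨h0, H, hH⟩ := S.dx φ a3
    obtain ⟨_, H', hH'⟩ := S.dy _ a7
    rw [b2] at hH'
    have := hg.det_two a5 (S.good _ a6) h0 hH hH' (τ := s / D.rho x (D.ge φ))
      (div_nonneg a8.le hρ.le) ((div_le_one hρ).mpr a9.le)
    refine ⟨abs_pos.mpr a5.ne, ?_⟩
    rw [mul_mul_mul_comm, mul_inv_cancel₀ hl0.ne', one_mul]
    simp only [ha, ha', Geo.T, b2, Geo.al, Geo.rho_symm hb]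
    exact this
  have eq1 : ∀ p, 0 ≤ w p → ENNReal.ofReal l * ENNReal.ofReal (w p * a p) +
      ENNReal.ofReal l⁻¹ * ENNReal.ofReal (w p * a' (D.T p)) =
        ENNReal.ofReal (w p * (l * a p + l⁻¹ * a' (D.T p))) := fun p hp => by
    have g1 : 0 ≤ a p := abs_nonneg _
    have g2 : 0 ≤ a' (D.T p) := abs_nonneg _
    rw [← ENNReal.ofReal_mul hl0.le, ← ENNReal.ofReal_mul (by positivity),
      ← ENNReal.ofReal_add (by positivity) (by positivity)]
    congr 1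
    ring
  have eq2 : ∀ p, 0 ≤ w p → ENNReal.ofReal (w p) + ENNReal.ofReal (w p) =
      ENNReal.ofReal (w p * 2) := fun p hp => by
    rw [← ENNReal.ofReal_add hp hp]
    congr 1
    ring
  have hle : (fun p => ENNReal.ofReal (w p) + ENNReal.ofReal (w p)) ≤ᵐ[(μ.prod
      (μ.prod volume)).restrict (S.Dom r)] fun p => ENNReal.ofReal l * ENNReal.ofReal (w p * a p) +
        ENNReal.ofReal l⁻¹ * ENNReal.ofReal (w p * a' (D.T p)) := by
    filter_upwards [ae_restrict_mem (S.measurableSet_dom r)] with p hp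
    obtain ⟨g1, g2⟩ := pt p hp
    have g3 : 0 ≤ l * a p := mul_nonneg hl0.le (abs_nonneg _)
    have g4 : 0 ≤ l⁻¹ * a' (D.T p) := mul_nonneg (by positivity) (abs_nonneg _)
    rw [eq1 p g1.le, eq2 p g1.le]
    refine ENNReal.ofReal_le_ofReal (mul_le_mul_of_nonneg_left ?_ g1.le)
    by_contra hlt
    push Not at hlt
    nlinarith [sq_nonneg (l * a p - l⁻¹ * a' (D.T p))]
  have hfin : c₁ * μ {φ | D.N' φ < r} + c₂ * μ {φ | D.M' φ < r} ≠ ∞ :=
    ENNReal.add_ne_top.mpr ⟨ENNReal.mul_ne_top (cone_fin D.hN.n r) (ball_fin D.hN.n' r),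
      ENNReal.mul_ne_top (cone_fin D.hM.n r) (ball_fin D.hM.n' r)⟩
  have heq := ae_eq_of_ae_le_of_lintegral_le hle
    (ne_top_of_le_ne_top hfin ((lintegral_mono_ae hle).trans i5)) (m1.add m2).aemeasurable
    (i5.trans (by rw [lintegral_add_left mw.ennreal_ofReal]; exact add_le_add i3 i4))
  filter_upwards [(ae_restrict_iff' (S.measurableSet_dom r)).mp heq] with p hp hpD
  obtain ⟨g1, g2⟩ := pt p hpD
  have g3 : 0 ≤ l * a p := mul_nonneg hl0.le (abs_nonneg _)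
  have g4 : 0 ≤ l⁻¹ * a' (D.T p) := mul_nonneg (by positivity) (abs_nonneg _)
  have g5 := hp hpD
  rw [eq1 p g1.le, eq2 p g1.le, ENNReal.ofReal_eq_ofReal_iff (by positivity) (by positivity)] at g5
  have g6 := mul_left_cancel₀ g1.ne' g5
  have g7 : (l * a p - 1) ^ 2 ≤ 0 := by nlinarith
  have g8 : l * a p - 1 = 0 := pow_eq_zero_iff (two_ne_zero) |>.mp (le_antisymm g7 (sq_nonneg _))
  linarith

end Sets

end Vale.Agent.P084
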