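import Vale.Agent.P084.Deriv

/-! Measurability of chord data, and the good sets. -/

open scoped RealInnerProductSpace Topology ENNReal
open Filter Set MeasureTheory

namespace Vale.Agent.P084

theorem setLI_le {α β : Type*} [MeasurableSpace α] [MeasurableSpace β] (μ : Measure α)
    (ν : Measure β) [SFinite ν] {s : Set (α × β)} (hs : MeasurableSet s) (f : α × β → ℝ≥0∞) :
    ∫⁻ p in s, f p ∂μ.prod ν ≤ ∫⁻ a, ∫⁻ b in Prod.mk a ⁻¹' s, f (a, b) ∂ν ∂μ := by
  rw [← lintegral_indicator hs]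
  refine (lintegral_prod_le _).trans (lintegral_mono fun a => ?_)
  rw [← lintegral_indicator (measurable_prodMk_left hs)]
  exact le_rfl

theorem setLI_eq {α β : Type*} [MeasurableSpace α] [MeasurableSpace β] (μ : Measure α)
    (ν : Measure β) [SFinite ν] {s : Set (α × β)} (hs : MeasurableSet s) {f : α × β → ℝ≥0∞}
    (hf : Measurable f) :
    ∫⁻ p in s, f p ∂μ.prod ν = ∫⁻ a, ∫⁻ b in Prod.mk a ⁻¹' s, f (a, b) ∂ν ∂μ := by
  rw [← lintegral_indicator hs, lintegral_prod _ (hf.indicator hs).aemeasurable]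
  refine lintegral_congr fun a => ?_
  rw [← lintegral_indicator (measurable_prodMk_left hs)]
  rfl

theorem setLI_le_symm {α β : Type*} [MeasurableSpace α] [MeasurableSpace β] (μ : Measure α)
    (ν : Measure β) [SFinite μ] [SFinite ν] {s : Set (α × β)} (hs : MeasurableSet s)
    (f : α × β → ℝ≥0∞) :
    ∫⁻ p in s, f p ∂μ.prod ν ≤ ∫⁻ b, ∫⁻ a in (fun a => (a, b)) ⁻¹' s, f (a, b) ∂μ ∂ν := by
  rw [← lintegral_indicator hs, ← lintegral_prod_swap]
  refine (lintegral_prod_le _).trans (lintegral_mono fun b => ?_)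
  rw [← lintegral_indicator (measurable_prodMk_right hs)]
  exact le_rfl

variable {E : Type*} [NormedAddCommGroup E] [InnerProductSpace ℝ E] [FiniteDimensional ℝ E]

theorem Alex.gradient_eq {N N' : E → ℝ} (hN : DualPair N N') {x φ : E} {H : E →L[ℝ] E}
    (ha : Alex N N' x φ H) : gradient N x = φ :=
  (hasGradientAt_iff_hasFDerivAt.mpr (ha.hasFDerivAt hN) : HasGradientAt N φ x).gradient

variable [MeasurableSpace E] [BorelSpace E]

theorem measurable_grad (N : E → ℝ) : Measurable (gradient N) :=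
  (InnerProductSpace.toDual ℝ E).symm.continuous.measurable.comp (measurable_fderiv ℝ N)

section comp

variable {δ : Type*} [MeasurableSpace δ]

theorem meas_app {A : δ → E →L[ℝ] E} {v : δ → E} (hA : Measurable A) (hv : Measurable v) :
    Measurable fun q => A q (v q) :=
  Continuous.measurable2 (c := fun (L : E →L[ℝ] E) (w : E) => L w) (by fun_prop) hA hv

theorem meas_Lmap {A : δ → E →L[ℝ] E} {g e e' : δ → E} (hA : Measurable A) (hg : Measurable g)
    (he : Measurable e) (he' : Measurable e') :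
    Measurable fun q => Lmap (A q) (g q) (e q) (e' q) := by
  have h1 : Measurable fun q => ⟪g q, e q⟫⁻¹ • (e' q - A q (e q)) :=
    (hg.inner (𝕜 := ℝ) he).inv.smul (he'.sub (meas_app hA he))
  have h2 : Continuous fun p : E × E => (innerSL ℝ p.1).smulRight p.2 := by
    have := (ContinuousLinearMap.smulRightL ℝ E E).continuous₂.comp
      (((innerSL ℝ (E := E)).continuous.comp continuous_fst).prodMk
        (continuous_snd (X := E) (Y := E)))
    exact this
  exact hA.add (h2.measurable2 (c := fun a b => (innerSL ℝ a).smulRight b) hg h1)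

theorem meas_det {A : δ → E →L[ℝ] E} (hA : Measurable A) : Measurable fun q => (A q).det :=
  ContinuousLinearMap.continuous_det.measurable.comp hA

namespace Geo

variable (D : Geo E) {x e φ : δ → E}

theorem meas_gx (hx : Measurable x) : Measurable fun q => D.gx (x q) :=
  (measurable_grad D.N).comp hx

theorem meas_ge (hx : Measurable x) : Measurable fun q => D.ge (x q) :=
  (measurable_grad D.N').comp hx

theorem meas_A (hx : Measurable x) : Measurable fun q => D.A (x q) :=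
  (measurable_fderiv ℝ D.F).comp hx

theorem meas_N (hx : Measurable x) : Measurable fun q => D.N (x q) :=
  D.hN.n.continuous.measurable.comp hx

theorem meas_N' (hx : Measurable x) : Measurable fun q => D.N' (x q) :=
  D.hN.n'.continuous.measurable.comp hx

theorem meas_F (hx : Measurable x) : Measurable fun q => D.F (x q) :=
  (D.h.continuous D.hN.n D.hM.n).measurable.comp hx

theorem meas_rho (hx : Measurable x) (he : Measurable e) :
    Measurable fun q => D.rho (x q) (e q) :=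
  (measurable_exit D.hN.n).comp (hx.prodMk (he.prodMk (D.meas_N hx)))

theorem meas_uu (hx : Measurable x) (he : Measurable e) :
    Measurable fun q => D.uu (x q) (e q) :=
  hx.add ((D.meas_rho hx he).smul he)

theorem meas_dir (hx : Measurable x) (he : Measurable e) :
    Measurable fun q => D.dir (x q) (e q) :=
  (D.meas_rho hx he).inv.smul ((D.meas_F (D.meas_uu hx he)).sub (D.meas_F hx))

theorem meas_Lx (hx : Measurable x) (he : Measurable e) :
    Measurable fun q => D.Lx (x q) (e q) :=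
  meas_Lmap (D.meas_A hx) (D.meas_gx hx) he (D.meas_dir hx he)

theorem meas_Lu (hx : Measurable x) (he : Measurable e) :
    Measurable fun q => D.Lu (x q) (e q) :=
  meas_Lmap (D.meas_A (D.meas_uu hx he)) (D.meas_gx (D.meas_uu hx he)) he (D.meas_dir hx he)

theorem meas_psi (hx : Measurable x) (he : Measurable e) (hφ : Measurable φ) :
    Measurable fun q => D.psi (x q) (e q) (φ q) :=
  meas_app ((ContinuousLinearMap.adjoint (𝕜 := ℝ) (E := E) (F := E)).continuous.measurable.comp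
    (D.symm.meas_Lx (D.meas_F hx) (D.meas_dir hx he))) hφ

end Geo

end comp

/-- Measurable sets of full measure made of good points. -/
structure Sets (D : Geo E) (μ : Measure E) where
  GX : Set E
  GY : Set E
  DX : Set E
  DY : Set E
  mGX : MeasurableSet GX
  mGY : MeasurableSet GY
  mDX : MeasurableSet DX
  mDY : MeasurableSet DY
  aGX : ∀ᵐ x ∂μ, x ∈ GX
  aGY : ∀ᵐ x ∂μ, x ∈ GY
  aDX : ∀ᵐ x ∂μ, x ∈ DX
  aDY : ∀ᵐ x ∂μ, x ∈ DY
  good : ∀ x ∈ GX, D.Good x
  good' : ∀ y ∈ GY, D.symm.Good y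
  map : ∀ x ∈ GX, D.F x ∈ GY
  map' : ∀ y ∈ GY, D.G y ∈ GX
  dx : ∀ φ ∈ DX, φ ≠ 0 ∧ ∃ H, Alex D.N' D.N φ (D.ge φ) H
  dy : ∀ ψ ∈ DY, ψ ≠ 0 ∧ ∃ H, Alex D.M' D.M ψ (D.symm.ge ψ) H

variable (μ : Measure E) [μ.IsAddHaarMeasure]

theorem exists_full {P : E → Prop} (h : ∀ᵐ x ∂μ, P x) :
    ∃ S : Set E, MeasurableSet S ∧ (∀ᵐ x ∂μ, x ∈ S) ∧ ∀ x ∈ S, P x := by
  obtain ⟨Z, hZ, hZm, hZ0⟩ := exists_measurable_superset_of_null (ae_iff.mp h)
  refine ⟨Zᶜ, hZm.compl, measure_eq_zero_iff_ae_notMem.mp hZ0, fun x hx => ?_⟩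
  by_contra hne
  exact hx (hZ hne)

theorem ae_alex [Nontrivial E] {N N' : E → ℝ} (hN : DualPair N N') :
    ∀ᵐ x ∂μ, x ≠ 0 ∧ ∃ H, Alex N N' x (gradient N x) H := by
  filter_upwards [alex_ae hN μ, Measure.ae_ne μ 0] with x hx hx0
  obtain ⟨φ, H, h⟩ := hx
  exact ⟨hx0, H, by rwa [h.gradient_eq hN]⟩

theorem exists_sets [Nontrivial E] (D : Geo E) : Nonempty (Sets D μ) := by
  have h1 : ∀ᵐ x ∂μ, D.Good x := by
    filter_upwards [ae_alex μ D.hN, D.h.symm.ae_comp μ D.hM.n D.hN.n (ae_alex μ D.hM)] with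
      x hx hy
    obtain ⟨hx0, H, hx⟩ := hx
    obtain ⟨hy0, H', hy⟩ := hy
    obtain ⟨A, hA⟩ := quad_of_alex μ D.hN D.hM D.h hx0 hx hy
    obtain ⟨B, hB⟩ := quad_of_alex μ D.hM D.hN D.h.symm hy0 hy (by rw [D.h.gf]; exact hx)
    refine ⟨hx0, ⟨H, hx⟩, ⟨H', hy⟩, ?_, ?_⟩
    · rwa [Geo.A, hA.hasFDerivAt.fderiv]
    · change Quad D.G (D.F x) (fderiv ℝ D.G (D.F x))
      rwa [hB.hasFDerivAt.fderiv]
  obtain ⟨GX, m1, a1, g1⟩ := exists_full μ h1
  obtain ⟨DX, m2, a2, g2⟩ := exists_full μ (ae_alex μ D.hN.symm)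
  obtain ⟨DY, m3, a3, g3⟩ := exists_full μ (ae_alex μ D.hM.symm)
  exact ⟨⟨GX, D.G ⁻¹' GX, DX, DY, m1, (D.h.symm.continuous D.hM.n D.hN.n).measurable m1, m2, m3,
    a1, D.h.ae_comp μ D.hN.n D.hM.n a1, a2, a3, g1,
    fun y hy => by simpa [D.h.fg] using (g1 _ hy).symm,
    fun x hx => by simpa [D.h.gf] using hx, fun y hy => hy, g2, g3⟩⟩

namespace Sets

variable {μ} {D : Geo E} (S : Sets D μ)

/-- The sets seen from the other side. -/
def symm : Sets D.symm μ :=
  ⟨S.GY, S.GX, S.DY, S.DX, S.mGY, S.mGX, S.mDY, S.mDX, S.aGY, S.aGX, S.aDY, S.aDX, S.good',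
    S.good, S.map', S.map, S.dy, S.dx⟩

/-- Pairs of a functional and a point giving a good chord. -/
def Base (r : ℝ) : Set (E × E) :=
  {q | q.2 ∈ S.GX ∧ D.N q.2 < r ∧ q.1 ∈ S.DX ∧ D.N' q.1 < r ∧ ⟪D.gx q.2, D.ge q.1⟫ < 0 ∧
    D.uu q.2 (D.ge q.1) ∈ S.GX ∧ D.psi q.2 (D.ge q.1) q.1 ∈ S.DY}

/-- The domain of integration. -/
def Dom (r : ℝ) : Set (E × E × ℝ) :=
  {p | (p.1, p.2.1) ∈ S.Base r ∧ 0 < p.2.2 ∧ p.2.2 < D.rho p.2.1 (D.ge p.1)}

theorem measurableSet_base (r : ℝ) : MeasurableSet (S.Base r) := by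
  have he : Measurable fun q : E × E => D.ge q.1 := D.meas_ge measurable_fst
  have hx : Measurable (Prod.snd : E × E → E) := measurable_snd
  exact (hx S.mGX).inter ((measurableSet_lt (D.meas_N hx) measurable_const).inter
    ((measurable_fst S.mDX).inter ((measurableSet_lt (D.meas_N' measurable_fst)
      measurable_const).inter ((measurableSet_lt ((D.meas_gx hx).inner (𝕜 := ℝ) he) measurable_const).inter
        ((D.meas_uu hx he S.mGX).inter (D.meas_psi hx he measurable_fst S.mDY))))))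

theorem measurableSet_dom (r : ℝ) : MeasurableSet (S.Dom r) :=
  ((measurable_fst.prodMk measurable_snd.fst) (S.measurableSet_base r)).inter
    ((measurableSet_lt measurable_const measurable_snd.snd).inter
      (measurableSet_lt measurable_snd.snd
        (D.meas_rho measurable_snd.fst (D.meas_ge measurable_fst))))

variable {φ : E}

theorem N_ge (h : φ ∈ S.DX) : D.N (D.ge φ) = 1 := by
  obtain ⟨h0, H, hH⟩ := S.dx φ h
  exact D.hN.symm.sub_norm_eq hH.sub h0

theorem inner_ge (h : φ ∈ S.DX) : ⟪φ, D.ge φ⟫ = D.N' φ := by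
  obtain ⟨_, H, hH⟩ := S.dx φ h
  rw [real_inner_comm]
  exact hH.sub.2

theorem dN' (h : φ ∈ S.DX) : HasFDerivAt D.N' (innerSL ℝ (D.ge φ)) φ := by
  obtain ⟨_, H, hH⟩ := S.dx φ h
  exact hH.hasFDerivAt D.hN.symm

theorem ge_psi {x : E} (hx : x ∈ S.GX) (h : φ ∈ S.DX) (he : ⟪D.gx x, D.ge φ⟫ < 0)
    (hψ : D.psi x (D.ge φ) φ ∈ S.DY) : D.symm.ge (D.psi x (D.ge φ) φ) = D.dir x (D.ge φ) := by
  obtain ⟨_, H, hH⟩ := S.dy _ hψ
  exact (hH.unique ((S.good x hx).psi_sub he (S.N_ge h) (S.inner_ge h))).symm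

theorem ae_uu (h : φ ∈ S.DX) :
    ∀ᵐ x ∂μ, x ∈ S.GX → ⟪D.gx x, D.ge φ⟫ < 0 → D.uu x (D.ge φ) ∈ S.GX := by
  have hp : 0 < D.N' φ := D.hN.n'.pos φ (S.dx φ h).1
  have hl : ⟪(D.N' φ)⁻¹ • φ, D.ge φ⟫ = 1 := by
    rw [real_inner_smul_left, S.inner_ge h, inv_mul_cancel₀ hp.ne']
  have := null_transfer μ D.hN.n D.hN.n (d₂ := D.ge φ) (l₂ := (D.N' φ)⁻¹ • φ) hl
    (ContinuousLinearMap.id ℝ E)
    (S := {x | x ∈ S.GX ∧ ⟪D.gx x, D.ge φ⟫ < 0 ∧ D.uu x (D.ge φ) ∉ S.GX}) (Z := S.GXᶜ)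
    (S.mGX.inter ((measurableSet_lt ((D.meas_gx measurable_id).inner (𝕜 := ℝ) measurable_const)
      measurable_const).inter (D.meas_uu measurable_id measurable_const S.mGX.compl)))
    (ae_iff.mp S.aGX) (fun z hz => ⟨_, (S.good z hz.1).dN, hz.2.1⟩) (fun z hz => ⟨_, hz.2.2, by
      rw [Geo.N_uu ((S.good z hz.1).back hz.2.1), Geo.uu, inner_add_right, inner_smul_right, hl,
        ContinuousLinearMap.id_apply]
      module⟩)
  filter_upwards [measure_eq_zero_iff_ae_notMem.mp this] with x hx h1 h2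
  by_contra h3
  exact hx ⟨h1, h2, h3⟩

theorem ae_psi {x : E} (hx : x ∈ S.GX) :
    ∀ᵐ φ ∂μ, φ ∈ S.DX → ⟪D.gx x, D.ge φ⟫ < 0 → D.psi x (D.ge φ) φ ∈ S.DY := by
  have hg := S.good x hx
  have hp := hg.pos
  have hl : ⟪(D.N x)⁻¹ • x, D.gx x⟫ = 1 := by
    rw [real_inner_smul_left, real_inner_comm, hg.sub.2, inv_mul_cancel₀ hp.ne']
  have he := D.meas_ge (measurable_id (α := E))
  have hT : ContinuousLinearMap.adjoint (D.A x) (D.symm.gx (D.F x)) = D.gx x :=
    ext_inner_right ℝ fun v => by rw [ContinuousLinearMap.adjoint_inner_left, hg.inner_A]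
  have := null_transfer μ D.hN.n' D.hM.n' (d₂ := D.symm.gx (D.F x)) (l₂ := (D.N x)⁻¹ • D.F x) hl
    (ContinuousLinearMap.adjoint (D.A x))
    (S := {φ | φ ∈ S.DX ∧ ⟪D.gx x, D.ge φ⟫ < 0 ∧ D.psi x (D.ge φ) φ ∉ S.DY}) (Z := S.DYᶜ)
    (S.mDX.inter ((measurableSet_lt (measurable_const.inner (𝕜 := ℝ) he) measurable_const).inter
      (D.meas_psi measurable_const he measurable_id S.mDY.compl)))
    (ae_iff.mp S.aDY) (fun z hz => ⟨_, S.dN' hz.1, by rw [real_inner_comm]; exact hz.2.1⟩)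
    (fun z hz => ⟨_, hz.2.2, by
      obtain ⟨k, hk⟩ := hg.psi_eq hz.2.1 z
      have h1 : ContinuousLinearMap.adjoint (D.A x)
          (ContinuousLinearMap.adjoint (D.symm.A (D.F x)) z) = z :=
        ext_inner_right ℝ fun v => by
          rw [ContinuousLinearMap.adjoint_inner_left, ContinuousLinearMap.adjoint_inner_left,
            hg.BA]
      have h2 : ⟪(D.N x)⁻¹ • D.F x, D.psi x (D.ge z) z⟫ = ⟪(D.N x)⁻¹ • x, z⟫ - k := by
        have h3 : ⟪D.F x, D.symm.gx (D.F x)⟫ = D.N x := by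
          rw [real_inner_comm, hg.symm.sub.2]
          exact D.h.nrm x
        have h4 : D.symm.A (D.F x) (D.F x) = x := by
          have := hg.BA x
          rwa [hg.A_self] at this
        rw [hk, real_inner_smul_left, real_inner_smul_left, inner_add_right, inner_smul_right,
          inner_neg_right, h3, ContinuousLinearMap.adjoint_inner_right, h4]
        field_simp
        ring
      rw [hg.psi_norm hz.2.1 (S.N_ge hz.1) (S.inner_ge hz.1), h2, map_add, map_smul, hT, hk,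
        map_add, map_smul, map_neg, hT, h1]
      module⟩)
  filter_upwards [measure_eq_zero_iff_ae_notMem.mp this] with φ hφ h1 h2
  by_contra h3
  exact hφ ⟨h1, h2, h3⟩

theorem ae_full : ∀ᵐ q ∂μ.prod μ, q.1 ∈ S.DX ∧ q.2 ∈ S.GX ∧ (⟪D.gx q.2, D.ge q.1⟫ < 0 →
    D.uu q.2 (D.ge q.1) ∈ S.GX ∧ D.psi q.2 (D.ge q.1) q.1 ∈ S.DY) := by
  have he : Measurable fun q : E × E => D.ge q.1 := D.meas_ge measurable_fst
  have hx : Measurable (Prod.snd : E × E → E) := measurable_snd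
  have m0 := measurableSet_lt ((D.meas_gx hx).inner (𝕜 := ℝ) he) (measurable_const (a := (0 : ℝ)))
  have h1 : ∀ᵐ φ ∂μ, ∀ᵐ x ∂μ, φ ∈ S.DX → ⟪D.gx x, D.ge φ⟫ < 0 → D.psi x (D.ge φ) φ ∈ S.DY := by
    refine (Measure.ae_ae_comm (p := fun φ x => φ ∈ S.DX → ⟪D.gx x, D.ge φ⟫ < 0 →
      D.psi x (D.ge φ) φ ∈ S.DY) ?_).mpr ?_
    · exact MeasurableSet.imp (measurable_fst S.mDX)
        (MeasurableSet.imp m0 (D.meas_psi hx he measurable_fst S.mDY))
    · filter_upwards [S.aGX] with x hx using S.ae_psi hx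
  refine (Measure.ae_prod_iff_ae_ae ?_).mpr ?_
  · exact (measurable_fst S.mDX).inter ((hx S.mGX).inter (MeasurableSet.imp m0
      ((D.meas_uu hx he S.mGX).inter (D.meas_psi hx he measurable_fst S.mDY))))
  · filter_upwards [S.aDX, h1] with φ hφ h2
    filter_upwards [S.aGX, h2, S.ae_uu hφ] with x g1 g2 g3
    exact ⟨hφ, g1, fun g4 => ⟨g3 g1 g4, g2 hφ g4⟩⟩

end Sets

end Vale.Agent.P084
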